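import Crest.Agent.R133.Code

set_option autoImplicit false

open MeasureTheory Metric Set Crest.AnalysisR
open scoped ENNReal Manifold ContDiff Topology

namespace Crest.Agent.R133

/-- Majority decoding. -/
def brDec (N : ℕ) (u : ℕ → Bool) (v : Fin N → Bool) : Bool :=
  decide (N ≤ 2 * (Finset.univ.filter fun t : Fin N => v t ≠ u t).card)

/-- Extension by `false`. -/
def brExt {n : ℕ} (w : Fin n → Bool) (a : ℕ) : Bool := if h : a < n then w ⟨a, h⟩ else false

/-- Decoding of a window. -/
def brWin (N : ℕ) (u : ℕ → Bool) (l s : ℕ) (σ : Bool) (w : Fin (2 * N * l) → Bool) :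
    Fin l → Bool :=
  fun i => xor σ (brDec N u fun t => brExt w (N * l - s + (i * N + t)))

/-- The averaged push-forward. -/
noncomputable def brPush (N : ℕ) (u : ℕ → Bool) (l s : ℕ) (ν : (Fin (2 * N * l) → Bool) → ℝ)
    (w' : Fin l → Bool) : ℝ :=
  ∑ σ : Bool, ∑ w, if brWin N u l s σ w = w' then ν w / 2 else 0

theorem brDec_ne {N : ℕ} {u : ℕ → Bool} {v : Fin N → Bool} {σ : Bool} (h : brDec N u v ≠ σ) :
    N ≤ 2 * (Finset.univ.filter fun t : Fin N => v t ≠ xor σ (u t)).card := by
  cases σ with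
  | false => simpa [brDec] using h
  | true =>
    have h1 : ¬ N ≤ 2 * (Finset.univ.filter fun t : Fin N => v t ≠ u t).card := by
      simpa [brDec] using h
    have h2 := Finset.card_filter_add_card_filter_not (s := (Finset.univ : Finset (Fin N)))
      fun t : Fin N => v t ≠ u t
    rw [Finset.card_univ, Fintype.card_fin] at h2
    have h3 : (Finset.univ.filter fun t : Fin N => v t ≠ xor true (u t)) =
        Finset.univ.filter fun t : Fin N => ¬ v t ≠ u t := by
      refine Finset.filter_congr fun t _ => ?_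
      cases v t <;> cases u t <;> simp
    rw [h3]
    omega

theorem brPush_sum (N : ℕ) (u : ℕ → Bool) (l s : ℕ) (ν : (Fin (2 * N * l) → Bool) → ℝ)
    (𝒜 : Finset (Fin l → Bool)) : ∑ w' ∈ 𝒜, brPush N u l s ν w' =
      ∑ σ : Bool, (∑ w ∈ Finset.univ.filter fun w => brWin N u l s σ w ∈ 𝒜, ν w) / 2 := by
  simp only [brPush]
  rw [Finset.sum_comm]
  refine Finset.sum_congr rfl fun σ _ => ?_
  rw [Finset.sum_comm, Finset.sum_filter, Finset.sum_div]
  refine Finset.sum_congr rfl fun w _ => ?_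
  rw [Finset.sum_ite_eq]
  split_ifs <;> simp

theorem brPush_sub (N : ℕ) (u : ℕ → Bool) (l s : ℕ) {ν : (Fin (2 * N * l) → Bool) → ℝ}
    (h : IsSubProb ν) : IsSubProb (brPush N u l s ν) := by
  refine ⟨fun w' => Finset.sum_nonneg fun σ _ => Finset.sum_nonneg fun w _ => ?_, ?_⟩
  · split_ifs
    · linarith [h.1 w]
    · exact le_rfl
  · rw [brPush_sum]
    simp only [Finset.mem_univ, Finset.filter_true, Fintype.sum_bool]
    linarith [h.2]

theorem br_sum_range_mul (f : ℕ → ℝ) (n K : ℕ) :
    ∑ a ∈ Finset.range (K * n), f a =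
      ∑ α ∈ Finset.range K, ∑ s ∈ Finset.range n, f (α * n + s) := by
  induction K with
  | zero => simp
  | succ K ih => rw [add_mul, one_mul, Finset.sum_range_add, ih, Finset.sum_range_succ]

theorem br_card {N l : ℕ} (h1 : 7500 ≤ l) (h2 : N ≤ l) :
    Real.exp (Real.exp (l / 50)) * (N * l) ≤ Real.exp (Real.exp (l / 30)) := by
  have hl : (7500 : ℝ) ≤ l := by exact_mod_cast h1
  have hN : (N : ℝ) ≤ l := by exact_mod_cast h2
  have e1 : (N : ℝ) * l ≤ Real.exp (N + l) := by
    rw [Real.exp_add]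
    exact mul_le_mul (by linarith [Real.add_one_le_exp (N : ℝ)])
      (by linarith [Real.add_one_le_exp (l : ℝ)]) (by positivity) (by positivity)
  have e2 : Real.exp ((l : ℝ) / 30) = Real.exp (l / 50) * Real.exp (l / 75) := by
    rw [← Real.exp_add]; congr 1; ring
  have e3 := Real.add_one_le_exp ((l : ℝ) / 50)
  have e4 := Real.add_one_le_exp ((l : ℝ) / 75)
  have e5 : Real.exp ((l : ℝ) / 50) + (N + l) ≤ Real.exp (l / 30) := by
    rw [e2]
    have a1 : Real.exp ((l : ℝ) / 50) * (l / 75 + 1) ≤ Real.exp (l / 50) * Real.exp (l / 75) :=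
      mul_le_mul_of_nonneg_left e4 (Real.exp_pos _).le
    have a2 : (l : ℝ) / 50 * (l / 75) ≤ Real.exp (l / 50) * (l / 75) :=
      mul_le_mul_of_nonneg_right (by linarith) (by positivity)
    nlinarith
  calc _ ≤ Real.exp (Real.exp (l / 50)) * Real.exp (N + l) := by gcongr
    _ = Real.exp (Real.exp (l / 50) + (N + l)) := (Real.exp_add _ _).symm
    _ ≤ _ := Real.exp_le_exp.2 e5

section sys
variable {X : Type} [MeasurableSpace X] {μ : Measure X} [IsProbabilityMeasure μ]

open Classical in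
theorem br_markov {ι : Type*} (s : Finset ι) {A : Set X} (hA : MeasurableSet A) {A' : ι → Set X}
    (hA' : ∀ i, MeasurableSet (A' i)) {c : ℝ}
    (h : ∀ x ∈ A, c ≤ (s.filter fun i => x ∈ A' i).card) :
    c * μ.real A ≤ ∑ i ∈ s, μ.real (A' i) := by
  have hi : ∀ {S : Set X}, MeasurableSet S → Integrable (S.indicator (1 : X → ℝ)) μ := fun hS =>
    (integrable_const (1 : ℝ)).indicator hS
  rw [← integral_indicator_one hA, ← integral_const_mul]
  simp only [← integral_indicator_one (hA' _)]
  rw [← integral_finsetSum _ fun i _ => hi (hA' i)]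
  refine integral_mono ((hi hA).const_mul c) (integrable_finsetSum _ fun i _ => hi (hA' i))
    fun x => ?_
  by_cases hx : x ∈ A
  · simp only [indicator_of_mem hx, Pi.one_apply, mul_one]
    refine (h x hx).trans (le_of_eq ?_)
    rw [Finset.card_filter]
    push_cast
    refine Finset.sum_congr rfl fun i _ => ?_
    simp [indicator_apply]
  · simp only [indicator_of_notMem hx, mul_zero]
    exact Finset.sum_nonneg fun i _ => indicator_nonneg (fun _ _ => zero_le_one) _

theorem br_law {Ω : Type} [Fintype Ω] [MeasurableSpace Ω] [MeasurableSingletonClass Ω]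
    {Z : X → Ω} (hZ : Measurable Z) {base : Set X} (hb : MeasurableSet base) (c : ℝ)
    (p : Ω → Prop) [DecidablePred p] :
    ∑ o, c * μ.real (Z ⁻¹' {o} ∩ base) * (if p o then 1 else 0) =
      c * μ.real ({x | p (Z x)} ∩ base) := by
  have := sum_measureReal_preimage_singleton (μ := μ.restrict base) (Finset.univ.filter p)
    (f := Z) (fun y _ => hZ (measurableSet_singleton y))
  simp only [measureReal_restrict_apply' hb] at this
  have e : (Z ⁻¹' ↑(Finset.univ.filter p)) = {x | p (Z x)} := by ext x; simp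
  rw [e] at this
  rw [← this, Finset.mul_sum, Finset.sum_filter]
  refine Finset.sum_congr rfl fun o _ => ?_
  split_ifs <;> simp

variable {T : X → X} {pos : X → ℕ} {M : ℕ}

omit [MeasurableSpace X] in
theorem br_pos_iter (h1 : ∀ x, pos x < M) (h2 : ∀ x, pos (T x) = (pos x + 1) % M) (a : ℕ)
    (x : X) : pos (T^[a] x) = (pos x + a) % M := by
  induction a with
  | zero => exact (Nat.mod_eq_of_lt (h1 x)).symm
  | succ a ih => rw [Function.iterate_succ_apply', h2, ih, Nat.mod_add_mod, add_assoc]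

omit [MeasurableSpace X] in
theorem br_sg_iter {sg : X → Bool} (h1 : ∀ x, pos x < M) (h2 : ∀ x, pos (T x) = (pos x + 1) % M)
    (h3 : ∀ x, pos x + 1 < M → sg (T x) = sg x) {x : X} (hx : pos x = 0) {a : ℕ} (ha : a < M) :
    sg (T^[a] x) = sg x := by
  induction a with
  | zero => rfl
  | succ a ih =>
    rw [Function.iterate_succ_apply', h3, ih (by omega)]
    rw [br_pos_iter h1 h2, hx, zero_add, Nat.mod_eq_of_lt (by omega)]
    exact ha

theorem br_key (hT : MeasurePreserving T μ μ) (hpos : Measurable pos) (h1 : ∀ x, pos x < M)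
    (h2 : ∀ x, pos (T x) = (pos x + 1) % M) {S : Set X} (hS : MeasurableSet S) :
    ∑ a ∈ Finset.range M, μ.real (T^[a] ⁻¹' S ∩ {x | pos x = 0}) = μ.real S := by
  have e1 := sum_measureReal_preimage_singleton (μ := μ.restrict S) (Finset.range M)
    (f := pos) (fun y _ => hpos (measurableSet_singleton y))
  simp only [measureReal_restrict_apply' hS] at e1
  have e2 : pos ⁻¹' ↑(Finset.range M) = univ := by
    ext x; simpa using h1 x
  rw [e2, univ_inter] at e1
  rw [← e1]
  refine Finset.sum_congr rfl fun a ha => ?_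
  have ha := Finset.mem_range.1 ha
  rw [← (hT.iterate a).measureReal_preimage
    ((hpos (measurableSet_singleton a)).inter hS).nullMeasurableSet]
  congr 1
  ext x
  simp only [mem_inter_iff, mem_preimage, mem_ofPred_eq, mem_singleton_iff,
    br_pos_iter h1 h2 a x]
  rw [and_comm]
  refine and_congr_left fun _ => ⟨fun h => ?_, fun h => ?_⟩
  · rw [h, zero_add, Nat.mod_eq_of_lt ha]
  · have hx := h1 x
    by_cases hlt : pos x + a < M
    · rw [Nat.mod_eq_of_lt hlt] at h; omega
    · rw [Nat.mod_eq_sub_mod (by omega), Nat.mod_eq_of_lt (by omega)] at h; omega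

end sys

/-- The decoded bits along the orbit of `x`. -/
def brZ {X : Type} (N : ℕ) (u : ℕ → Bool) (T : X → X) (sg Y : X → Bool) (x : X) (i : ℕ) : Bool :=
  xor (sg x) (brDec N u fun t => Y (T^[i * N + t] x))

section main
variable {X : Type} [MeasurableSpace X] {μ : Measure X} [IsProbabilityMeasure μ]
  {T : X → X} {pos : X → ℕ} {sg P Y : X → Bool} {N B : ℕ} {u b : ℕ → Bool}

omit [IsProbabilityMeasure μ] in
theorem brZ_meas (hT : MeasurePreserving T μ μ) (hsg : Measurable sg) (hY : Measurable Y) :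
    Measurable fun x (i : Fin B) => brZ N u T sg Y x i := by
  refine measurable_pi_lambda _ fun i => ?_
  exact (measurable_of_countable (fun q : Bool × (Fin N → Bool) => xor q.1 (brDec N u q.2))).comp
    (hsg.prodMk (measurable_pi_lambda _ fun t => hY.comp (hT.measurable.iterate _)))

theorem br_err (hN : 0 < N) (hT : MeasurePreserving T μ μ) (hpos : Measurable pos)
    (hsg : Measurable sg) (hY : Measurable Y) (h1 : ∀ x, pos x < N * B)
    (h2 : ∀ x, pos (T x) = (pos x + 1) % (N * B))
    (h3 : ∀ x, pos x + 1 < N * B → sg (T x) = sg x)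
    (h4 : ∀ x, P x = xor (sg x) (xor (u (pos x % N)) (b (pos x / N))))
    (h5 : μ.real {x | Y x ≠ P x} ≤ 1 / 10000) :
    ∑ o : Fin B → Bool, ((N * B : ℕ) : ℝ) *
      μ.real ((fun x (i : Fin B) => brZ N u T sg Y x i) ⁻¹' {o} ∩ {x | pos x = 0}) *
        (hd B b (brExt o) : ℝ) ≤ (B : ℝ) / 5000 := by
  classical
  have hb : MeasurableSet {x | pos x = 0} := hpos (measurableSet_singleton 0)
  have hP : Measurable P := by
    rw [show P = _ from funext h4]
    exact (measurable_of_countable
      (fun q : Bool × ℕ => xor q.1 (xor (u (q.2 % N)) (b (q.2 / N))))).comp (hsg.prodMk hpos)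
  have hE : MeasurableSet {x | Y x ≠ P x} := (measurableSet_eq_fun hY hP).compl
  have hZ := brZ_meas (N := N) (B := B) (u := u) hT hsg hY
  simp only [hd, Finset.card_filter, Nat.cast_sum, Finset.mul_sum, Nat.cast_ite, Nat.cast_one,
    Nat.cast_zero]
  rw [Finset.sum_comm]
  have key := br_key hT hpos h1 h2 hE
  rw [mul_comm N B, br_sum_range_mul] at key
  have step : ∀ i ∈ Finset.range B, ∑ o : Fin B → Bool, ((N * B : ℕ) : ℝ) *
      μ.real ((fun x (i : Fin B) => brZ N u T sg Y x i) ⁻¹' {o} ∩ {x | pos x = 0}) *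
        (if b i ≠ brExt o i then 1 else 0) ≤ 2 * B *
      ∑ t ∈ Finset.range N, μ.real (T^[i * N + t] ⁻¹' {x | Y x ≠ P x} ∩ {x | pos x = 0}) := by
    intro i hi
    have hi := Finset.mem_range.1 hi
    rw [br_law hZ hb _ fun o => b i ≠ brExt o i]
    have hA : MeasurableSet ({x | b i ≠ brExt (fun i : Fin B => brZ N u T sg Y x i) i} ∩
        {x | pos x = 0}) :=
      (hZ (MeasurableSet.of_discrete (s := {o | b i ≠ brExt o i}))).inter hb
    have := br_markov (μ := μ) (Finset.univ : Finset (Fin N)) hA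
      (A' := fun t => T^[i * N + t] ⁻¹' {x | Y x ≠ P x} ∩ {x | pos x = 0})
      (fun t => ((hT.measurable.iterate _) hE).inter hb) (c := N / 2) (by
        rintro x ⟨hx, hx0⟩
        simp only [mem_ofPred_eq, brExt, dif_pos hi, brZ] at hx hx0
        have hne : brDec N u (fun t => Y (T^[i * N + t] x)) ≠ xor (sg x) (b i) := by
          intro h
          rw [h] at hx
          revert hx
          cases sg x <;> cases b i <;> simp
        have h6 := brDec_ne hne
        have h7 : (Finset.univ.filter fun t : Fin N =>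
            Y (T^[i * N + t] x) ≠ xor (xor (sg x) (b i)) (u t)) =
            Finset.univ.filter fun t : Fin N =>
              x ∈ T^[i * N + t] ⁻¹' {x | Y x ≠ P x} ∩ {x | pos x = 0} := by
          refine Finset.filter_congr fun t _ => ?_
          have ht : i * N + t < N * B := by
            have := t.2
            calc i * N + t < i * N + N := by omega
              _ = (i + 1) * N := by ring
              _ ≤ B * N := Nat.mul_le_mul_right _ hi
              _ = N * B := mul_comm _ _
          have hp : pos (T^[i * N + t] x) = i * N + t := by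
            rw [br_pos_iter h1 h2, hx0, zero_add, Nat.mod_eq_of_lt ht]
          have e1 : (i * N + t) % N = t := by
            rw [Nat.mul_add_mod_of_lt t.2]
          have e2 : (i * N + t) / N = i := by
            rw [add_comm, Nat.add_mul_div_right _ _ hN, Nat.div_eq_of_lt t.2, zero_add]
          simp only [mem_inter_iff, mem_preimage, mem_ofPred_eq, hx0, and_true, h4, hp, e1, e2,
            br_sg_iter h1 h2 h3 hx0 ht]
          cases sg x <;> cases b i <;> cases u t <;> simp
        rw [h7] at h6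
        have h8 := (Nat.cast_le (α := ℝ)).2 h6
        rw [Nat.cast_mul, Nat.cast_ofNat] at h8
        convert (div_le_iff₀' (two_pos : (0 : ℝ) < 2)).2 h8 <;> rfl)
    rw [Fin.sum_univ_eq_sum_range
      (fun t => μ.real (T^[i * N + t] ⁻¹' {x | Y x ≠ P x} ∩ {x | pos x = 0})) N] at this
    have hB : (0 : ℝ) ≤ 2 * B := by positivity
    refine le_trans (le_of_eq ?_) (mul_le_mul_of_nonneg_left this hB)
    push_cast
    ring
  refine (Finset.sum_le_sum step).trans ?_
  rw [← Finset.mul_sum, key]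
  have : (0 : ℝ) ≤ B := by positivity
  nlinarith

theorem br_dom (hN : 0 < N) (hT : MeasurePreserving T μ μ) (hpos : Measurable pos)
    (hsg : Measurable sg) (hY : Measurable Y) (h1 : ∀ x, pos x < N * B)
    (h2 : ∀ x, pos (T x) = (pos x + 1) % (N * B)) {l K : ℕ} (hl : 0 < l) (hB : B = K * l)
    (hK : 20 ≤ K) {D : ℝ} {ν : (Fin (2 * N * l) → Bool) → ℝ}
    (hdom : Dom μ T Y (2 * N * l) (1 / 20) D ν) :
    ∃ s < N * l, ∀ 𝒜 : Finset (Fin l → Bool),
      ∑ α ∈ Finset.range K, ∑ o : Fin B → Bool, ((N * B : ℕ) : ℝ) *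
        μ.real ((fun x (i : Fin B) => brZ N u T sg Y x i) ⁻¹' {o} ∩ {x | pos x = 0}) *
          (if block l α (brExt o) ∈ 𝒜 then 1 else 0) ≤
        (K : ℝ) * (1 / 10 + 2 * D * N * l * ∑ w ∈ 𝒜, brPush N u l s ν w) := by
  classical
  have hb : MeasurableSet {x | pos x = 0} := hpos (measurableSet_singleton 0)
  have hZ := brZ_meas (N := N) (B := B) (u := u) hT hsg hY
  obtain ⟨G, hG, hGw⟩ := hdom
  have hn : 0 < N * l := Nat.mul_pos hN hl
  have hNB : N * B = K * (N * l) := by rw [hB]; ring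
  have key : ∀ {S : Set X}, MeasurableSet S → ∑ s ∈ Finset.range (N * l), ∑ α ∈ Finset.range K,
      μ.real (T^[α * (N * l) + s] ⁻¹' S ∩ {x | pos x = 0}) = μ.real S := fun hS => by
    have := br_key hT hpos h1 h2 hS
    rwa [hNB, br_sum_range_mul, Finset.sum_comm] at this
  set H := toMeasurable μ Gᶜ with hH
  have hHm : MeasurableSet H := measurableSet_toMeasurable _ _
  have hHle : μ.real H ≤ 1 / 20 := by
    rw [hH, measureReal_def, measure_toMeasurable]; exact hG
  obtain ⟨s, hs, hsH⟩ := Finset.exists_le_of_sum_le (s := Finset.range (N * l))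
    ⟨0, Finset.mem_range.2 hn⟩
    (f := fun s => ∑ α ∈ Finset.range K, μ.real (T^[α * (N * l) + s] ⁻¹' H ∩ {x | pos x = 0}))
    (g := fun _ => 1 / 20 / ((N * l : ℕ) : ℝ)) (by
      rw [key hHm, Finset.sum_const, Finset.card_range, nsmul_eq_mul,
        mul_div_cancel₀ _ (Nat.cast_ne_zero.2 hn.ne')]
      exact hHle)
  have hs' := Finset.mem_range.1 hs
  refine ⟨s, hs', fun 𝒜 => ?_⟩
  simp only [br_law hZ hb _ fun o => block l _ (brExt o) ∈ 𝒜]
  have hw : Measurable (word Y T (2 * N * l)) :=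
    measurable_pi_lambda _ fun t => hY.comp (hT.measurable.iterate _)
  -- the good events
  set S : Bool → Set X := fun σ => Hᶜ ∩ {x | brWin N u l s σ (word Y T (2 * N * l) x) ∈ 𝒜}
    with hS
  have hSm : ∀ σ, MeasurableSet (S σ) := fun σ =>
    hHm.compl.inter (hw (MeasurableSet.of_discrete (s := {w | brWin N u l s σ w ∈ 𝒜})))
  have hSle : ∀ σ, μ.real (S σ) ≤
      D * ∑ w ∈ Finset.univ.filter fun w => brWin N u l s σ w ∈ 𝒜, ν w := fun σ => by
    rw [Finset.mul_sum]
    refine le_trans (measureReal_mono ?_ (measure_ne_top _ _)) ((measureReal_biUnion_finset_le _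
      fun w => G ∩ {x | word Y T (2 * N * l) x = w}).trans (Finset.sum_le_sum fun w _ => hGw w))
    rintro x ⟨hx1, hx2⟩
    simp only [mem_iUnion, Finset.mem_filter, Finset.mem_univ, true_and, exists_prop]
    refine ⟨_, hx2, ?_, rfl⟩
    by_contra hxG
    exact hx1 (subset_toMeasurable μ _ hxG)
  have hSsum : ∀ σ, ∑ α ∈ Finset.range K,
      μ.real (T^[α * (N * l) + s] ⁻¹' S σ ∩ {x | pos x = 0}) ≤ μ.real (S σ) := fun σ => by
    rw [← key (hSm σ)]
    exact Finset.single_le_sum (f := fun s => ∑ α ∈ Finset.range K,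
      μ.real (T^[α * (N * l) + s] ⁻¹' S σ ∩ {x | pos x = 0}))
      (fun _ _ => Finset.sum_nonneg fun _ _ => measureReal_nonneg) hs
  obtain ⟨K', rfl⟩ : ∃ K', K = K' + 1 := ⟨K - 1, by omega⟩
  have step : ∀ α ∈ Finset.range K',
      μ.real ({x | block l (α + 1) (brExt fun i : Fin B => brZ N u T sg Y x i) ∈ 𝒜} ∩
        {x | pos x = 0}) ≤ μ.real (T^[α * (N * l) + s] ⁻¹' H ∩ {x | pos x = 0}) +
        ∑ σ, μ.real (T^[α * (N * l) + s] ⁻¹' S σ ∩ {x | pos x = 0}) := by
    intro α hα
    have hα := Finset.mem_range.1 hα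
    refine le_trans (measureReal_mono ?_) ((measureReal_union_le _ _).trans
      (add_le_add le_rfl (measureReal_iUnion_fintype_le _)))
    rintro x ⟨hx, hx0⟩
    by_cases hxH : T^[α * (N * l) + s] x ∈ H
    · exact Or.inl ⟨hxH, hx0⟩
    · refine Or.inr (mem_iUnion.2 ⟨sg x, ⟨hxH, ?_⟩, hx0⟩)
      simp only [mem_ofPred_eq] at hx ⊢
      convert hx using 1
      funext i
      have hi : (α + 1) * l + i < B := by
        have := i.2
        calc (α + 1) * l + i < (α + 1) * l + l := by omega
          _ = (α + 2) * l := by ring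
          _ ≤ (K' + 1) * l := Nat.mul_le_mul_right _ (by omega)
          _ = B := hB.symm
      simp only [brWin, block, brExt, dif_pos hi, brZ]
      congr 2
      funext t
      have ht : i * N + t < N * l := by
        have := t.2
        calc i * N + t < i * N + N := by omega
          _ = (i + 1) * N := by ring
          _ ≤ l * N := Nat.mul_le_mul_right _ i.2
          _ = N * l := mul_comm _ _
      have ht' : N * l - s + (i * N + t) < 2 * N * l := by
        rw [mul_assoc]; omega
      rw [dif_pos ht', word, ← Function.iterate_add_apply]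
      congr 2
      have : ((α + 1) * l + i) * N = α * (N * l) + N * l + i * N := by ring
      simp only [this]
      omega
  have h0 : ((N * B : ℕ) : ℝ) * μ.real {x | pos x = 0} = 1 := by
    have := br_key hT hpos h1 h2 MeasurableSet.univ
    simpa using this
  have first : ((N * B : ℕ) : ℝ) *
      μ.real ({x | block l 0 (brExt fun i : Fin B => brZ N u T sg Y x i) ∈ 𝒜} ∩
        {x | pos x = 0}) ≤ 1 := by
    rw [← h0]
    exact mul_le_mul_of_nonneg_left (measureReal_mono inter_subset_right) (by positivity)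
  have rest : ∑ α ∈ Finset.range K',
      μ.real ({x | block l (α + 1) (brExt fun i : Fin B => brZ N u T sg Y x i) ∈ 𝒜} ∩
        {x | pos x = 0}) ≤ 1 / 20 / ((N * l : ℕ) : ℝ) + 2 * D * ∑ w ∈ 𝒜, brPush N u l s ν w := by
    refine (Finset.sum_le_sum step).trans ?_
    refine le_trans (Finset.sum_le_sum_of_subset_of_nonneg
      (Finset.range_subset_range.2 (Nat.le_succ K')) fun _ _ _ => add_nonneg measureReal_nonneg
        (Finset.sum_nonneg fun _ _ => measureReal_nonneg)) ?_
    rw [Finset.sum_add_distrib, Finset.sum_comm]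
    refine add_le_add hsH ((Finset.sum_le_sum fun σ _ => (hSsum σ).trans (hSle σ)).trans
      (le_of_eq ?_))
    rw [brPush_sum, Finset.mul_sum Finset.univ]
    refine Finset.sum_congr rfl fun σ _ => ?_
    ring
  rw [Finset.sum_range_succ', ← Finset.mul_sum]
  have hpos' : (0 : ℝ) < ((N * l : ℕ) : ℝ) := Nat.cast_pos.2 hn
  have e : ((N * B : ℕ) : ℝ) * (1 / 20 / ((N * l : ℕ) : ℝ) +
      2 * D * ∑ w ∈ 𝒜, brPush N u l s ν w) =
      ((K' + 1 : ℕ) : ℝ) * (1 / 20 + 2 * D * N * l * ∑ w ∈ 𝒜, brPush N u l s ν w) := by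
    rw [hNB, Nat.cast_mul (K' + 1), mul_assoc, mul_add, mul_div_cancel₀ _ hpos'.ne']
    push_cast
    ring
  have h20 : (20 : ℝ) ≤ ((K' + 1 : ℕ) : ℝ) := by exact_mod_cast hK
  have := mul_le_mul_of_nonneg_left rest (show (0 : ℝ) ≤ ((N * B : ℕ) : ℝ) by positivity)
  rw [e] at this
  nlinarith

end main

open Classical in
/-- From time-level domination to the combinatorial lemma.

Sketch. Majority decoding `dec (v : ℕ → Bool) : Bool := decide (N ≤ 2 * #{t < N | v t ≠ u t})`
(or similar). For `ν' ∈ 𝓕 (2 N l)`, `s < N l` let `ν''` be the average over the sign `σ` of the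
push-forwards of `ν'` under `w ↦ (i ↦ xor σ (dec (t ↦ w (N l - s + i N + t))))`
(window `[N l - s, 2 N l - s)`); `𝓖 l` is the set of these, `#𝓖 l ≤ N l * exp (exp (l/50))`,
which is `≤ exp (exp (l/30))` for `l ≥ l₀(N)`. Apply `code_lemma` with `max m₀ l₀`, `C = 2 D N`;
`B = R * l J`, `τ j = 2 N l j`.
Given the system: `base = {pos = 0}`, `μ {pos = a} = 1/(N B)` by invariance, and for `x ∈ base`,
`t < N B`: `pos (T^t x) = t`, `sg (T^t x) = sg x`; for every measurable `S`,
`∑_{a<N B} μ (base ∩ T^[a] ⁻¹' S) = μ S` (as `T^[a] ⁻¹' {pos = a} = base` and invariance).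
`Ω = Fin B → Bool`, `wt w = N B * μ (base ∩ {Ŷ = w})`, `Ŷ x i = xor (sg x) (dec (t ↦ Y (T^[iN+t] x)))`.
A wrong bit needs `≥ N/2` errors `Y ≠ P` in its block, so the expected number of wrong bits is
`≤ N B * (2/N) * 10⁻⁴ = B/5000`. If level `j` is `Dom`inated with good set `G` (w.l.o.g.
measurable: replace `Gᶜ` by `toMeasurable`), `n = N l (j+1)`, `K = N B / n` blocks: choose `s < n`
with `∑_{α<K-1} μ (base ∩ T^[α n + s] ⁻¹' Gᶜ) ≤ (1/20) / n`; block `α + 1` is read from the window
of length `2 n` starting at time `α n + s`; so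
`∑_{α<K} P(block α ∈ 𝒜) ≤ 1 + K/20 + K n D ∑_σ ν'(dec_{s,σ} ∈ 𝒜)` and `K ≥ R ≥ 100`. -/
theorem bridge (N : ℕ) (hN : 0 < N) (u : ℕ → Bool) (β m₀ : ℕ) (D : ℝ) (hD : 0 ≤ D)
    (𝓕 : (n : ℕ) → Finset ((Fin n → Bool) → ℝ)) (h𝓕 : ∀ n, ∀ ν ∈ 𝓕 n, IsSubProb ν)
    (hcard : ∀ n, m₀ ≤ n → ((𝓕 n).card : ℝ) ≤ Real.exp (Real.exp (1 / (100 * N) * n))) :
    ∃ (B : ℕ) (b : ℕ → Bool) (J : ℕ) (τ : ℕ → ℕ), 2 ≤ B ∧ Balanced B b ∧ 1 ≤ τ 0 ∧
      (∀ j, τ j ∣ τ (j + 1)) ∧ (∀ j, m₀ * τ j ≤ τ (j + 1)) ∧
      ∀ (X : Type) [MeasurableSpace X] (μ : Measure X) [IsProbabilityMeasure μ] (T : X → X)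
        (pos : X → ℕ) (sg P Y : X → Bool), MeasurePreserving T μ μ → Measurable pos →
        Measurable sg → Measurable Y → (∀ x, pos x < N * B) →
        (∀ x, pos (T x) = (pos x + 1) % (N * B)) →
        (∀ x, pos x + 1 < N * B → sg (T x) = sg x) →
        (∀ x, P x = xor (sg x) (xor (u (pos x % N)) (b (pos x / N)))) →
        μ.real {x | Y x ≠ P x} ≤ 1 / 10000 →
        β < ((Finset.range J).filter (fun j =>
          ¬ ∃ ν ∈ 𝓕 (τ (j + 1)), Dom μ T Y (τ (j + 1)) (1 / 20) D ν)).card := by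
  obtain ⟨J, l, R, b, hl0, hlpos, hld, hlm, hR, hbal, hcode⟩ := code_lemma β (m₀ + 7500 + N)
    (2 * D * N) (by positivity)
    (fun l => (𝓕 (2 * N * l) ×ˢ Finset.range (N * l)).image fun p => brPush N u l p.2 p.1)
    (fun l ν hν => by
      obtain ⟨p, hp, rfl⟩ := Finset.mem_image.1 hν
      exact brPush_sub N u l _ (h𝓕 _ _ (Finset.mem_product.1 hp).1))
    (fun l hl => by
      have h1 : m₀ ≤ 2 * N * l := by nlinarith
      have h2 := hcard _ h1
      have h3 : (1 : ℝ) / (100 * N) * ((2 * N * l : ℕ) : ℝ) = l / 50 := by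
        have : (N : ℝ) ≠ 0 := Nat.cast_ne_zero.2 hN.ne'
        push_cast
        field_simp
        ring
      rw [h3] at h2
      refine le_trans ?_ (br_card (N := N) (by omega) (by omega))
      refine le_trans (Nat.cast_le.2 Finset.card_image_le) ?_
      rw [Finset.card_product, Finset.card_range]
      push_cast
      gcongr)
  have hdvd : ∀ j k, l j ∣ l (j + k) := fun j k => by
    induction k with
    | zero => exact dvd_rfl
    | succ k ih => exact ih.trans (hld _)
  refine ⟨R * l J, b, J, fun j => 2 * N * l j, by nlinarith [hlpos J], hbal,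
    by simp only [hl0]; omega, fun j => Nat.mul_dvd_mul_left _ (hld j),
    fun j => by nlinarith [hlm j, Nat.zero_le (N * l j), Nat.zero_le (N * N * l j)], ?_⟩
  intro X _ μ _ T pos sg P Y hT hpos hsg hY h1 h2 h3 h4 h5
  have hb : MeasurableSet {x | pos x = 0} := hpos (measurableSet_singleton 0)
  have hZ := brZ_meas (N := N) (B := R * l J) (u := u) hT hsg hY
  have := hcode (Fin (R * l J) → Bool) (fun o => ((N * (R * l J) : ℕ) : ℝ) *
    μ.real ((fun x (i : Fin (R * l J)) => brZ N u T sg Y x i) ⁻¹' {o} ∩ {x | pos x = 0}))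
    (fun o => brExt o) (fun o => mul_nonneg (by positivity) measureReal_nonneg) (by
      have e1 := br_law (μ := μ) hZ hb ((N * (R * l J) : ℕ) : ℝ) fun _ => True
      have e2 := br_key hT hpos h1 h2 MeasurableSet.univ
      simp only [if_true, mul_one] at e1
      rw [e1]
      simpa using e2) (br_err hN hT hpos hsg hY h1 h2 h3 h4 h5)
  refine this.trans_le (Finset.card_le_card fun j hj => ?_)
  simp only [Finset.mem_filter, Finset.mem_range] at hj ⊢
  refine ⟨hj.1, fun ⟨ν, hν, hdom⟩ => hj.2 ?_⟩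
  obtain ⟨c, hc⟩ : l (j + 1) ∣ l J := by
    have := hdvd (j + 1) (J - (j + 1))
    rwa [show j + 1 + (J - (j + 1)) = J by omega] at this
  have hc0 : 0 < c := by
    rcases Nat.eq_zero_or_pos c with rfl | h
    · have := hlpos J; omega
    · exact h
  have hB : R * l J = R * c * l (j + 1) := by rw [hc]; ring
  have hK : R * l J / l (j + 1) = R * c := by
    rw [hB, Nat.mul_div_cancel _ (hlpos _)]
  obtain ⟨s, hs, hs'⟩ := br_dom (u := u) hN hT hpos hsg hY h1 h2 (hlpos (j + 1)) hB
    (by nlinarith) hdom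
  refine ⟨brPush N u (l (j + 1)) s ν, Finset.mem_image.2
    ⟨(ν, s), Finset.mem_product.2 ⟨hν, Finset.mem_range.2 hs⟩, rfl⟩, fun 𝒜 => ?_⟩
  rw [hK]
  convert hs' 𝒜 using 5

end Crest.Agent.R133
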