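import Crest.Agent.R133.Defs

set_option autoImplicit false

open MeasureTheory Metric Set Crest.AnalysisR
open scoped ENNReal Manifold ContDiff Topology

namespace Crest.Agent.R133

/-- Chernoff selection. Independent uniform choices `g s ∈ V`; `exp (x / c) ≤ 1 + 2 x / c` for
`0 ≤ x ≤ c`, so the average over `g` of `exp ((∑ s, f s (g s)) / c)` is
`≤ ∏ s (1 + 2 avg_a f s a / c) ≤ exp (2 μ₀ / c)`; Markov and the union bound. -/
theorem chernoff_select {σ V ι : Type} [Fintype σ] [DecidableEq σ] [Fintype V] [Nonempty V]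
    (F : Finset ι) (f : ι → σ → V → ℝ) (c μ₀ : ℝ) (hc : 0 < c)
    (h0 : ∀ i ∈ F, ∀ s a, 0 ≤ f i s a) (h1 : ∀ i ∈ F, ∀ s a, f i s a ≤ c)
    (hsum : ∀ i ∈ F, ∑ s, ∑ a, f i s a ≤ Fintype.card V * μ₀)
    (hF : (F.card : ℝ) < Real.exp (μ₀ / c)) :
    ∃ g : σ → V, ∀ i ∈ F, ∑ s, f i s (g s) ≤ 3 * μ₀ := by
  by_contra hcon
  push Not at hcon
  have hV : (0 : ℝ) < Fintype.card V := by exact_mod_cast Fintype.card_pos
  have key : ∀ i ∈ F, ∑ g : σ → V, Real.exp ((∑ s, f i s (g s)) / c) ≤
      (Fintype.card V : ℝ) ^ Fintype.card σ * Real.exp (2 * (μ₀ / c)) := fun i hi => by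
    simp only [Finset.sum_div, Real.exp_sum]
    rw [← Fintype.piFinset_univ, ← Finset.prod_univ_sum (fun _ => Finset.univ)
      fun s a => Real.exp (f i s a / c)]
    calc _ ≤ ∏ s, (Fintype.card V : ℝ) *
            Real.exp (2 / (c * Fintype.card V) * ∑ a, f i s a) := by
          refine Finset.prod_le_prod (fun s _ => by positivity) fun s _ => ?_
          calc _ ≤ ∑ a, (1 + 2 / c * f i s a) := by
                refine Finset.sum_le_sum fun a _ => ?_
                have h2 : 0 ≤ f i s a / c := div_nonneg (h0 i hi s a) hc.le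
                have h3 := Real.abs_exp_sub_one_le (x := f i s a / c)
                  (by rw [abs_of_nonneg h2, div_le_one hc]; exact h1 i hi s a)
                rw [abs_of_nonneg h2] at h3
                have h4 := (le_abs_self _).trans h3
                rw [show 2 / c * f i s a = 2 * (f i s a / c) by ring]
                linarith
            _ = Fintype.card V * (2 / (c * Fintype.card V) * ∑ a, f i s a + 1) := by
                rw [Finset.sum_add_distrib, ← Finset.mul_sum, Finset.sum_const, Finset.card_univ,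
                  nsmul_eq_mul]
                field_simp
                ring
            _ ≤ _ := mul_le_mul_of_nonneg_left (Real.add_one_le_exp _) hV.le
      _ ≤ _ := by
          rw [Finset.prod_mul_distrib, Finset.prod_const, Finset.card_univ, ← Real.exp_sum,
            ← Finset.mul_sum]
          refine mul_le_mul_of_nonneg_left (Real.exp_le_exp.2 ?_) (by positivity)
          refine (mul_le_mul_of_nonneg_left (hsum i hi) (by positivity)).trans (le_of_eq ?_)
          field_simp
  have h2 : ∀ g : σ → V, Real.exp (3 * μ₀ / c) ≤ ∑ i ∈ F, Real.exp ((∑ s, f i s (g s)) / c) :=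
    fun g => by
      obtain ⟨i, hi, h⟩ := hcon g
      refine le_trans ?_ (Finset.single_le_sum
        (f := fun i => Real.exp ((∑ s, f i s (g s)) / c)) (fun _ _ => (Real.exp_pos _).le) hi)
      gcongr
  have h3 := Finset.sum_le_sum fun g (_ : g ∈ Finset.univ) => h2 g
  rw [Finset.sum_comm, Finset.sum_const, Finset.card_univ, Fintype.card_fun, nsmul_eq_mul] at h3
  have h4 := h3.trans (Finset.sum_le_sum key)
  rw [Finset.sum_const, nsmul_eq_mul, show 3 * μ₀ / c = μ₀ / c + 2 * (μ₀ / c) by ring,
    Real.exp_add] at h4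
  push_cast at h4
  have h5 : (0 : ℝ) < (Fintype.card V : ℝ) ^ Fintype.card σ * Real.exp (2 * (μ₀ / c)) := by
    positivity
  nlinarith [mul_lt_mul_of_pos_right hF h5]

end Crest.Agent.R133
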