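import Crest.Agent.R133.CodeStep

set_option autoImplicit false

open MeasureTheory Metric Set Crest.AnalysisR
open scoped ENNReal Manifold ContDiff Topology

namespace Crest.Agent.R133

namespace Code

open Finset

theorem sum_range_mul {A : Type*} [AddCommMonoid A] (F : ℕ → A) (M q : ℕ) :
    ∑ a ∈ range (M * q), F a = ∑ i ∈ range M, ∑ t ∈ range q, F (i * q + t) := by
  induction M with
  | zero => simp
  | succ M ih => rw [Nat.succ_mul, sum_range_add, ih, sum_range_succ]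

theorem cat_apply {R L : ℕ} (enc : Fin R → ℕ → Bool) (c : ℕ → Fin R) (i : ℕ) {t : ℕ}
    (ht : t < L) : cat L enc c (i * L + t) = enc (c i) t := by
  have h0 : 0 < L := by omega
  rw [cat, mul_comm, Nat.mul_add_div h0, Nat.div_eq_of_lt ht, Nat.mul_add_mod, Nat.mod_eq_of_lt ht,
    add_zero]

theorem hd_cat {R : ℕ} (M L : ℕ) (enc : Fin R → ℕ → Bool) (c : ℕ → Fin R) (y : ℕ → Bool) :
    hd (M * L) (cat L enc c) y = ∑ i ∈ range M, hd L (enc (c i)) (sh (i * L) y) := by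
  simp only [hd, card_filter]
  rw [sum_range_mul]
  refine sum_congr rfl fun i _ => sum_congr rfl fun t ht => ?_
  rw [cat_apply enc c i (mem_range.1 ht)]
  rfl

/-- number of letters `true` -/
def tr (L : ℕ) (u : ℕ → Bool) : ℕ := ((range L).filter (fun i => u i = true)).card

theorem tr_cat {R : ℕ} (M L : ℕ) (enc : Fin R → ℕ → Bool) (c : ℕ → Fin R) :
    tr (M * L) (cat L enc c) = ∑ i ∈ range M, tr L (enc (c i)) := by
  simp only [tr, card_filter]
  rw [sum_range_mul]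
  refine sum_congr rfl fun i _ => sum_congr rfl fun t ht => ?_
  rw [cat_apply enc c i (mem_range.1 ht)]

theorem le_Zf {R : ℕ} (L : ℕ) (enc : Fin R → ℕ → Bool) (y : ℕ → Bool) (z : Fin R) :
    (1 / 256 : ℝ) ^ hd L (enc z) y ≤ Zf L enc y :=
  single_le_sum (f := fun z => (1 / 256 : ℝ) ^ hd L (enc z) y) (fun _ _ => by positivity)
    (mem_univ z)

theorem Zf_pos {R : ℕ} (hR : 0 < R) (L : ℕ) (enc : Fin R → ℕ → Bool) (y : ℕ → Bool) :
    0 < Zf L enc y := lt_of_lt_of_le (by positivity) (le_Zf L enc y ⟨0, hR⟩)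

theorem Zf_cat_le {R R' : ℕ} (M L : ℕ) (enc : Fin R → ℕ → Bool) (c : Fin R' → ℕ → Fin R)
    (hc : ∀ z z', (∀ i < M, c z i = c z' i) → z = z') (y : ℕ → Bool) :
    Zf (M * L) (fun z => cat L enc (c z)) y ≤ ∏ i ∈ range M, Zf L enc (sh (i * L) y) := by
  classical
  have hinj : Function.Injective fun z (i : Fin M) => c z i := fun z z' h =>
    hc z z' fun i hi => congrFun h ⟨i, hi⟩
  simp only [Zf, hd_cat, ← prod_pow_eq_pow_sum, ← Fin.prod_univ_eq_prod_range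
    (fun i => ∑ z, (1 / 256 : ℝ) ^ hd L (enc z) (sh (i * L) y))]
  rw [Fintype.prod_sum]
  calc _ = ∑ g ∈ univ.image fun z (i : Fin M) => c z i,
        ∏ i : Fin M, (1 / 256 : ℝ) ^ hd L (enc (g i)) (sh (i * L) y) := by
        rw [sum_image fun z _ z' _ h => hinj h]
        exact sum_congr rfl fun z _ => (Fin.prod_univ_eq_prod_range
          (fun i => (1 / 256 : ℝ) ^ hd L (enc (c z i)) (sh (i * L) y)) M).symm
    _ ≤ _ := sum_le_sum_of_subset_of_nonneg (subset_univ _) fun _ _ _ => by positivity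

theorem sum_comp_fib {A : Type*} [CommSemiring A] {R R' : ℕ} (g : Fin R' → Fin R)
    (hg : ∀ a, (univ.filter (fun z => g z = a)).card * R = R') (F : Fin R → A) :
    (R : A) * ∑ z, F (g z) = R' * ∑ a, F a := by
  rw [← sum_fiberwise univ g fun z => F (g z), mul_sum, mul_sum]
  refine sum_congr rfl fun a _ => ?_
  rw [sum_congr rfl fun z hz => by rw [(mem_filter.1 hz).2], sum_const, nsmul_eq_mul, ← mul_assoc,
    mul_comm (R : A), ← Nat.cast_mul, hg]

theorem sum_pass {Ω : Type} [Fintype Ω] (wt : Ω → ℝ) (M : ℕ) (F : Ω → ℕ → ℝ) :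
    ∑ q : Ω × Fin M, wt q.1 / M * F q.1 q.2 = (∑ o, wt o * ∑ i ∈ range M, F o i) / M := by
  rw [Fintype.sum_prod_type, sum_div]
  refine sum_congr rfl fun o _ => ?_
  simp only
  rw [← mul_sum, Fin.sum_univ_eq_sum_range (F o)]
  ring

theorem sum_unif {Ω : Type} [Fintype Ω] {R : ℕ} (wt : Ω → ℝ) (z : Ω → Fin R)
    (hz : ∀ a, ∑ o, wt o * (if z o = a then 1 else 0) = 1 / R) (F : Fin R → ℝ) :
    ∑ o, wt o * F (z o) = (∑ a, F a) / R := by
  have : ∀ o, wt o * F (z o) = ∑ a, wt o * (if z o = a then 1 else 0) * F a := fun o => by simp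
  simp only [this]
  rw [sum_comm, sum_div]
  refine sum_congr rfl fun a _ => ?_
  rw [← sum_mul, hz]
  ring

variable (C : ℝ) (𝓖 : (l : ℕ) → Finset ((Fin l → Bool) → ℝ))

/-- the blocks of length `k` among the first `N` letters are dominated -/
def Dm (N k : ℕ) {Ω : Type} [Fintype Ω] (wt : Ω → ℝ) (y : Ω → ℕ → Bool) : Prop :=
  ∃ ν ∈ 𝓖 k, ∀ 𝒜 : Finset (Fin k → Bool),
    ∑ α ∈ range (N / k), ∑ o, wt o * (if block k α (y o) ∈ 𝒜 then 1 else 0) ≤
      ((N / k : ℕ) : ℝ) * (1 / 10 + C * k * ∑ w ∈ 𝒜, ν w)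

theorem Dm.pass {M L k : ℕ} (hM : 0 < M) (hk : 0 < k) (hkL : k ∣ L) {Ω : Type} [Fintype Ω]
    {wt : Ω → ℝ} {y : Ω → ℕ → Bool} (h : Dm C 𝓖 (M * L) k wt y) :
    Dm C 𝓖 L k (fun q : Ω × Fin M => wt q.1 / M) fun q => sh (q.2 * L) (y q.1) := by
  obtain ⟨ν, hν, h⟩ := h
  obtain ⟨q, rfl⟩ := hkL
  refine ⟨ν, hν, fun 𝒜 => ?_⟩
  have h1 := h 𝒜
  rw [show M * (k * q) = k * (M * q) by ring, Nat.mul_div_cancel_left _ hk, sum_range_mul] at h1
  rw [Nat.mul_div_cancel_left _ hk]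
  have hM' : (0 : ℝ) < M := by exact_mod_cast hM
  have hb : ∀ (i α : ℕ) (u : ℕ → Bool),
      block k α (sh (i * (k * q)) u) = block k (i * q + α) u := by
    intro i α u
    funext t
    simp only [block, sh]
    congr 1
    ring
  simp only [hb]
  rw [sum_congr rfl fun α _ => sum_pass wt M
    fun o i => if block k (i * q + α) (y o) ∈ 𝒜 then 1 else 0, ← sum_div, div_le_iff₀ hM']
  refine le_of_eq_of_le ?_ (h1.trans_eq ?_)
  · simp only [mul_sum]
    rw [sum_comm (s := range M)]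
    exact sum_congr rfl fun α _ => sum_comm
  · push_cast; ring

/-- lengths of the code words -/
def ll (m : ℕ) : ℕ → ℕ
  | 0 => 1
  | j + 1 => m * ll m j

theorem ll_eq (m j : ℕ) : ll m j = m ^ j := by
  induction j with
  | zero => rfl
  | succ j ih => rw [ll, ih, pow_succ']

/-- the inductive claim -/
structure Good (J m j L : ℕ) {R : ℕ} (enc : Fin R → ℕ → Bool) : Prop where
  inj : ∀ z z', (∀ i < L, enc z i = enc z' i) → z = z'
  bal : 2 * ∑ z, tr L (enc z) = R * L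
  ent : ∀ (Ω : Type) [Fintype Ω] (wt : Ω → ℝ) (y : Ω → ℕ → Bool) (z : Ω → Fin R)
    (𝒢 : Finset ℕ), (∀ o, 0 ≤ wt o) → ∑ o, wt o = 1 →
    (∀ a, ∑ o, wt o * (if z o = a then 1 else 0) = 1 / R) →
    ∑ o, wt o * (hd L (enc (z o)) (y o) : ℝ) ≤ (L : ℝ) / 5000 →
    (∀ i ∈ 𝒢, i < j ∧ Dm C 𝓖 L (ll m (i + 1)) wt y) →
    ∑ o, wt o * Real.logb 2 (Zf L enc (y o)) ≤
      L * (Real.logb 2 (1 + 1 / 256) - 𝒢.card / (16 * J))

theorem good_zero (J m : ℕ) : Good C 𝓖 J m 0 1 fun (z : Fin 2) _ => decide (z = 1) := by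
  refine ⟨fun z z' h => ?_, by simp [tr, Fin.sum_univ_two], ?_⟩
  · have key : ∀ z z' : Fin 2, decide (z = 1) = decide (z' = 1) → z = z' := by decide
    exact key z z' (h 0 Nat.one_pos)
  · intro Ω _ wt y z 𝒢 _ h1 _ _ h2
    have e : 𝒢 = ∅ := eq_empty_of_forall_notMem fun i hi => absurd (h2 i hi).1 (Nat.not_lt_zero _)
    have hZ : ∀ u : ℕ → Bool, Zf 1 (fun (z : Fin 2) _ => decide (z = 1)) u = 1 + 1 / 256 := by
      intro u
      cases h : u 0 <;> simp [Zf, hd, Fin.sum_univ_two, filter_singleton, h, add_comm]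
    simp only [hZ, ← sum_mul, h1, e, Finset.card_empty]
    simp

theorem pass_one {Ω : Type} [Fintype Ω] {wt : Ω → ℝ} (h1 : ∑ o, wt o = 1) {M : ℕ} (hM : 0 < M) :
    ∑ q : Ω × Fin M, wt q.1 / M = 1 := by
  have hM' : (0 : ℝ) < M := by exact_mod_cast hM
  have := sum_pass wt M fun _ _ => 1
  simp only [mul_one, sum_const, card_range, nsmul_eq_mul, ← sum_mul, h1] at this
  rw [this]
  field_simp

theorem pass_hd {Ω : Type} [Fintype Ω] {wt : Ω → ℝ} {y : Ω → ℕ → Bool} {R M L : ℕ} (hM : 0 < M)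
    (enc : Fin R → ℕ → Bool) (c : Ω → ℕ → Fin R)
    (h : ∑ o, wt o * (hd (M * L) (cat L enc (c o)) (y o) : ℝ) ≤ ((M * L : ℕ) : ℝ) / 5000) :
    ∑ q : Ω × Fin M, wt q.1 / M * (hd L (enc (c q.1 q.2)) (sh (q.2 * L) (y q.1)) : ℝ) ≤
      (L : ℝ) / 5000 := by
  have hM' : (0 : ℝ) < M := by exact_mod_cast hM
  rw [sum_pass wt M fun o i => (hd L (enc (c o i)) (sh (i * L) (y o)) : ℝ), div_le_iff₀ hM']
  simp only [hd_cat] at h
  push_cast at h
  linarith

set_option maxHeartbeats 1000000 in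
theorem good_succ (hC : 0 ≤ C) (h𝓖 : ∀ l, ∀ ν ∈ 𝓖 l, IsSubProb ν) {J p j : ℕ} (hJ : 10 ≤ J)
    (hp : 100 ≤ p) (hj : j ≤ J)
    (hcard : ∀ l, p ≤ l → ((𝓖 l).card : ℝ) ≤ Real.exp (Real.exp (l / 30)))
    (hsm : ∀ n : ℕ, p ≤ n → C * n * (3 * (2 : ℝ) ^ (-((n : ℝ) / (16 * J)))) ≤ 1 / 10)
    {m l R : ℕ} (hm : m = 2 * J * p) (hl : l = ll m j) (hR : R = 2 ^ (m - p) ^ j)
    {enc : Fin R → ℕ → Bool} (h : Good C 𝓖 J m j l enc) :
    ∃ enc' : Fin (R ^ (m - p)) → ℕ → Bool, Good C 𝓖 J m (j + 1) (m * l) enc' := by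
  classical
  have hJ' : (10 : ℝ) ≤ J := by exact_mod_cast hJ
  have hp' : (100 : ℝ) ≤ p := by exact_mod_cast hp
  have hpm : 3 * p ≤ m := by rw [hm]; exact Nat.mul_le_mul_right _ (by omega)
  have hm0 : 0 < m := by omega
  have hm' : (0 : ℝ) < m := by exact_mod_cast hm0
  have hmR : (m : ℝ) = 2 * J * p := by rw [hm]; push_cast; ring
  have hl0 : ∀ i, 0 < ll m i := fun i => by rw [ll_eq]; positivity
  have hR0 : 0 < R := by rw [hR]; positivity
  have hl00 : 0 < l := hl ▸ hl0 j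
  have hls : ll m (j + 1) = m * l := by rw [hl]; rfl
  obtain ⟨e, he'⟩ : ∃ e : ℝ, e = (((m - p) ^ j : ℕ) : ℝ) := ⟨_, rfl⟩
  have he : (l : ℝ) / 2 ≤ e := by
    have h1 : ((m - p : ℕ) : ℝ) = m * (1 + -(1 / (2 * J))) := by
      rw [Nat.cast_sub (by omega), hmR]; field_simp; ring
    have h2 := one_add_mul_le_pow (a := -(1 / (2 * (J : ℝ)))) (by
      have : 1 / (2 * (J : ℝ)) ≤ 1 := by rw [div_le_one (by linarith)]; linarith
      linarith) j
    have h3 : (j : ℝ) * (1 / (2 * J)) ≤ 1 / 2 := by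
      rw [mul_one_div, div_le_div_iff₀ (by linarith) (by norm_num)]
      have : (j : ℝ) ≤ J := by exact_mod_cast hj
      linarith
    rw [he', hl, ll_eq, Nat.cast_pow, Nat.cast_pow, h1, mul_pow]
    have h4 : (0 : ℝ) ≤ (m : ℝ) ^ j := by positivity
    nlinarith
  have hRe : (R : ℝ) = (2 : ℝ) ^ e := by
    rw [hR, he', Real.rpow_natCast]; push_cast; rfl
  clear he' hR
  have hl1 : (1 : ℝ) ≤ l := by exact_mod_cast hl00
  have hR' : (0 : ℝ) < R := by exact_mod_cast hR0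
  have hn : ((m * l : ℕ) : ℝ) = 2 * J * (p * l) := by push_cast; rw [hmR]; ring
  have hpl : (100 : ℝ) ≤ p * l := by nlinarith
  have hpn : p ≤ m * l := (by omega : p ≤ m).trans (Nat.le_mul_of_pos_right _ hl00)
  obtain ⟨γ, hγ⟩ : ∃ γ : ℝ, γ = ((m * l : ℕ) : ℝ) / (16 * J) := ⟨_, rfl⟩
  have hγ' : γ = p * l / 8 := by rw [hγ, hn]; field_simp; ring
  obtain ⟨c, hc1, hc2, hc3⟩ := code_step l R m p enc hl00 hR0 h.inj (by omega) γ
    (by rw [hγ']; positivity) (𝓖 (m * l)) (h𝓖 _) (by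
      refine (hcard _ hpn).trans_lt (Real.exp_lt_exp.2 ?_)
      rw [Real.rpow_def_of_pos (by norm_num), Real.exp_lt_exp, hγ', hn]
      have h1 := Real.log_two_gt_d9
      have h2 : (0 : ℝ) < J * (p * l) := by positivity
      have h3 : J * (p * l) / 8 ≤ 2 * J * (p * l) / 8 - (p : ℝ) * l / 8 := by nlinarith
      nlinarith) (by
      have h1 : (200 : ℝ) ≤ (2 : ℝ) ^ (8 : ℝ) := by norm_num
      rw [hRe, ← Real.rpow_natCast, ← Real.rpow_natCast, ← Real.rpow_mul (by norm_num),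
        ← Real.rpow_mul (by norm_num)]
      calc _ ≤ (2 : ℝ) ^ (8 : ℝ) * (2 : ℝ) ^ (e * ((2 * p : ℕ) : ℝ)) *
            (2 : ℝ) ^ (((m * l : ℕ) : ℝ) * (59 / 200)) := by gcongr
        _ = (2 : ℝ) ^ ((8 : ℝ) + e * ((2 * p : ℕ) : ℝ) + ((m * l : ℕ) : ℝ) * (59 / 200)) := by
          rw [Real.rpow_add (by norm_num), Real.rpow_add (by norm_num)]
        _ ≤ _ := by
          refine Real.rpow_le_rpow_of_exponent_le (by norm_num) ?_
          rw [Nat.cast_sub (by omega), hn, hmR]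
          push_cast
          have h2 : (l : ℝ) / 2 * ((2 * J - 3) * p) ≤ e * ((2 * J - 3) * p) :=
            mul_le_mul_of_nonneg_right he (by nlinarith)
          nlinarith)
  refine ⟨fun z => cat l enc (c z), fun z z' hz => hc1 z z' fun i hi => h.inj _ _ fun t ht => ?_,
    ?_, ?_⟩
  · have := hz (i * l + t) (by nlinarith)
    rwa [cat_apply enc _ i ht, cat_apply enc _ i ht] at this
  · refine Nat.eq_of_mul_eq_mul_left hR0 ?_
    simp only [tr_cat]
    have g : ∀ i ∈ range m, R * ∑ x, tr l (enc (c x i)) = R ^ (m - p) * ∑ a, tr l (enc a) :=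
      fun i hi =>
      sum_comp_fib (A := ℕ) (fun z => c z i) (hc2 i (mem_range.1 hi)) fun a => tr l (enc a)
    rw [sum_comm, mul_left_comm, mul_sum, sum_congr rfl g, sum_const, card_range, smul_eq_mul]
    calc _ = m * R ^ (m - p) * (2 * ∑ a, tr l (enc a)) := by ring
      _ = _ := by rw [h.bal]; ring
  · intro Ω _ wt y z 𝒢 hw0 hw1 hz hhd h𝒢
    have hR1 : 0 < R ^ (m - p) := pow_pos hR0 _
    have hR1' : (0 : ℝ) < (R ^ (m - p) : ℕ) := by exact_mod_cast hR1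
    have ih := h.ent (Ω × Fin m) (fun q => wt q.1 / m) (fun q => sh (q.2 * l) (y q.1))
      (fun q => c (z q.1) q.2) (𝒢.erase j) (fun q => div_nonneg (hw0 _) hm'.le)
      (pass_one hw1 hm0) (fun a => by
        rw [sum_pass wt m fun o i => if c (z o) i = a then 1 else 0, div_eq_iff hm'.ne']
        simp only [mul_sum]
        rw [sum_comm, sum_congr rfl (g := fun _ => 1 / (R : ℝ)), sum_const, card_range,
          nsmul_eq_mul, mul_comm]
        intro i hi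
        rw [sum_unif (R := R ^ (m - p)) wt z hz fun b => if c b i = a then 1 else 0,
          div_eq_div_iff hR1'.ne' hR'.ne', mul_comm,
          sum_comp_fib (fun b => c b i) (hc2 i (mem_range.1 hi))
            fun b => if b = a then (1 : ℝ) else 0]
        simp) (pass_hd hm0 enc (fun o => c (z o)) hhd) (fun i hi => by
        obtain ⟨h1, h2⟩ := mem_erase.1 hi
        have h3 : i < j := by have := (h𝒢 i h2).1; omega
        refine ⟨h3, Dm.pass C 𝓖 hm0 (hl0 _) ?_ (h𝒢 i h2).2⟩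
        rw [hl, ll_eq, ll_eq]
        exact pow_dvd_pow _ h3)
    rw [sum_pass wt m fun o i => Real.logb 2 (Zf l enc (sh (i * l) (y o))), div_le_iff₀ hm'] at ih
    obtain ⟨S, hS⟩ : ∃ S : Ω → ℝ,
      ∀ o, ∑ i ∈ range m, Real.logb 2 (Zf l enc (sh (i * l) (y o))) = S o := ⟨_, fun _ => rfl⟩
    simp only [hS] at ih
    have hS' : ∀ o, Real.logb 2 (∏ i ∈ range m, Zf l enc (sh (i * l) (y o))) = S o := fun o =>
      (Real.logb_prod _ _ fun i _ => (Zf_pos hR0 _ _ _).ne').trans (hS o)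
    have hZ : ∀ o, Real.logb 2 (Zf (m * l) (fun z => cat l enc (c z)) (y o)) ≤ S o := fun o => by
      rw [← hS']
      exact Real.logb_le_logb_of_le (by norm_num) (Zf_pos hR1 _ _ _) (Zf_cat_le m l enc c hc1 _)
    by_cases hj𝒢 : j ∈ 𝒢
    swap
    · rw [erase_eq_of_notMem hj𝒢] at ih
      refine (sum_le_sum fun o _ => mul_le_mul_of_nonneg_left (hZ o) (hw0 o)).trans
        (ih.trans_eq ?_)
      push_cast; ring
    have hdm := (h𝒢 j hj𝒢).2
    rw [hls] at hdm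
    obtain ⟨ν, hν, hdom⟩ := hdm
    obtain ⟨𝒜, 𝓑, hA, hB, hgood⟩ := hc3 ν hν
    have hn0 : (0 : ℝ) < ((m * l : ℕ) : ℝ) := by rw [hn]; positivity
    have hA' : ∑ o, wt o * (if block (m * l) 0 (y o) ∈ 𝒜 then 1 else 0) ≤ (2 / 10 : ℝ) := by
      have h1 := hdom 𝒜
      rw [Nat.div_self (Nat.mul_pos hm0 hl00), sum_range_one, Nat.cast_one, one_mul] at h1
      have h2 := hsm _ hpn
      rw [← hγ] at h2
      have h3 : C * ((m * l : ℕ) : ℝ) * ∑ w ∈ 𝒜, ν w ≤
          C * ((m * l : ℕ) : ℝ) * (3 * (2 : ℝ) ^ (-γ)) :=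
        mul_le_mul_of_nonneg_left hA (by positivity)
      linarith
    have hB' : ∑ o, wt o * (if z o ∈ 𝓑 then 1 else 0) ≤ (1 / 100 : ℝ) := by
      rw [sum_unif (R := R ^ (m - p)) wt z hz fun b => if b ∈ 𝓑 then 1 else 0,
        div_le_div_iff₀ hR1' (by norm_num)]
      have : (100 : ℝ) * 𝓑.card ≤ (R ^ (m - p) : ℕ) := by exact_mod_cast hB
      simp only [sum_ite_mem, Finset.univ_inter, sum_const, nsmul_eq_mul, mul_one]
      linarith
    have hpt : ∀ o, Real.logb 2 (Zf (m * l) (fun z => cat l enc (c z)) (y o)) ≤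
        S o - 2 * γ * (1 - (if block (m * l) 0 (y o) ∈ 𝒜 then 1 else 0) -
          (if z o ∈ 𝓑 then 1 else 0) -
          100 / ((m * l : ℕ) : ℝ) * (hd (m * l) (cat l enc (c (z o))) (y o) : ℝ)) := by
      intro o
      have g0 : 0 ≤ γ := by rw [hγ']; positivity
      have g1 : (0 : ℝ) ≤ if block (m * l) 0 (y o) ∈ 𝒜 then 1 else 0 := by
        split_ifs <;> norm_num
      have g2 : (0 : ℝ) ≤ if z o ∈ 𝓑 then 1 else 0 := by split_ifs <;> norm_num
      have g3 : (0 : ℝ) ≤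
          100 / ((m * l : ℕ) : ℝ) * (hd (m * l) (cat l enc (c (z o))) (y o) : ℝ) := by positivity
      have g4 := hZ o
      have key : ∀ t : ℝ, t ≤ 0 → Real.logb 2 (Zf (m * l) (fun z => cat l enc (c z)) (y o)) ≤
          S o - 2 * γ * t := fun t ht => by
        linarith [mul_nonneg g0 (neg_nonneg.2 ht)]
      by_cases b1 : block (m * l) 0 (y o) ∈ 𝒜
      · rw [if_pos b1]; exact key _ (by linarith)
      by_cases b2 : z o ∈ 𝓑
      · rw [if_pos b2]; exact key _ (by linarith)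
      by_cases b3 : 100 * hd (m * l) (cat l enc (c (z o))) (y o) ≤ m * l
      · have g5 := Real.logb_le_logb_of_le (b := 2) (by norm_num)
          (mul_pos (Zf_pos hR1 _ _ _) (pow_pos hR' p)) (hgood _ b2 _ b1 b3)
        rw [Real.logb_mul (Zf_pos hR1 _ _ _).ne' (pow_pos hR' p).ne', Real.logb_pow, hRe,
          Real.logb_rpow (by norm_num) (by norm_num), Real.logb_mul (by positivity)
            (prod_pos fun i _ => Zf_pos hR0 _ _ _).ne', hS', Real.logb_mul (by norm_num)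
            (by positivity), Real.logb_rpow (by norm_num) (by norm_num),
          Real.logb_self_eq_one (by norm_num)] at g5
        have g6 : (p : ℝ) * (l / 2) ≤ p * e := mul_le_mul_of_nonneg_left he (by linarith)
        rw [if_neg b1, if_neg b2]
        linarith [mul_nonneg g0 g3]
      · have g5 : (1 : ℝ) ≤
            100 / ((m * l : ℕ) : ℝ) * (hd (m * l) (cat l enc (c (z o))) (y o) : ℝ) := by
          rw [div_mul_eq_mul_div, one_le_div hn0]
          exact_mod_cast (not_le.1 b3).le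
        exact key _ (by linarith)
    refine (sum_le_sum fun o _ => mul_le_mul_of_nonneg_left (hpt o) (hw0 o)).trans ?_
    have hhd' : 100 / ((m * l : ℕ) : ℝ) *
        ∑ o, wt o * (hd (m * l) (cat l enc (c (z o))) (y o) : ℝ) ≤ 1 / 50 := by
      rw [div_mul_eq_mul_div, div_le_iff₀ hn0]
      linarith
    have e1 : ∑ o, wt o * (S o - 2 * γ * (1 - (if block (m * l) 0 (y o) ∈ 𝒜 then 1 else 0) -
          (if z o ∈ 𝓑 then 1 else 0) -
          100 / ((m * l : ℕ) : ℝ) * (hd (m * l) (cat l enc (c (z o))) (y o) : ℝ))) =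
        ∑ o, wt o * S o - 2 * γ * (∑ o, wt o -
          ∑ o, wt o * (if block (m * l) 0 (y o) ∈ 𝒜 then 1 else 0) -
          ∑ o, wt o * (if z o ∈ 𝓑 then 1 else 0) - 100 / ((m * l : ℕ) : ℝ) *
            ∑ o, wt o * (hd (m * l) (cat l enc (c (z o))) (y o) : ℝ)) := by
      simp only [mul_sum, ← sum_sub_distrib]
      exact sum_congr rfl fun o _ => by ring
    have e2 : (𝒢.card : ℝ) = (𝒢.erase j).card + 1 := by
      exact_mod_cast (card_erase_add_one hj𝒢).symm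
    have e3 : ((m * l : ℕ) : ℝ) * (Real.logb 2 (1 + 1 / 256) - 𝒢.card / (16 * J)) =
        l * (Real.logb 2 (1 + 1 / 256) - (𝒢.erase j).card / (16 * J)) * m - γ := by
      rw [e2, hγ]; push_cast; ring
    rw [e1, e3, hw1]
    have g0 : 0 ≤ γ := by rw [hγ']; positivity
    have g1 := mul_le_mul_of_nonneg_left (show (1 / 2 : ℝ) ≤ 1 -
          ∑ o, wt o * (if block (m * l) 0 (y o) ∈ 𝒜 then 1 else 0) -
          ∑ o, wt o * (if z o ∈ 𝓑 then 1 else 0) - 100 / ((m * l : ℕ) : ℝ) *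
            ∑ o, wt o * (hd (m * l) (cat l enc (c (z o))) (y o) : ℝ) by linarith) g0
    linarith

theorem exists_small {J : ℕ} (hJ : 0 < J) :
    ∃ n₀ : ℕ, ∀ n : ℕ, n₀ ≤ n → C * n * (3 * (2 : ℝ) ^ (-((n : ℝ) / (16 * J)))) ≤ 1 / 10 := by
  have hJ' : (0 : ℝ) < J := by exact_mod_cast hJ
  set a : ℝ := Real.log 2 / (16 * J) with ha
  have ha0 : 0 < a := div_pos (Real.log_pos (by norm_num)) (by positivity)
  refine ⟨⌈60 * C / a ^ 2⌉₊ + 1, fun n hn => ?_⟩
  have h1 : 60 * C / a ^ 2 ≤ n := (Nat.le_ceil _).trans (by exact_mod_cast (by omega))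
  have h2 : (0 : ℝ) < n := by exact_mod_cast (by omega : 0 < n)
  rw [div_le_iff₀ (by positivity)] at h1
  rw [Real.rpow_def_of_pos (by norm_num), show Real.log 2 * -((n : ℝ) / (16 * J)) = -(a * n) by
    rw [ha]; ring, Real.exp_neg, ← mul_assoc, ← div_eq_mul_inv, div_le_iff₀ (Real.exp_pos _)]
  have h3 := Real.quadratic_le_exp_of_nonneg (show 0 ≤ a * n by positivity)
  nlinarith [mul_le_mul_of_nonneg_right h1 h2.le, mul_pos ha0 h2]

end Code

open Classical in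
/-- The nested random code.

Sketch. `J = 2 β + 10`. `l 0 = 1`, `l (j+1) = (2 J p j) * l j` with `p j` so large that
`n = l (j+1)` satisfies `m₀ * l j ≤ n`, `m₀ ≤ n`, `16 J ≤ n`, `100 ≤ n`,
`C * n * 3 * 2^(-n/(16 J)) ≤ 1/10`. `R j = 2 ^ (e j)`, `e 0 = 1`, `e (j+1) = e j * ((2J-1) p j)`,
so `l j / 2 ≤ e j ≤ l j` for `j ≤ J` (`e j / l j = (1 - 1/(2J))^j`). `enc 0 z = fun _ => z = 1`,
`enc (j+1) z = cat (l j) (enc j) (c z)` with `c` from `code_step` (`m = 2 J p j`, `γ = n/(16 J)`;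
`exp (n/30) < 2^(n/16)`). Prove by induction on `j ≤ J` the existence of an injective code with
(a) half of all letters `(z, i < l j)` equal to `true` (uniform marginals) and
(b) for every finite `Ω, wt, y` and `z : Ω → Fin (R j)` uniformly distributed with
`∑ wt * hd (l j) (enc (z o)) (y o) ≤ l j / 5000` and every set `𝒢 ⊆ range j` of dominated levels
(averages over the blocks `α < l j / l (i+1)`):
`∑ wt * logb 2 (Zf (l j) enc (y o)) ≤ l j * (logb 2 (1 + 1/256) - #𝒢 / (16 J))`.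
Step: pass to `Ω × Fin m`, `wt / m`, `sh (i * l j) (y o)`, `c (z o) i`; always
`Zf (j+1) ≤ ∏ Zf j`, and if the top level is dominated then with probability
`≥ 1 - (1/10 + 1/10 + 1/50 + 1/100) ≥ 1/2` one gains `p e j - γ - 1 ≥ n / (8 J)`.
Finally `b i = enc J ⟨i / l J⟩ (i % l J)`; apply (b) to `Ω × Fin (R J)`, use
`Zf ≥ 256^(-hd)` (the true word is in the code): `-8/5000 ≤ logb 2 (1+1/256) - #𝒢/(16 J)`,
which fails if `#𝒢 ≥ J - β ≥ J/2`. -/
theorem code_lemma (β m₀ : ℕ) (C : ℝ) (hC : 0 ≤ C) (𝓖 : (l : ℕ) → Finset ((Fin l → Bool) → ℝ))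
    (h𝓖 : ∀ l, ∀ ν ∈ 𝓖 l, IsSubProb ν)
    (hcard : ∀ l, m₀ ≤ l → ((𝓖 l).card : ℝ) ≤ Real.exp (Real.exp (l / 30))) :
    ∃ (J : ℕ) (l : ℕ → ℕ) (R : ℕ) (b : ℕ → Bool),
      l 0 = 1 ∧ (∀ j, 0 < l j) ∧ (∀ j, l j ∣ l (j + 1)) ∧ (∀ j, m₀ * l j ≤ l (j + 1)) ∧ 100 ≤ R ∧
      Balanced (R * l J) b ∧
      ∀ (Ω : Type) [Fintype Ω] (wt : Ω → ℝ) (y : Ω → ℕ → Bool), (∀ o, 0 ≤ wt o) → ∑ o, wt o = 1 →
        ∑ o, wt o * (hd (R * l J) b (y o) : ℝ) ≤ ((R * l J : ℕ) : ℝ) / 5000 →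
        β < ((Finset.range J).filter (fun j => ¬ ∃ ν ∈ 𝓖 (l (j + 1)),
          ∀ 𝒜 : Finset (Fin (l (j + 1)) → Bool),
            ∑ α ∈ Finset.range (R * l J / l (j + 1)), ∑ o,
                wt o * (if block (l (j + 1)) α (y o) ∈ 𝒜 then 1 else 0) ≤
              ((R * l J / l (j + 1) : ℕ) : ℝ) * (1 / 10 + C * l (j + 1) * ∑ w ∈ 𝒜, ν w))).card := by
  obtain ⟨J, hJ⟩ : ∃ J, J = 2 * β + 10 := ⟨_, rfl⟩
  obtain ⟨n₀, hn₀⟩ := Code.exists_small C (J := J) (by omega)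
  obtain ⟨p, hp1, hp2, hp3⟩ : ∃ p, m₀ ≤ p ∧ n₀ ≤ p ∧ 100 ≤ p :=
    ⟨m₀ + n₀ + 100, by omega, by omega, by omega⟩
  obtain ⟨m, hm⟩ : ∃ m, m = 2 * J * p := ⟨_, rfl⟩
  have hex : ∀ j ≤ J, ∃ (R : ℕ) (enc : Fin R → ℕ → Bool), R = 2 ^ (m - p) ^ j ∧
      Code.Good C 𝓖 J m j (Code.ll m j) enc := by
    intro j
    induction j with
    | zero => exact fun _ => ⟨2, _, rfl, Code.good_zero C 𝓖 _ _⟩
    | succ j ih =>
      intro hj
      obtain ⟨R, enc, hR, h⟩ := ih (by omega)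
      obtain ⟨enc', h'⟩ := Code.good_succ C 𝓖 hC h𝓖 (by omega) hp3 (by omega)
        (fun l hl => hcard l (hp1.trans hl)) (fun n hn => hn₀ n (hp2.trans hn)) hm rfl hR h
      exact ⟨_, enc', by rw [hR, ← pow_mul, ← pow_succ], h'⟩
  have hpm : 3 * p ≤ m := hm ▸ Nat.mul_le_mul_right _ (by omega)
  obtain ⟨R, enc, hRe, h⟩ := hex J le_rfl
  clear hex
  have hm0 : 0 < m := by omega
  have hl0 : ∀ i, 0 < Code.ll m i := fun i => by rw [Code.ll_eq]; positivity
  have hR : 100 ≤ R := by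
    rw [hRe]
    exact le_trans (by norm_num) (Nat.pow_le_pow_right (by norm_num)
      ((by omega : 7 ≤ m - p).trans (Nat.le_self_pow (by omega) _)))
  clear hRe
  have hR0 : 0 < R := by omega
  have hR' : (0 : ℝ) < R := by exact_mod_cast hR0
  let c : ℕ → Fin R := fun q => ⟨q % R, Nat.mod_lt _ hR0⟩
  have hc : ∀ q : Fin R, c q = q := fun q => Fin.ext (Nat.mod_eq_of_lt q.2)
  refine ⟨J, Code.ll m, R, cat (Code.ll m J) enc c, rfl, hl0, fun j => Dvd.intro_left m rfl,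
    fun j => Nat.mul_le_mul_right _ (by omega), hR, ?_, ?_⟩
  · show 2 * Code.tr _ _ = _
    rw [Code.tr_cat, ← Fin.sum_univ_eq_sum_range fun i => Code.tr (Code.ll m J) (enc (c i))]
    simp only [hc]
    exact h.bal
  intro Ω _ wt y hw0 hw1 hhd
  suffices β < ((Finset.range J).filter fun j =>
      ¬ Code.Dm C 𝓖 (R * Code.ll m J) (Code.ll m (j + 1)) wt y).card by
    convert this using 3
    rfl
  by_contra hcon
  have h1 := Finset.card_filter_add_card_filter_not (s := Finset.range J)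
    fun j => Code.Dm C 𝓖 (R * Code.ll m J) (Code.ll m (j + 1)) wt y
  set 𝒢 := (Finset.range J).filter
    fun j => Code.Dm C 𝓖 (R * Code.ll m J) (Code.ll m (j + 1)) wt y
  rw [Finset.card_range] at h1
  have h2 : J ≤ 2 * 𝒢.card := by omega
  have h3 := Code.pass_hd hR0 enc (fun _ => c) hhd
  simp only [hc] at h3
  have h4 := h.ent (Ω × Fin R) (fun q => wt q.1 / R) (fun q => sh (q.2 * Code.ll m J) (y q.1))
    (fun q => q.2) 𝒢 (fun q => div_nonneg (hw0 _) hR'.le) (Code.pass_one hw1 hR0) (fun a => by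
      rw [Fintype.sum_prod_type]
      simp only [mul_ite, mul_one, mul_zero, Finset.sum_ite_eq', Finset.mem_univ, if_true,
        ← Finset.sum_div, hw1]) h3 (fun i hi => by
      obtain ⟨g1, g2⟩ := Finset.mem_filter.1 hi
      refine ⟨Finset.mem_range.1 g1, Code.Dm.pass C 𝓖 hR0 (hl0 _) ?_ g2⟩
      rw [Code.ll_eq, Code.ll_eq]
      exact pow_dvd_pow _ (Finset.mem_range.1 g1))
  have h5 : ∑ q : Ω × Fin R, wt q.1 / R *
      (-8 * (hd (Code.ll m J) (enc q.2) (sh (q.2 * Code.ll m J) (y q.1)) : ℝ)) ≤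
      ∑ q : Ω × Fin R, wt q.1 / R *
        Real.logb 2 (Zf (Code.ll m J) enc (sh (q.2 * Code.ll m J) (y q.1))) := by
    refine Finset.sum_le_sum fun q _ => mul_le_mul_of_nonneg_left ?_ (div_nonneg (hw0 _) hR'.le)
    have g := Real.logb_le_logb_of_le (b := 2) (by norm_num) (by positivity)
      (Code.le_Zf (Code.ll m J) enc (sh (q.2 * Code.ll m J) (y q.1)) q.2)
    have g' : Real.logb 2 (1 / 256) = -8 := by
      rw [show (1 / 256 : ℝ) = (2 : ℝ) ^ (-8 : ℝ) by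
        rw [Real.rpow_neg (by norm_num)]; norm_num, Real.logb_rpow (by norm_num) (by norm_num)]
    rw [Real.logb_pow, g'] at g
    linarith
  simp only [mul_left_comm _ (-8 : ℝ), ← Finset.mul_sum] at h5
  have h6 : Real.logb 2 (1 + 1 / 256) ≤ 1 / 128 := by
    rw [Real.logb, div_le_iff₀ (Real.log_pos (by norm_num))]
    have g1 := Real.log_le_sub_one_of_pos (show (0 : ℝ) < 1 + 1 / 256 by norm_num)
    linarith [Real.log_two_gt_d9]
  have h7 : (1 / 32 : ℝ) ≤ 𝒢.card / (16 * J) := by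
    have g1 : (0 : ℝ) < J := by exact_mod_cast (by omega : 0 < J)
    have g2 : (J : ℝ) ≤ 2 * 𝒢.card := by exact_mod_cast h2
    rw [div_le_div_iff₀ (by norm_num) (by positivity)]
    linarith
  have h8 : (0 : ℝ) < Code.ll m J := by exact_mod_cast hl0 J
  nlinarith

end Crest.Agent.R133
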