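import Crest.Agent.R133.Defs

set_option autoImplicit false

open MeasureTheory Metric Set Crest.AnalysisR
open scoped ENNReal Manifold ContDiff Topology

namespace Crest.Agent.R133

/-- Hamming distance of the first `l` letters. -/
def hd (l : ℕ) (u v : ℕ → Bool) : ℕ := ((Finset.range l).filter (fun i => u i ≠ v i)).card

/-- Shift. -/
def sh (a : ℕ) (y : ℕ → Bool) : ℕ → Bool := fun i => y (a + i)

/-- Partition function of the code `enc` (words of length `l`) at `y`. -/
noncomputable def Zf {R : ℕ} (l : ℕ) (enc : Fin R → ℕ → Bool) (y : ℕ → Bool) : ℝ :=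
  ∑ z, (1 / 256 : ℝ) ^ hd l (enc z) y

/-- Concatenation of the code words `enc (c 0), enc (c 1), …` (each of length `l`). -/
def cat {R : ℕ} (l : ℕ) (enc : Fin R → ℕ → Bool) (c : ℕ → Fin R) : ℕ → Bool :=
  fun i => enc (c (i / l)) (i % l)

end Crest.Agent.R133
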