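import Crest.Agent.R133.CodeDefs
import Crest.Agent.R133.Chernoff

set_option autoImplicit false

open MeasureTheory Metric Set Crest.AnalysisR
open scoped ENNReal Manifold ContDiff Topology

namespace Crest.Agent.R133

theorem CS_pow_hd (n : ℕ) (x y : ℕ → Bool) :
    (1 / 256 : ℝ) ^ hd n x y = ∏ i ∈ Finset.range n, if x i ≠ y i then (1 / 256 : ℝ) else 1 := by
  rw [Finset.prod_ite, Finset.prod_const_one, mul_one, Finset.prod_const, hd]

theorem CS_hd_congr {n : ℕ} (x : ℕ → Bool) {y y' : ℕ → Bool} (h : ∀ i < n, y i = y' i) :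
    hd n x y = hd n x y' := by
  unfold hd
  congr 1
  exact Finset.filter_congr fun i hi => by rw [h i (Finset.mem_range.1 hi)]

theorem CS_hd_tri (n : ℕ) (x y z : ℕ → Bool) : hd n x z ≤ hd n x y + hd n z y := by
  unfold hd
  refine le_trans (Finset.card_le_card ?_) (Finset.card_union_le _ _)
  intro i hi
  simp only [Finset.mem_filter, Finset.mem_union] at hi ⊢
  by_cases h : x i = y i
  · exact Or.inr ⟨hi.1, fun h' => hi.2 (h.trans h'.symm)⟩
  · exact Or.inl ⟨hi.1, h⟩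

/-- Extension of a finite word. -/
def CS_ext {n : ℕ} (w : Fin n → Bool) : ℕ → Bool := fun i => if h : i < n then w ⟨i, h⟩ else false

theorem CS_ext_block (n : ℕ) (y : ℕ → Bool) (i : ℕ) (hi : i < n) :
    CS_ext (block n 0 y) i = y i := by
  simp [CS_ext, hi, block]

theorem CS_sum_words (n : ℕ) (x : ℕ → Bool) :
    ∑ w : Fin n → Bool, (1 / 256 : ℝ) ^ hd n x (CS_ext w) = (257 / 256) ^ n := by
  have h1 : ∀ w : Fin n → Bool, (1 / 256 : ℝ) ^ hd n x (CS_ext w) =
      ∏ i : Fin n, if x i ≠ w i then (1 / 256 : ℝ) else 1 := by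
    intro w
    rw [CS_pow_hd, ← Fin.prod_univ_eq_prod_range (fun i => if x i ≠ CS_ext w i then (1 / 256 : ℝ) else 1)]
    exact Finset.prod_congr rfl fun i _ => by simp [CS_ext]
  simp only [h1]
  have h2 := Finset.prod_univ_sum (fun _ : Fin n => (Finset.univ : Finset Bool))
    (fun i b => if x i ≠ b then (1 / 256 : ℝ) else 1)
  rw [Fintype.piFinset_univ] at h2
  rw [← h2, Finset.prod_congr rfl (g := fun _ => (257 / 256 : ℝ))]
  · rw [Finset.prod_const, Finset.card_univ, Fintype.card_fin]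
  · intro i _
    cases x i <;> simp <;> norm_num

theorem CS_sum_inj {Z : Type*} [Fintype Z] (n : ℕ) (u : Z → ℕ → Bool)
    (hu : ∀ z z', (∀ i < n, u z i = u z' i) → z = z') (x : ℕ → Bool) :
    ∑ z, (1 / 256 : ℝ) ^ hd n x (u z) ≤ (257 / 256) ^ n := by
  classical
  have hinj : Function.Injective fun z => block n 0 (u z) := by
    intro z z' h
    refine hu z z' fun i hi => ?_
    have := congrFun h ⟨i, hi⟩
    simpa [block] using this
  rw [← CS_sum_words n x]
  calc ∑ z, (1 / 256 : ℝ) ^ hd n x (u z)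
      = ∑ z, (1 / 256 : ℝ) ^ hd n x (CS_ext (block n 0 (u z))) :=
        Finset.sum_congr rfl fun z _ => by
          rw [CS_hd_congr x fun i hi => CS_ext_block n (u z) i hi]
    _ = ∑ w ∈ Finset.univ.image (fun z => block n 0 (u z)), (1 / 256 : ℝ) ^ hd n x (CS_ext w) := by
        rw [Finset.sum_image fun a _ b _ h => hinj h]
    _ ≤ _ := Finset.sum_le_sum_of_subset_of_nonneg (Finset.subset_univ _)
        fun _ _ _ => by positivity

theorem CS_hd_cat {R : ℕ} (l : ℕ) (hl : 0 < l) (enc : Fin R → ℕ → Bool) (c : ℕ → Fin R)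
    (y : ℕ → Bool) (m : ℕ) :
    (1 / 256 : ℝ) ^ hd (m * l) (cat l enc c) y =
      ∏ i ∈ Finset.range m, (1 / 256 : ℝ) ^ hd l (enc (c i)) (sh (i * l) y) := by
  induction m with
  | zero => simp [hd]
  | succ m ih =>
    rw [Finset.prod_range_succ, ← ih, CS_pow_hd, CS_pow_hd, CS_pow_hd, add_mul, one_mul,
      Finset.prod_range_add]
    congr 1
    refine Finset.prod_congr rfl fun j hj => ?_
    have hj' := Finset.mem_range.1 hj
    have h1 : (m * l + j) / l = m := by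
      rw [add_comm, Nat.add_mul_div_right _ _ hl, Nat.div_eq_of_lt hj', zero_add]
    have h2 : (m * l + j) % l = j := by
      rw [add_comm, Nat.add_mul_mod_self_right, Nat.mod_eq_of_lt hj']
    simp only [cat, sh, h1, h2]
    congr

theorem CS_cat_inj {R : ℕ} (l : ℕ) (hl : 0 < l) (enc : Fin R → ℕ → Bool)
    (hinj : ∀ z z', (∀ i < l, enc z i = enc z' i) → z = z') (m : ℕ) (c c' : ℕ → Fin R)
    (h : ∀ i < m * l, cat l enc c i = cat l enc c' i) (j : ℕ) (hj : j < m) : c j = c' j := by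
  refine hinj _ _ fun t ht => ?_
  have h0 : j * l + t < m * l := by
    have := Nat.mul_le_mul_right l (Nat.succ_le_of_lt hj)
    rw [Nat.succ_mul] at this
    omega
  have h1 : (j * l + t) / l = j := by
    rw [add_comm, Nat.add_mul_div_right _ _ hl, Nat.div_eq_of_lt ht, zero_add]
  have h2 : (j * l + t) % l = t := by
    rw [add_comm, Nat.add_mul_mod_self_right, Nat.mod_eq_of_lt ht]
  simpa only [cat, h1, h2] using h _ h0

theorem CS_marg {Z : Type*} [Fintype Z] {R : ℕ} [NeZero R] (φ : Z → Fin R)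
    (h : ∀ b, ∃ τ : Z ≃ Z, ∀ z, φ (τ z) = φ z + b) (a : Fin R) :
    (Finset.univ.filter (fun z => φ z = a)).card * R = Fintype.card Z := by
  have h1 : ∀ a', (Finset.univ.filter (fun z => φ z = a')).card =
      (Finset.univ.filter (fun z => φ z = a)).card := by
    intro a'
    obtain ⟨τ, hτ⟩ := h (a - a')
    refine Finset.card_equiv τ fun z => ?_
    simp only [Finset.mem_filter, Finset.mem_univ, true_and, hτ]
    constructor
    · rintro rfl; abel
    · intro h2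
      have h3 : φ z + (a - a') = a' + (a - a') := by rw [h2]; abel
      exact add_right_cancel h3
  rw [← Finset.card_univ, Finset.card_eq_sum_card_fiberwise (f := φ) (s := Finset.univ)
    (t := Finset.univ) (fun _ _ => Finset.mem_coe.2 (Finset.mem_univ _))]
  simp [h1, mul_comm]

theorem CS_one_le_sum_min {σ : Type*} (S : Finset σ) (x : σ → ℝ) (hx : ∀ s, 0 ≤ x s)
    (h : 1 ≤ ∑ s ∈ S, x s) : 1 ≤ ∑ s ∈ S, min 1 (x s) := by
  by_cases h1 : ∃ s ∈ S, 1 ≤ x s
  · obtain ⟨s, hs, h2⟩ := h1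
    have := Finset.single_le_sum (f := fun s => min 1 (x s))
      (fun s _ => le_min zero_le_one (hx s)) hs
    rwa [min_eq_left h2] at this
  · push Not at h1
    rwa [Finset.sum_congr rfl fun s hs => min_eq_right (h1 s hs).le]

section cw
variable {R p q : ℕ} [NeZero R]

/-- The sequence `(z', s, z' + a)`. -/
def CS_cw (z' : Fin p → Fin R) (s : Fin q → Fin R) (a : Fin p → Fin R) : ℕ → Fin R := fun i =>
  if h : i < p then z' ⟨i, h⟩ else if h' : i - p < q then s ⟨i - p, h'⟩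
    else if h'' : i - (p + q) < p then z' ⟨i - (p + q), h''⟩ + a ⟨i - (p + q), h''⟩ else 0

theorem CS_cw1 (z' : Fin p → Fin R) (s : Fin q → Fin R) (a : Fin p → Fin R) (i : Fin p) :
    CS_cw z' s a i = z' i := by
  simp [CS_cw]

theorem CS_cw2 (z' : Fin p → Fin R) (s : Fin q → Fin R) (a : Fin p → Fin R) (i : Fin q) :
    CS_cw z' s a (p + i) = s i := by
  simp [CS_cw]

theorem CS_cw3 (z' : Fin p → Fin R) (s : Fin q → Fin R) (a : Fin p → Fin R) (i : Fin p) :
    CS_cw z' s a (p + q + i) = z' i + a i := by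
  have h1 : ¬ p + q + i < p := by omega
  have h2 : ¬ p + q + i - p < q := by omega
  simp [CS_cw, h1, h2]

omit [NeZero R] in
theorem CS_sum_pi {k : ℕ} (w : Fin k → Fin R → ℝ) :
    ∑ z : Fin k → Fin R, ∏ i, w i (z i) = ∏ i, ∑ b, w i b := by
  have h2 := Finset.prod_univ_sum (fun _ : Fin k => (Finset.univ : Finset (Fin R))) w
  rw [Fintype.piFinset_univ] at h2
  exact h2.symm

theorem CS_sum_cw (w : ℕ → Fin R → ℝ) :
    ∑ s : Fin q → Fin R, ∑ a : Fin p → Fin R, ∑ z' : Fin p → Fin R,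
      ∏ i ∈ Finset.range (p + q + p), w i (CS_cw z' s a i) =
      ∏ i ∈ Finset.range (p + q + p), ∑ b, w i b := by
  have h1 : ∀ F : ℕ → ℝ, ∏ i ∈ Finset.range (p + q + p), F i =
      (∏ i : Fin p, F i) * (∏ i : Fin q, F (p + i)) * ∏ i : Fin p, F (p + q + i) := by
    intro F
    rw [Finset.prod_range_add, Finset.prod_range_add, Fin.prod_univ_eq_prod_range F,
      Fin.prod_univ_eq_prod_range (fun i => F (p + i)),
      Fin.prod_univ_eq_prod_range (fun i => F (p + q + i))]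
  have h2 : ∀ z' : Fin p → Fin R, ∑ a : Fin p → Fin R, ∏ i : Fin p, w (p + q + i) (z' i + a i) =
      ∏ i : Fin p, ∑ b, w (p + q + i) b := by
    intro z'
    rw [← CS_sum_pi (fun i : Fin p => w (p + q + i))]
    exact Equiv.sum_comp (Equiv.addLeft z') (fun a : Fin p → Fin R => ∏ i : Fin p, w (p + q + i) (a i))
  calc ∑ s : Fin q → Fin R, ∑ a : Fin p → Fin R, ∑ z' : Fin p → Fin R,
      ∏ i ∈ Finset.range (p + q + p), w i (CS_cw z' s a i)
      = ∑ s : Fin q → Fin R, ∑ z' : Fin p → Fin R, (∏ i : Fin p, w i (z' i)) *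
          (∏ i : Fin q, w (p + i) (s i)) * ∏ i : Fin p, ∑ b, w (p + q + i) b := by
        refine Finset.sum_congr rfl fun s _ => ?_
        rw [Finset.sum_comm]
        refine Finset.sum_congr rfl fun z' _ => ?_
        rw [← h2 z', Finset.mul_sum]
        refine Finset.sum_congr rfl fun a _ => ?_
        rw [h1]
        simp only [CS_cw1, CS_cw2, CS_cw3]
    _ = _ := by
        rw [h1, ← CS_sum_pi (fun i : Fin p => w i), ← CS_sum_pi (fun i : Fin q => w (p + i))]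
        simp only [← Finset.sum_mul, ← Finset.mul_sum]

end cw

theorem CS_num1 (n : ℕ) (t : ℝ) (h : t ^ 200 = 2 ^ n) : (257 / 256 : ℝ) ^ n ≤ t ^ 2 := by
  refine le_of_pow_le_pow_left₀ (n := 100) (by norm_num) (by positivity) ?_
  rw [← pow_mul t, show 2 * 100 = 200 from rfl, h, ← pow_mul, mul_comm, pow_mul]
  exact pow_le_pow_left₀ (by positivity) (by norm_num) n

theorem CS_num2 (n d : ℕ) (t : ℝ) (h : t ^ 200 = 2 ^ n) (hd : 100 * d ≤ n) :
    (256 : ℝ) ^ (2 * d) ≤ t ^ 32 := by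
  refine le_of_pow_le_pow_left₀ (n := 25) (by norm_num) (by positivity) ?_
  rw [← pow_mul t, show 32 * 25 = 200 * 4 from rfl, pow_mul t, h, show (256 : ℝ) = 2 ^ 8 by norm_num,
    ← pow_mul, ← pow_mul, ← pow_mul]
  exact pow_le_pow_right₀ one_le_two (by omega)

/-- The abstract form of the selection argument. -/
theorem CS_core {σ V : Type} [Fintype σ] [DecidableEq σ] [Fintype V] [Nonempty V] (n : ℕ)
    (x : V → σ → V → ℕ → Bool) (t μ₀ : ℝ) (ht : 0 < t) (ht2 : t ^ 200 = 2 ^ n) (hμ : 0 < μ₀)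
    (hμ1 : μ₀ ≤ 1) [Nonempty σ]
    (hinj : ∀ (g : σ → V) (z z' : V × σ),
      (∀ i < n, x z.1 z.2 (g z.2) i = x z'.1 z'.2 (g z'.2) i) → z = z')
    (𝓖 : Finset ((Fin n → Bool) → ℝ)) (h𝓖 : ∀ ν ∈ 𝓖, IsSubProb ν)
    (hcard : (𝓖.card : ℝ) < Real.exp (μ₀ * t ^ 25)) :
    ∃ g : σ → V, ∀ ν ∈ 𝓖, ∃ (𝒜 : Finset (Fin n → Bool)) (𝓑 : Finset (V × σ)),
      ∑ w ∈ 𝒜, ν w ≤ 3 * μ₀ ∧ (𝓑.card : ℝ) ≤ 2 * (Fintype.card V : ℝ) ^ 2 * t ^ 59 ∧
      ∀ z ∉ 𝓑, ∀ y : ℕ → Bool, block n 0 y ∉ 𝒜 → 100 * hd n (x z.1 z.2 (g z.2)) y ≤ n →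
        (∑ z' : V × σ, (1 / 256 : ℝ) ^ hd n (x z'.1 z'.2 (g z'.2)) y) * (Fintype.card V * μ₀) ≤
          2 * ∑ s, ∑ a, ∑ z', (1 / 256 : ℝ) ^ hd n (x z' s a) y := by
  classical
  have hV : (0 : ℝ) < Fintype.card V := by exact_mod_cast Fintype.card_pos
  set M : ℝ := Fintype.card V * μ₀ with hM
  have hM0 : 0 < M := by positivity
  let Pi : (ℕ → Bool) → ℝ := fun y => ∑ s, ∑ a, ∑ z', (1 / 256 : ℝ) ^ hd n (x z' s a) y
  have hPi : ∀ y, 0 < Pi y := fun y =>
    Finset.sum_pos (fun _ _ => Finset.sum_pos (fun _ _ => Finset.sum_pos (fun _ _ => by positivity)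
      Finset.univ_nonempty) Finset.univ_nonempty) Finset.univ_nonempty
  let r : σ → V → (ℕ → Bool) → ℝ := fun s a y =>
    (∑ z', (1 / 256 : ℝ) ^ hd n (x z' s a) y) * (M / Pi y)
  have hr0 : ∀ s a y, 0 ≤ r s a y := fun s a y => by
    have := hPi y
    exact mul_nonneg (Finset.sum_nonneg fun _ _ => by positivity) (by positivity)
  have hrsum : ∀ y, ∑ s, ∑ a, r s a y = M := by
    intro y
    simp only [r, ← Finset.sum_mul]
    exact mul_div_cancel₀ _ (hPi y).ne'
  have hrext : ∀ s a y, r s a (CS_ext (block n 0 y)) = r s a y := by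
    intro s a y
    have : ∀ u, hd n u (CS_ext (block n 0 y)) = hd n u y := fun u =>
      CS_hd_congr u fun i hi => CS_ext_block n y i hi
    simp only [r, Pi, this]
  let f : ((Fin n → Bool) → ℝ) → σ → V → ℝ := fun ν s a => ∑ w, ν w * min 1 (r s a (CS_ext w))
  have hf0 : ∀ ν ∈ 𝓖, ∀ s a, 0 ≤ f ν s a := fun ν hν s a =>
    Finset.sum_nonneg fun w _ => mul_nonneg ((h𝓖 ν hν).1 w) (le_min zero_le_one (hr0 _ _ _))
  have hfsum : ∀ ν ∈ 𝓖, ∑ s, ∑ a, f ν s a ≤ M := by
    intro ν hν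
    calc ∑ s, ∑ a, f ν s a ≤ ∑ s, ∑ a, ∑ w, ν w * r s a (CS_ext w) :=
          Finset.sum_le_sum fun s _ => Finset.sum_le_sum fun a _ => Finset.sum_le_sum fun w _ =>
            mul_le_mul_of_nonneg_left (min_le_right _ _) ((h𝓖 ν hν).1 w)
      _ = ∑ s, ∑ w, ∑ a, ν w * r s a (CS_ext w) :=
          Finset.sum_congr rfl fun s _ => Finset.sum_comm
      _ = ∑ w, ∑ s, ∑ a, ν w * r s a (CS_ext w) := Finset.sum_comm
      _ = (∑ w, ν w) * M := by
          simp only [← Finset.mul_sum, hrsum, Finset.sum_mul]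
      _ ≤ M := mul_le_of_le_one_left hM0.le (h𝓖 ν hν).2
  set c₀ : ℝ := 1 / t ^ 25 with hc₀
  have hc₀0 : 0 < c₀ := by positivity
  obtain ⟨g, hg⟩ := chernoff_select 𝓖 (fun ν s a => if f ν s a ≤ c₀ then f ν s a else 0) c₀ μ₀ hc₀0
    (fun ν hν s a => by
      split_ifs
      · exact hf0 ν hν s a
      · exact le_rfl)
    (fun ν hν s a => by
      split_ifs with h
      · exact h
      · exact hc₀0.le)
    (fun ν hν => le_trans (Finset.sum_le_sum fun s _ => Finset.sum_le_sum fun a _ => by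
      split_ifs
      · exact le_rfl
      · exact hf0 ν hν s a) (hfsum ν hν))
    (by rwa [hc₀, div_div_eq_mul_div, div_one])
  refine ⟨g, fun ν hν => ?_⟩
  let L : Finset σ := Finset.univ.filter fun s => f ν s (g s) ≤ c₀
  let H : Finset (σ × V) := Finset.univ.filter fun sa => ¬ f ν sa.1 sa.2 ≤ c₀
  let K : V × σ → ℝ := fun z =>
    ∑ sa ∈ H, ∑ z', (1 / 256 : ℝ) ^ hd n (x z' sa.1 sa.2) (x z.1 z.2 (g z.2))
  have hK0 : ∀ z, 0 ≤ K z := fun z =>
    Finset.sum_nonneg fun _ _ => Finset.sum_nonneg fun _ _ => by positivity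
  refine ⟨Finset.univ.filter fun w => 1 ≤ ∑ s ∈ L, r s (g s) (CS_ext w),
    Finset.univ.filter fun z => 1 / (2 * t ^ 32) ≤ K z, ?_, ?_, ?_⟩
  · refine le_trans ?_ (hg ν hν)
    rw [← Finset.sum_filter]
    calc ∑ w ∈ Finset.univ.filter (fun w => 1 ≤ ∑ s ∈ L, r s (g s) (CS_ext w)), ν w
        ≤ ∑ w ∈ Finset.univ.filter (fun w => 1 ≤ ∑ s ∈ L, r s (g s) (CS_ext w)),
            ν w * ∑ s ∈ L, min 1 (r s (g s) (CS_ext w)) :=
          Finset.sum_le_sum fun w hw => le_mul_of_one_le_right ((h𝓖 ν hν).1 w)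
            (CS_one_le_sum_min L _ (fun s => hr0 _ _ _) (Finset.mem_filter.1 hw).2)
      _ ≤ ∑ w, ν w * ∑ s ∈ L, min 1 (r s (g s) (CS_ext w)) :=
          Finset.sum_le_sum_of_subset_of_nonneg (Finset.subset_univ _) fun w _ _ =>
            mul_nonneg ((h𝓖 ν hν).1 w)
              (Finset.sum_nonneg fun s _ => le_min zero_le_one (hr0 _ _ _))
      _ = ∑ s ∈ L, f ν s (g s) := by
          simp only [Finset.mul_sum, f]
          exact Finset.sum_comm
  · have h1 : (H.card : ℝ) * c₀ ≤ Fintype.card V := by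
      calc (H.card : ℝ) * c₀ = ∑ _sa ∈ H, c₀ := by rw [Finset.sum_const, nsmul_eq_mul]
        _ ≤ ∑ sa ∈ H, f ν sa.1 sa.2 := Finset.sum_le_sum fun sa hsa =>
            (not_le.1 (Finset.mem_filter.1 hsa).2).le
        _ ≤ ∑ sa : σ × V, f ν sa.1 sa.2 :=
            Finset.sum_le_sum_of_subset_of_nonneg (Finset.subset_univ _) fun sa _ _ => hf0 ν hν _ _
        _ = ∑ s, ∑ a, f ν s a := Fintype.sum_prod_type _
        _ ≤ M := hfsum ν hν
        _ ≤ Fintype.card V := mul_le_of_le_one_right hV.le hμ1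
    rw [hc₀, mul_one_div, div_le_iff₀ (by positivity)] at h1
    have h2 : ∑ z, K z ≤ (H.card : ℝ) * (Fintype.card V * t ^ 2) := by
      calc ∑ z, K z = ∑ sa ∈ H, ∑ z', ∑ z : V × σ,
            (1 / 256 : ℝ) ^ hd n (x z' sa.1 sa.2) (x z.1 z.2 (g z.2)) := by
            rw [Finset.sum_comm]
            exact Finset.sum_congr rfl fun sa _ => Finset.sum_comm
        _ ≤ ∑ _sa ∈ H, ∑ _z' : V, t ^ 2 :=
            Finset.sum_le_sum fun sa _ => Finset.sum_le_sum fun z' _ =>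
              (CS_sum_inj n (fun z : V × σ => x z.1 z.2 (g z.2)) (hinj g) _).trans
                (CS_num1 n t ht2)
        _ = _ := by simp
    set 𝓑 : Finset (V × σ) := Finset.univ.filter fun z => 1 / (2 * t ^ 32) ≤ K z with h𝓑
    have h3 : (𝓑.card : ℝ) * (1 / (2 * t ^ 32)) ≤ ∑ z, K z := by
      calc (𝓑.card : ℝ) * (1 / (2 * t ^ 32)) = ∑ _z ∈ 𝓑, 1 / (2 * t ^ 32) := by
            rw [Finset.sum_const, nsmul_eq_mul]
        _ ≤ ∑ z ∈ 𝓑, K z := Finset.sum_le_sum fun z hz => (Finset.mem_filter.1 hz).2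
        _ ≤ ∑ z, K z :=
            Finset.sum_le_sum_of_subset_of_nonneg (Finset.subset_univ _) fun z _ _ => hK0 z
    rw [mul_one_div, div_le_iff₀ (by positivity)] at h3
    calc (𝓑.card : ℝ) ≤ (∑ z, K z) * (2 * t ^ 32) := h3
      _ ≤ (Fintype.card V * t ^ 25) * (Fintype.card V * t ^ 2) * (2 * t ^ 32) := by
          gcongr
          exact h2.trans (by gcongr)
      _ = _ := by ring
  · intro z hz y hy hd1
    simp only [Finset.mem_filter, Finset.mem_univ, true_and, not_le, hrext] at hz hy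
    set d := hd n (x z.1 z.2 (g z.2)) y with hd0
    set Z : ℝ := ∑ z' : V × σ, (1 / 256 : ℝ) ^ hd n (x z'.1 z'.2 (g z'.2)) y with hZ
    let G : σ → V → ℝ := fun s a => ∑ z', (1 / 256 : ℝ) ^ hd n (x z' s a) y
    have hG0 : ∀ s a, 0 ≤ G s a := fun s a => Finset.sum_nonneg fun _ _ => by positivity
    have h1 : (1 / 256 : ℝ) ^ d ≤ Z :=
      Finset.single_le_sum (f := fun z' : V × σ => (1 / 256 : ℝ) ^ hd n (x z'.1 z'.2 (g z'.2)) y)
        (fun _ _ => by positivity) (Finset.mem_univ z)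
    have h2 : Z = ∑ s ∈ L, G s (g s) +
        ∑ s ∈ Finset.univ.filter (fun s => ¬ f ν s (g s) ≤ c₀), G s (g s) := by
      rw [Finset.sum_filter_add_sum_filter_not, hZ, Fintype.sum_prod_type_right]
    have h3 : (∑ s ∈ L, G s (g s)) * M ≤ Pi y := by
      have h4 : (∑ s ∈ L, G s (g s)) * (M / Pi y) < 1 := by
        rw [Finset.sum_mul]; exact hy
      rw [← mul_div_assoc, div_lt_one (hPi y)] at h4
      exact h4.le
    have h4 : ∑ s ∈ Finset.univ.filter (fun s => ¬ f ν s (g s) ≤ c₀), G s (g s) ≤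
        256 ^ d * K z := by
      calc ∑ s ∈ Finset.univ.filter (fun s => ¬ f ν s (g s) ≤ c₀), G s (g s)
          = ∑ sa ∈ (Finset.univ.filter (fun s => ¬ f ν s (g s) ≤ c₀)).image (fun s => (s, g s)),
              G sa.1 sa.2 := by
            rw [Finset.sum_image fun a _ b _ h => congrArg Prod.fst h]
        _ ≤ ∑ sa ∈ H, G sa.1 sa.2 := by
            refine Finset.sum_le_sum_of_subset_of_nonneg ?_ fun _ _ _ => hG0 _ _
            intro sa hsa
            obtain ⟨s, hs, rfl⟩ := Finset.mem_image.1 hsa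
            exact Finset.mem_filter.2 ⟨Finset.mem_univ _, (Finset.mem_filter.1 hs).2⟩
        _ ≤ 256 ^ d * K z := by
            simp only [K, G, Finset.mul_sum]
            refine Finset.sum_le_sum fun sa _ => Finset.sum_le_sum fun z' _ => ?_
            have h5 := CS_hd_tri n (x z' sa.1 sa.2) y (x z.1 z.2 (g z.2))
            have h6 : (1 / 256 : ℝ) ^ (hd n (x z' sa.1 sa.2) y + d) ≤
                (1 / 256 : ℝ) ^ hd n (x z' sa.1 sa.2) (x z.1 z.2 (g z.2)) :=
              pow_le_pow_of_le_one (by norm_num) (by norm_num) h5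
            have h7 : (256 : ℝ) ^ d * (1 / 256) ^ d = 1 := by rw [← mul_pow]; norm_num
            calc (1 / 256 : ℝ) ^ hd n (x z' sa.1 sa.2) y
                = 256 ^ d * (1 / 256 : ℝ) ^ (hd n (x z' sa.1 sa.2) y + d) := by
                  rw [pow_add, mul_left_comm, h7, mul_one]
              _ ≤ _ := by gcongr
    have h5 : 256 ^ d * K z ≤ (1 / 256 : ℝ) ^ d / 2 := by
      have h6 := CS_num2 n d t ht2 hd1
      calc 256 ^ d * K z ≤ 256 ^ d * (1 / (2 * t ^ 32)) := by gcongr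
        _ ≤ 256 ^ d * (1 / (2 * 256 ^ (2 * d))) := by gcongr
        _ = _ := by rw [two_mul d, pow_add, one_div_pow]; field_simp
    have h6 : Z ≤ 2 * ∑ s ∈ L, G s (g s) := by linarith
    calc Z * M ≤ (2 * ∑ s ∈ L, G s (g s)) * M := by gcongr
      _ ≤ 2 * Pi y := by linarith

/-- One random sub-code of the `m`-fold concatenations, of density `R ^ (-p)`.

Sketch. Put `n = m * l`. Identify `Fin (R ^ (m - p))` with pairs `(z', s)`, `z' : Fin p → Fin R`
(or `ZMod R`), seed `s : Fin (m - 2p) → Fin R`; for `a : Fin p → Fin R` let `cw z' s a` be the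
sequence `(z', s, z' + a)` of length `m` (the map `(z', s, a) ↦ cw z' s a` is a bijection onto all
sequences of length `m`), and `c (z', s) = cw z' s (g s)`. Injectivity and uniform marginals hold
for every `g`. Let `Π y = ∏ i<m, Zf l enc (sh (i*l) y) = ∑_{all c} 256^(-hd n (cat c) y) > 0`,
`Λ = 2^γ / R^p`, `r s a y = ∑_{z'} 256^(-hd n (cat (cw z' s a)) y) / (Λ Π y)`, so
`∑_{s,a} r s a y = 1/Λ`. For `ν ∈ 𝓖` put `f s a = ∑_w ν w * min 1 (r s a w)` (extend `w` to `ℕ`;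
everything only depends on the first `n` letters), `∑_{s,a} f ≤ R^p 2^(-γ)`. `(s,a)` is heavy if
`f s a > c₀ = 2^(-n/8)`; there are at most `R^p 2^(n/8)` heavy pairs. `chernoff_select` applied to
the light part with `μ₀ = 2^(-γ)` gives `g`. `𝒜 = {w | 1 ≤ ∑_{s light} r s (g s) w}` has
`ν 𝒜 ≤ ∑_{s light} f s (g s) ≤ 3 * 2^(-γ)`. `H` = family of words `cat (cw z' s a)`, `(s,a)` heavy
(`≤ R^(2p) 2^(n/8)` of them); `𝓑 = {z | 256^(-2n/100)/2 ≤ ∑_{x∈H} 256^(-hd n x (cat (c z)))}`;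
Markov with `∑_z 256^(-hd n x (cat (c z))) ≤ (1+1/256)^n ≤ 2^(n/100)` (injectivity) bounds `𝓑`.
For `z ∉ 𝓑` and `hd (cat (c z)) y ≤ n/100`, the triangle inequality shows that the heavy part of
`Zf` is `< 256^(-hd (cat (c z)) y)/2 ≤ Zf/2`, so `Zf ≤ 2 * light part < 2 Λ Π y` off `𝒜`. -/
theorem code_step (l R m p : ℕ) (enc : Fin R → ℕ → Bool) (hl : 0 < l) (hR : 0 < R)
    (hinj : ∀ z z', (∀ i < l, enc z i = enc z' i) → z = z') (hpm : 2 * p ≤ m)
    (γ : ℝ) (hγ : 0 ≤ γ) (𝓖 : Finset ((Fin (m * l) → Bool) → ℝ)) (h𝓖 : ∀ ν ∈ 𝓖, IsSubProb ν)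
    (hcard : (𝓖.card : ℝ) < Real.exp ((2 : ℝ) ^ (((m * l : ℕ) : ℝ) / 8 - γ)))
    (hheavy : 200 * (R : ℝ) ^ (2 * p) * (2 : ℝ) ^ (((m * l : ℕ) : ℝ) * (59 / 200)) ≤
      (R : ℝ) ^ (m - p)) :
    ∃ c : Fin (R ^ (m - p)) → ℕ → Fin R,
      (∀ z z', (∀ i < m, c z i = c z' i) → z = z') ∧
      (∀ i < m, ∀ a, (Finset.univ.filter (fun z => c z i = a)).card * R = R ^ (m - p)) ∧
      ∀ ν ∈ 𝓖, ∃ (𝒜 : Finset (Fin (m * l) → Bool)) (𝓑 : Finset (Fin (R ^ (m - p)))),
        ∑ w ∈ 𝒜, ν w ≤ 3 * (2 : ℝ) ^ (-γ) ∧ 100 * 𝓑.card ≤ R ^ (m - p) ∧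
        ∀ z ∉ 𝓑, ∀ y : ℕ → Bool, block (m * l) 0 y ∉ 𝒜 →
          100 * hd (m * l) (cat l enc (c z)) y ≤ m * l →
          Zf (m * l) (fun z => cat l enc (c z)) y * (R : ℝ) ^ p ≤
            2 * (2 : ℝ) ^ γ * ∏ i ∈ Finset.range m, Zf l enc (sh (i * l) y) := by
  classical
  have : NeZero R := ⟨hR.ne'⟩
  obtain ⟨q, rfl⟩ : ∃ q, m = p + q + p := ⟨m - 2 * p, by omega⟩
  let n := (p + q + p) * l
  have hn : n = (p + q + p) * l := rfl
  set t : ℝ := (2 : ℝ) ^ ((n : ℝ) / 200) with ht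
  have htk : ∀ k : ℕ, t ^ k = (2 : ℝ) ^ ((n : ℝ) * (k / 200)) := fun k => by
    rw [ht, ← Real.rpow_natCast, ← Real.rpow_mul zero_le_two]
    congr 1
    ring
  have ht0 : 0 < t := by positivity
  have ht2 : t ^ 200 = 2 ^ n := by
    rw [htk, ← Real.rpow_natCast]
    congr 1
    push_cast
    ring
  have hcw : ∀ (g : (Fin q → Fin R) → Fin p → Fin R) (z z' : (Fin p → Fin R) × (Fin q → Fin R)),
      (∀ i < p + q + p, CS_cw z.1 z.2 (g z.2) i = CS_cw z'.1 z'.2 (g z'.2) i) → z = z' := by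
    intro g z z' h
    refine Prod.ext (funext fun i => ?_) (funext fun i => ?_)
    · have := h i (by omega)
      rwa [CS_cw1, CS_cw1] at this
    · have := h (p + i) (by omega)
      rwa [CS_cw2, CS_cw2] at this
  obtain ⟨g, hg⟩ := CS_core (σ := Fin q → Fin R) (V := Fin p → Fin R) n
    (fun z' s a => cat l enc (CS_cw z' s a)) t ((2 : ℝ) ^ (-γ)) ht0 ht2 (by positivity)
    (Real.rpow_le_one_of_one_le_of_nonpos one_le_two (by linarith))
    (fun g z z' h => hcw g z z' (CS_cat_inj l hl enc hinj _ _ _ h)) 𝓖 h𝓖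
    (by
      refine hcard.trans_eq ?_
      rw [htk, ← Real.rpow_add two_pos]
      congr 2
      rw [← hn]
      push_cast
      ring)
  have hmp : p + q + p - p = p + q := by omega
  let e : Fin (R ^ (p + q + p - p)) ≃ (Fin p → Fin R) × (Fin q → Fin R) :=
    Fintype.equivOfCardEq (by simp [pow_add])
  refine ⟨fun z => CS_cw (e z).1 (e z).2 (g (e z).2), fun z z' h => e.injective (hcw g _ _ h),
    fun i hi a => ?_, fun ν hν => ?_⟩
  · rw [CS_marg (fun z => CS_cw (e z).1 (e z).2 (g (e z).2) i) ?_ a, Fintype.card_fin]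
    intro b
    by_cases h1 : i < p
    · refine ⟨(e.trans (Equiv.addRight (fun _ => b, 0))).trans e.symm, fun z => ?_⟩
      have h2 := fun z' s a => CS_cw1 (R := R) (q := q) z' s a ⟨i, h1⟩
      simp only at h2
      simp [h2]
    by_cases h2 : i < p + q
    · refine ⟨(e.trans (Equiv.addRight (0, fun _ => b))).trans e.symm, fun z => ?_⟩
      obtain ⟨j, rfl⟩ : ∃ j, i = p + j := ⟨i - p, by omega⟩
      have h3 := fun z' s a => CS_cw2 (R := R) (p := p) z' s a (⟨j, by omega⟩ : Fin q)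
      simp only at h3
      simp [h3]
    · refine ⟨(e.trans (Equiv.addRight (fun _ => b, 0))).trans e.symm, fun z => ?_⟩
      obtain ⟨j, rfl⟩ : ∃ j, i = p + q + j := ⟨i - (p + q), by omega⟩
      have h3 := fun z' s a => CS_cw3 (R := R) (q := q) z' s a (⟨j, by omega⟩ : Fin p)
      simp only at h3
      simp [h3, add_right_comm]
  · obtain ⟨𝒜, 𝓑, h1, h2, h3⟩ := hg ν hν
    have hV : (Fintype.card (Fin p → Fin R) : ℝ) = (R : ℝ) ^ p := by simp
    rw [hV] at h2 h3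
    refine ⟨𝒜, 𝓑.map e.symm.toEmbedding, h1, ?_, fun z hz y hy hd1 => ?_⟩
    · rw [Finset.card_map]
      have h4 : (100 : ℝ) * 𝓑.card ≤ (R : ℝ) ^ (p + q + p - p) := by
        refine le_trans ?_ hheavy
        have h5 := htk 59
        push_cast at h5
        rw [← h5, mul_comm 2 p, pow_mul]
        linarith
      exact_mod_cast h4
    · have h4 := h3 (e z) (fun h => hz (Finset.mem_map_equiv.2 h)) y hy hd1
      have h5 : ∑ s : Fin q → Fin R, ∑ a : Fin p → Fin R, ∑ z' : Fin p → Fin R,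
          (1 / 256 : ℝ) ^ hd n (cat l enc (CS_cw z' s a)) y =
          ∏ i ∈ Finset.range (p + q + p), Zf l enc (sh (i * l) y) := by
        simp only [hn, CS_hd_cat l hl]
        exact CS_sum_cw fun i b => (1 / 256 : ℝ) ^ hd l (enc b) (sh (i * l) y)
      have h6 : Zf n (fun z => cat l enc (CS_cw (e z).1 (e z).2 (g (e z).2))) y =
          ∑ z' : (Fin p → Fin R) × (Fin q → Fin R),
            (1 / 256 : ℝ) ^ hd n (cat l enc (CS_cw z'.1 z'.2 (g z'.2))) y :=
        e.sum_comp fun z' => (1 / 256 : ℝ) ^ hd n (cat l enc (CS_cw z'.1 z'.2 (g z'.2))) y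
      rw [h5, ← h6, Real.rpow_neg zero_le_two, ← mul_assoc, ← div_eq_mul_inv,
        div_le_iff₀ (by positivity)] at h4
      linarith

end Crest.Agent.R133
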