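import Mathlib
import Crest.Prelude.Def_SmoothModel

/-!
# Row 133 (smooth realisation): definitions shared by all files

Plan of the proof.

* `T` is a generalised Morse system (a two-point extension of an odometer), described by
  `MorseData` / `Towers`.
* Smooth side (`smooth_side`): for a "flat" system (`Flat`: piecewise `C^{1,1}` map of `ℝ^d`
  preserving a measure with bounded density), at all but boundedly many scales of a rapidly
  increasing sequence the law of the itinerary is dominated (`Dom`) by one member of a family of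
  at most `exp (exp (ε n))` sub-probability vectors.
* Combinatorial side (`code_lemma`, `bridge`): the blocks `b k` are chosen such that a process
  close to the Morse sequence cannot be dominated at many scales.
-/

set_option autoImplicit false

open MeasureTheory Metric Set
open scoped ENNReal

namespace Crest.Agent.R133

/-- Euclidean space. -/
abbrev E (d : ℕ) := EuclideanSpace ℝ (Fin d)

/-- The word of length `n` read by the labelling `Y` along the orbit of `x`. -/
def word {X : Type*} (Y : X → Bool) (T : X → X) (n : ℕ) (x : X) : Fin n → Bool :=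
  fun t => Y (T^[(t : ℕ)] x)

/-- Sub-probability vectors. -/
def IsSubProb {α : Type*} [Fintype α] (ν : α → ℝ) : Prop :=
  (∀ a, 0 ≤ ν a) ∧ ∑ a, ν a ≤ 1

/-- Off a set of measure `≤ κ`, the law of the `n`-word is at most `D * ν`. -/
def Dom {X : Type*} [MeasurableSpace X] (μ : Measure X) (T : X → X) (Y : X → Bool) (n : ℕ)
    (κ D : ℝ) (ν : (Fin n → Bool) → ℝ) : Prop :=
  ∃ G : Set X, μ.real Gᶜ ≤ κ ∧ ∀ w, μ.real (G ∩ {x | word Y T n x = w}) ≤ D * ν w

/-- Points that are regular at scale `ρ`. -/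
def Reg {d : ℕ} (S : E d → E d) (Y : E d → Bool) (A : E d → (E d →L[ℝ] E d)) (L ρ : ℝ) :
    Set (E d) :=
  {x | (∀ y ∈ ball x ρ, Y y = Y x) ∧
    ∀ y ∈ ball x ρ, ∀ z ∈ ball x ρ, ‖S y - S z - A x (y - z)‖ ≤ L * ρ * ‖y - z‖}

/-- Flat systems of class `(d, L)`. -/
structure Flat (d L : ℕ) (ν : Measure (E d)) (S : E d → E d) (Y : E d → Bool)
    (A : E d → (E d →L[ℝ] E d)) : Prop where
  prob : IsProbabilityMeasure ν
  mp : MeasurePreserving S ν ν
  measY : Measurable Y
  measA : Measurable A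
  normA : ∀ x, ‖A x‖ ≤ L
  dens : ∀ s : Set (E d), ν s ≤ L * volume s
  supp : ν (closedBall 0 L)ᶜ = 0
  reg : ∀ ρ : ℝ, 0 < ρ → ν.real (Reg S Y A L ρ)ᶜ ≤ L * ρ

/-- The product `a (s+t-1) ∘ ⋯ ∘ a s`. -/
noncomputable def cp {d : ℕ} (a : ℕ → (E d →L[ℝ] E d)) (s : ℕ) : ℕ → (E d →L[ℝ] E d)
  | 0 => ContinuousLinearMap.id ℝ (E d)
  | t + 1 => (a (s + t)).comp (cp a s t)

/-- The difference operator `v ↦ (v (t+1) - a t (v t))_t` has a right inverse of norm `≤ G`. -/
def Green {d : ℕ} (a : ℕ → (E d →L[ℝ] E d)) (n : ℕ) (G : ℝ) : Prop :=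
  ∃ 𝒢 : (Fin n → E d) →L[ℝ] (Fin (n + 1) → E d), ‖𝒢‖ ≤ G ∧
    ∀ (ξ : Fin n → E d) (t : Fin n), 𝒢 ξ t.succ - a t (𝒢 ξ t.castSucc) = ξ t

/-- The linear Bowen ball. -/
def Elin {d : ℕ} (a : ℕ → (E d →L[ℝ] E d)) (n : ℕ) (r : ℝ) : Set (E d) :=
  {v | ∀ t ≤ n, ‖cp a 0 t v‖ ≤ r}

/-- The first `B` letters of `b` contain as many `true` as `false`. -/
def Balanced (B : ℕ) (b : ℕ → Bool) : Prop :=
  2 * ((Finset.range B).filter (fun i => b i = true)).card = B

/-- The `α`-th block of length `l`. -/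
def block (l α : ℕ) (y : ℕ → Bool) : Fin l → Bool := fun i => y (α * l + i)

/-- Data of a generalised Morse sequence: `u (k+1) = u k × b k`. -/
structure MorseData (N B : ℕ → ℕ) (u b : ℕ → ℕ → Bool) : Prop where
  N_zero : N 0 = 1
  N_succ : ∀ k, N (k + 1) = N k * B k
  two_le : ∀ k, 2 ≤ B k
  u_succ : ∀ k i, u (k + 1) i = xor (u k (i % N k)) (b k (i / N k))
  bal : ∀ k, Balanced (B k) (b k)

/-- The tower structure of a generalised Morse system. -/
structure Towers {X : Type*} [mX : MeasurableSpace X] (μ : Measure X) (T : X → X) (N : ℕ → ℕ)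
    (u : ℕ → ℕ → Bool) (pos : ℕ → X → ℕ) (sg : ℕ → X → Bool) (P : X → Bool) : Prop where
  meas_pos : ∀ k, Measurable (pos k)
  meas_sg : ∀ k, Measurable (sg k)
  pos_lt : ∀ k x, pos k x < N k
  pos_T : ∀ k x, pos k (T x) = (pos k x + 1) % N k
  pos_mod : ∀ k x, pos (k + 1) x % N k = pos k x
  sg_T : ∀ k x, pos k x + 1 < N k → sg k (T x) = sg k x
  P_eq : ∀ k x, P x = xor (sg k x) (u k (pos k x))
  cell : ∀ k a s, a < N k → μ {x | pos k x = a ∧ sg k x = s} = (2 * (N k : ℝ≥0∞))⁻¹
  gen : MeasurableSpace.generateFrom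
    {C : Set X | ∃ k a s, C = {x | pos k x = a ∧ sg k x = s}} = mX

end Crest.Agent.R133
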