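import Crest.Agent.R133.Defs

set_option autoImplicit false

open MeasureTheory Metric Set Crest.AnalysisR
open scoped ENNReal Manifold ContDiff Topology

namespace Crest.Agent.R133

theorem Erg_N_gt {N B : ℕ → ℕ} {u b : ℕ → ℕ → Bool} (h : MorseData N B u b) (k : ℕ) : k < N k := by
  induction k with
  | zero => rw [h.N_zero]; exact Nat.one_pos
  | succ k ih =>
    rw [h.N_succ]
    have := Nat.mul_le_mul_left (N k) (h.two_le k)
    omega

/-- Cells have measure `1 / (2 N k)` and `N k ≥ 2 ^ k`. -/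
theorem Towers.nullSingleton {X : Type} [MeasurableSpace X] {μ : Measure X} {T : X → X}
    {N B : ℕ → ℕ} {u b : ℕ → ℕ → Bool} {pos : ℕ → X → ℕ} {sg : ℕ → X → Bool} {P : X → Bool}
    (h : MorseData N B u b) (hT : Towers μ T N u pos sg P) : NullSingletonClass μ := by
  refine ⟨fun x => ?_⟩
  by_contra hx
  obtain ⟨n, hn⟩ := ENNReal.exists_inv_nat_lt hx
  have h1 : μ {x} ≤ μ {y | pos n y = pos n x ∧ sg n y = sg n x} :=
    measure_mono (by rintro y rfl; exact ⟨rfl, rfl⟩)
  rw [hT.cell n _ _ (hT.pos_lt n x)] at h1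
  refine absurd (hn.trans_le h1) (not_lt.2 (ENNReal.inv_le_inv.2 ?_))
  have h2 : n ≤ 2 * N n := by have := Erg_N_gt h n; omega
  exact_mod_cast h2

theorem Erg_fiber {X β : Type*} [MeasurableSpace X] (μ : Measure X) (f : X → β) (t : Finset β)
    {S : Set X} (hS : MeasurableSet S) (hf : ∀ y, MeasurableSet (f ⁻¹' {y}))
    (hmem : ∀ x ∈ S, f x ∈ t) : μ S = ∑ y ∈ t, μ (S ∩ f ⁻¹' {y}) := by
  have h1 := sum_measure_preimage_singleton (μ := μ.restrict S) t (f := f) fun y _ => hf y
  rw [Measure.restrict_apply' hS, (Set.inter_eq_right (s := f ⁻¹' (t : Set β))).2 (fun x hx => hmem x hx)] at h1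
  rw [← h1]
  exact Finset.sum_congr rfl fun y _ => by rw [Measure.restrict_apply' hS, Set.inter_comm]

section
variable {X : Type} [MeasurableSpace X] {μ : Measure X} {T : X → X} {N B : ℕ → ℕ}
  {u b : ℕ → ℕ → Bool} {pos : ℕ → X → ℕ} {sg : ℕ → X → Bool} {P : X → Bool}

theorem Erg_meas (hT : Towers μ T N u pos sg P) (k a : ℕ) (s : Bool) :
    MeasurableSet {x | pos k x = a ∧ sg k x = s} :=
  (hT.meas_pos k (measurableSet_singleton a)).inter (hT.meas_sg k (measurableSet_singleton s))

theorem Erg_sg (h : MorseData N B u b) (hT : Towers μ T N u pos sg P) (k : ℕ) (x : X) :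
    sg k x = xor (sg (k + 1) x) (b k (pos (k + 1) x / N k)) := by
  have h1 := hT.P_eq k x
  have h2 := hT.P_eq (k + 1) x
  rw [h.u_succ, hT.pos_mod, h1] at h2
  revert h2
  cases sg k x <;> cases sg (k + 1) x <;> cases u k (pos k x) <;>
    cases b k (pos (k + 1) x / N k) <;> simp

theorem Erg_det (h : MorseData N B u b) (hT : Towers μ T N u pos sg P) {k k' : ℕ} (hk : k ≤ k')
    {x y : X} (h1 : pos k' x = pos k' y) (h2 : sg k' x = sg k' y) :
    pos k x = pos k y ∧ sg k x = sg k y := by
  induction k', hk using Nat.le_induction with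
  | base => exact ⟨h1, h2⟩
  | succ k' _ ih =>
    refine ih ?_ ?_
    · rw [← hT.pos_mod k' x, ← hT.pos_mod k' y, h1]
    · rw [Erg_sg h hT k' x, Erg_sg h hT k' y, h1, h2]

theorem Erg_pi (h : MorseData N B u b) (hT : Towers μ T N u pos sg P) :
    IsPiSystem {C : Set X | ∃ k a s, C = {x | pos k x = a ∧ sg k x = s}} := by
  rintro _ ⟨k, a, s, rfl⟩ _ ⟨k', a', s', rfl⟩ ⟨x, ⟨h1, h2⟩, h3, h4⟩
  rcases le_total k k' with hk | hk
  · refine ⟨k', a', s', Set.inter_eq_right.2 ?_⟩
    rintro y ⟨h5, h6⟩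
    obtain ⟨h7, h8⟩ := Erg_det h hT hk (h5.trans h3.symm) (h6.trans h4.symm)
    exact ⟨h7.trans h1, h8.trans h2⟩
  · refine ⟨k, a, s, Set.inter_eq_left.2 ?_⟩
    rintro y ⟨h5, h6⟩
    obtain ⟨h7, h8⟩ := Erg_det h hT hk (h5.trans h1.symm) (h6.trans h2.symm)
    exact ⟨h7.trans h3, h8.trans h4⟩

theorem Erg_level (hmp : MeasurePreserving T μ μ) (hT : Towers μ T N u pos sg P) {A : Set X}
    (hA : MeasurableSet A) (hAT : T ⁻¹' A = A) (k : ℕ) (s : Bool) (a : ℕ) (ha : a < N k) :
    μ (A ∩ {x | pos k x = a ∧ sg k x = s}) = μ (A ∩ {x | pos k x = 0 ∧ sg k x = s}) := by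
  induction a with
  | zero => rfl
  | succ a ih =>
    rw [← ih (by omega), ← hmp.measure_preimage (hA.inter (Erg_meas hT k _ s)).nullMeasurableSet,
      Set.preimage_inter, hAT]
    congr 2
    ext x
    simp only [Set.mem_preimage, Set.mem_ofPred_eq, hT.pos_T]
    have hx := hT.pos_lt k x
    constructor
    · rintro ⟨h1, h2⟩
      have h3 : pos k x + 1 < N k := by
        rcases (Nat.succ_le_of_lt hx).lt_or_eq with h3 | h3
        · exact h3
        · rw [show pos k x + 1 = N k from h3, Nat.mod_self] at h1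
          omega
      rw [Nat.mod_eq_of_lt h3] at h1
      exact ⟨by omega, (hT.sg_T k x h3).symm.trans h2⟩
    · rintro ⟨h1, h2⟩
      have h3 : pos k x + 1 < N k := by omega
      exact ⟨by rw [Nat.mod_eq_of_lt h3, h1], (hT.sg_T k x h3).trans h2⟩

theorem Erg_sign (h : MorseData N B u b) (hmp : MeasurePreserving T μ μ)
    (hT : Towers μ T N u pos sg P) {A : Set X} (hA : MeasurableSet A) (hAT : T ⁻¹' A = A) (k : ℕ)
    (s : Bool) :
    μ (A ∩ {x | pos k x = 0 ∧ sg k x = s}) = μ (A ∩ {x | pos k x = 0 ∧ sg k x = true}) := by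
  have hN : 0 < N k := (Nat.zero_le k).trans_lt (Erg_N_gt h k)
  set α : Bool → ℝ≥0∞ := fun s => μ (A ∩ {x | pos (k + 1) x = 0 ∧ sg (k + 1) x = s}) with hα
  have key : ∀ s, μ (A ∩ {x | pos k x = 0 ∧ sg k x = s}) =
      ∑ i ∈ Finset.range (B k), α (xor s (b k i)) := by
    intro s
    rw [Erg_fiber μ (fun x => pos (k + 1) x / N k) (Finset.range (B k))
      (hA.inter (Erg_meas hT k 0 s))
      (fun y => hT.meas_pos (k + 1) (MeasurableSet.of_discrete (s := {n | n / N k = y})))
      (fun x _ => by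
        rw [Finset.mem_range, Nat.div_lt_iff_lt_mul hN, mul_comm, ← h.N_succ]
        exact hT.pos_lt _ x)]
    refine Finset.sum_congr rfl fun i hi => ?_
    have hi' : i * N k < N (k + 1) := by
      rw [h.N_succ, mul_comm]
      exact Nat.mul_lt_mul_of_pos_left (Finset.mem_range.1 hi) hN
    rw [hα]
    dsimp only
    rw [← Erg_level hmp hT hA hAT (k + 1) _ (i * N k) hi', Set.inter_assoc]
    congr 2
    ext x
    simp only [Set.mem_inter_iff, Set.mem_preimage, Set.mem_ofPred_eq, Set.mem_singleton_iff]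
    have h1 := Erg_sg h hT k x
    have h2 := hT.pos_mod k x
    constructor
    · rintro ⟨⟨h3, h4⟩, h5⟩
      have h6 := Nat.div_add_mod (pos (k + 1) x) (N k)
      rw [h2, h3, h5, add_zero, mul_comm] at h6
      refine ⟨h6.symm, ?_⟩
      rw [← h4, h1, h5]
      simp
    · rintro ⟨h3, h4⟩
      have h5 : pos (k + 1) x / N k = i := by rw [h3, Nat.mul_div_cancel _ hN]
      refine ⟨⟨by rw [← h2, h3, Nat.mul_mod_left], ?_⟩, h5⟩
      rw [h1, h4, h5]
      simp
  have hcard : ((Finset.range (B k)).filter (fun i => ¬ b k i = true)).card =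
      ((Finset.range (B k)).filter (fun i => b k i = true)).card := by
    have h1 := Finset.card_filter_add_card_filter_not (s := Finset.range (B k))
      (fun i => b k i = true)
    have h2 := h.bal k
    rw [Finset.card_range] at h1
    unfold Balanced at h2
    omega
  have key2 : ∀ s, ∑ i ∈ Finset.range (B k), α (xor s (b k i)) =
      ((Finset.range (B k)).filter (fun i => b k i = true)).card • (α true + α false) := by
    intro s
    have : ∀ i, α (xor s (b k i)) = if b k i = true then α (!s) else α s := by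
      intro i
      cases b k i <;> simp
    simp only [this]
    rw [Finset.sum_ite, Finset.sum_const, Finset.sum_const, hcard, ← smul_add]
    cases s <;> simp [add_comm]
  rw [key, key, key2, key2]

theorem Erg_cell (h : MorseData N B u b) (hmp : MeasurePreserving T μ μ)
    (hT : Towers μ T N u pos sg P) {A : Set X} (hA : MeasurableSet A) (hAT : T ⁻¹' A = A)
    (k a : ℕ) (s : Bool) :
    μ (A ∩ {x | pos k x = a ∧ sg k x = s}) = μ A * μ {x | pos k x = a ∧ sg k x = s} := by
  by_cases ha : a < N k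
  swap
  · have : {x | pos k x = a ∧ sg k x = s} = ∅ := by
      ext x
      simp only [Set.mem_ofPred_eq, Set.mem_empty_iff_false, iff_false, not_and]
      rintro rfl
      exact absurd (hT.pos_lt k x) ha
    simp [this]
  have hN : 0 < N k := (Nat.zero_le a).trans_lt ha
  have h1 : μ A = (2 * (N k : ℝ≥0∞)) * μ (A ∩ {x | pos k x = 0 ∧ sg k x = true}) := by
    rw [Erg_fiber μ (fun x => (pos k x, sg k x)) (Finset.range (N k) ×ˢ Finset.univ) hA
      (fun y => ((hT.meas_pos k).prodMk (hT.meas_sg k)) (measurableSet_singleton y))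
      (fun x _ => by simp [hT.pos_lt k x])]
    rw [Finset.sum_congr rfl (g := fun _ => μ (A ∩ {x | pos k x = 0 ∧ sg k x = true}))]
    · simp [mul_comm]
    · rintro ⟨a', s'⟩ hy
      rw [← Erg_sign h hmp hT hA hAT k s',
        ← Erg_level hmp hT hA hAT k s' a' (by simpa using hy)]
      congr 2
      ext x
      simp
  rw [Erg_level hmp hT hA hAT k s a ha, Erg_sign h hmp hT hA hAT k s, hT.cell k a s ha, h1,
    mul_right_comm, ENNReal.mul_inv_cancel, one_mul]
  · simp [hN.ne']
  · exact ENNReal.mul_ne_top (by simp) (by simp)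

end

/-- Ergodicity.
Sketch: let `A` be measurable with `T ⁻¹' A = A`, `C k a s` the cells.
(1) for `a + 1 < N k`: `T ⁻¹' C k (a+1) s = C k a s`, so `μ (A ∩ C k a s) = α k s` does not depend
on `a`. (2) `sg k x = xor (sg (k+1) x) (b k (pos (k+1) x / N k))` (from `P_eq`, `u_succ`,
`pos_mod`), so `C k 0 s` is the disjoint union over `i < B k` of `C (k+1) (i * N k) (xor s (b k i))`;
by balance `α k true = α k false`. (3) hence `μ (A ∩ C) = μ A * μ C` for every cell; the cells
together with `∅` form a π-system (nested or disjoint) generating the σ-algebra, so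
`μ.restrict A = μ A • μ` and `μ A = μ A * μ A`. -/
theorem Towers.ergodic {X : Type} [MeasurableSpace X] {μ : Measure X} [IsProbabilityMeasure μ]
    {T : X → X} {N B : ℕ → ℕ} {u b : ℕ → ℕ → Bool} {pos : ℕ → X → ℕ} {sg : ℕ → X → Bool}
    {P : X → Bool} (h : MorseData N B u b) (hmp : MeasurePreserving T μ μ)
    (hT : Towers μ T N u pos sg P) : Ergodic T μ := by
  refine ⟨hmp, ⟨fun A hA hAT => ?_⟩⟩
  have h1 : μ.restrict A = μ A • μ := by
    refine ext_of_generate_finite _ hT.gen.symm (Erg_pi h hT) ?_ (by simp)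
    rintro _ ⟨k, a, s, rfl⟩
    rw [Measure.restrict_apply' hA, Set.inter_comm, Erg_cell h hmp hT hA hAT, Measure.smul_apply,
      smul_eq_mul]
  have h2 : μ A = μ A * μ A := by
    have := congrArg (fun ν : Measure X => ν A) h1
    simpa using this
  rw [Filter.eventuallyConst_set']
  by_cases h0 : μ A = 0
  · exact Or.inl (ae_eq_empty.2 h0)
  · refine Or.inr (ae_eq_univ.2 ((prob_compl_eq_zero_iff hA).2 ?_))
    have h3 : μ A * 1 = μ A * μ A := by rw [mul_one]; exact h2
    exact ((ENNReal.mul_right_inj h0 (measure_ne_top μ A)).1 h3).symm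

end Crest.Agent.R133
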