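import Crest.Agent.R133.Defs

set_option autoImplicit false

open MeasureTheory Metric Set Crest.AnalysisR
open scoped ENNReal Manifold ContDiff Topology

namespace Crest.Agent.R133

/-- Uniform first and second order bounds on balls inside a compact set. -/
theorem exists_C2_bound {F G : Type*} [NormedAddCommGroup F] [NormedSpace ℝ F]
    [NormedAddCommGroup G] [NormedSpace ℝ G] {g : F → G} {D K : Set F} (hD : UniqueDiffOn ℝ D)
    (hg : ContDiffOn ℝ ∞ g D) (hK : IsCompact K) (hKD : K ⊆ D) :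
    ∃ Λ : ℝ, 0 ≤ Λ ∧ ∀ x ρ, 0 < ρ → ball x ρ ⊆ K → ∃ a : F →L[ℝ] G, ‖a‖ ≤ Λ ∧
      HasFDerivAt g a x ∧ (∀ y ∈ ball x ρ, ‖g y - g x‖ ≤ Λ * ρ) ∧
      ∀ y ∈ ball x ρ, ∀ z ∈ ball x ρ, ‖g y - g z - a (y - z)‖ ≤ Λ * ρ * ‖y - z‖ := by
  have hg1 : ContDiffOn ℝ 1 (fderivWithin ℝ g D) D :=
    hg.fderivWithin hD (by
      rw [one_add_one_eq_two]; exact WithTop.coe_le_coe.2 (le_top : (2 : ℕ∞) ≤ ⊤))
  have hg2 : ContinuousOn (fderivWithin ℝ (fderivWithin ℝ g D) D) D :=
    hg1.continuousOn_fderivWithin hD le_rfl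
  obtain ⟨Λ₁, h₁⟩ := hK.exists_bound_of_continuousOn (hg1.continuousOn.mono hKD)
  obtain ⟨Λ₂, h₂⟩ := hK.exists_bound_of_continuousOn (E := F →L[ℝ] F →L[ℝ] G)
    (f := fderivWithin ℝ (fderivWithin ℝ g D) D) (hg2.mono hKD)
  refine ⟨max (max Λ₁ Λ₂) 0, le_max_right _ _, fun x ρ hρ hb => ?_⟩
  have hn : ∀ y ∈ ball x ρ, D ∈ 𝓝 y := fun y hy =>
    Filter.mem_of_superset (isOpen_ball.mem_nhds hy) (hb.trans hKD)
  have hd1 : ∀ y ∈ ball x ρ, HasFDerivAt g (fderivWithin ℝ g D y) y := fun y hy =>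
    ((hg.differentiableOn (by simp)) y (hKD (hb hy))).hasFDerivWithinAt.hasFDerivAt (hn y hy)
  have hd2 : ∀ y ∈ ball x ρ, HasFDerivAt (fderivWithin ℝ g D)
      (fderivWithin ℝ (fderivWithin ℝ g D) D y) y := fun y hy =>
    ((hg1.differentiableOn (by simp)) y (hKD (hb hy))).hasFDerivWithinAt.hasFDerivAt (hn y hy)
  have hx : x ∈ ball x ρ := mem_ball_self hρ
  have e1 : Λ₁ ≤ max (max Λ₁ Λ₂) 0 := (le_max_left _ _).trans (le_max_left _ _)
  have e2 : Λ₂ ≤ max (max Λ₁ Λ₂) 0 := (le_max_right _ _).trans (le_max_left _ _)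
  have e0 : 0 ≤ max (max Λ₁ Λ₂) 0 := le_max_right _ _
  refine ⟨fderivWithin ℝ g D x, (h₁ x (hb hx)).trans e1, hd1 x hx, fun y hy => ?_,
    fun y hy z hz => ?_⟩
  · have := (convex_ball x ρ).norm_image_sub_le_of_norm_hasFDerivWithin_le
      (fun w hw => (hd1 w hw).hasFDerivWithinAt) (fun w hw => (h₁ w (hb hw)).trans e1) hx hy
    refine this.trans (mul_le_mul_of_nonneg_left ?_ e0)
    rw [← dist_eq_norm]
    exact (mem_ball.1 hy).le
  · refine (convex_ball x ρ).norm_image_sub_le_of_norm_hasFDerivWithin_le'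
      (fun w hw => (hd1 w hw).hasFDerivWithinAt) (fun w hw => ?_) hz hy
    have := (convex_ball x ρ).norm_image_sub_le_of_norm_hasFDerivWithin_le
      (fun w hw => (hd2 w hw).hasFDerivWithinAt) (fun w hw => (h₂ w (hb hw)).trans e2) hx hw
    refine this.trans (mul_le_mul_of_nonneg_left ?_ e0)
    rw [← dist_eq_norm]
    exact (mem_ball.1 hw).le

section Manifold

variable {d : ℕ} {H : Type} [TopologicalSpace H] {I : ModelWithCorners ℝ (E d) H}
  {M : Type} [TopologicalSpace M] [ChartedSpace H M]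

/-- The density is bounded on compact parts of a chart. -/
theorem dens_chart [MeasurableSpace M] [BorelSpace M] {ν : Measure M}
    (hν : HasSmoothPositiveDensity I ν) (x : M) {K : Set (E d)} (hK : IsCompact K)
    (hKt : K ⊆ (extChartAt I x).target) :
    ∃ C : ℝ, 0 ≤ C ∧ ∀ A : Set (E d),
      ν ((extChartAt I x).source ∩ extChartAt I x ⁻¹' (A ∩ K)) ≤ ENNReal.ofReal C * volume A := by
  obtain ⟨f, hf, -, hmap⟩ := hν (chartAt H x) (chart_mem_atlas H x)
  have ht : I '' (chartAt H x).target = (extChartAt I x).target := by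
    rw [extChartAt, OpenPartialHomeomorph.extend_target']
  rw [ht] at hf hmap
  obtain ⟨C, hC⟩ := hK.exists_bound_of_continuousOn (hf.continuousOn.mono hKt)
  refine ⟨max C 0, le_max_right _ _, fun A => ?_⟩
  have hsrc : MeasurableSet (chartAt H x).source := (chartAt H x).open_source.measurableSet
  have hae : AEMeasurable (I ∘ chartAt H x) (ν.restrict (chartAt H x).source) :=
    (I.continuous.comp_continuousOn (chartAt H x).continuousOn).aemeasurable hsrc
  set A' := toMeasurable volume A ∩ K with hA'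
  have hA'm : MeasurableSet A' := (measurableSet_toMeasurable _ _).inter hK.measurableSet
  calc ν ((extChartAt I x).source ∩ extChartAt I x ⁻¹' (A ∩ K))
      ≤ ν ((I ∘ chartAt H x) ⁻¹' A' ∩ (chartAt H x).source) := by
        refine measure_mono ?_
        rintro y ⟨hy, hyA, hyK⟩
        exact ⟨⟨subset_toMeasurable _ _ hyA, hyK⟩, by simpa using hy⟩
    _ = ν.restrict (chartAt H x).source ((I ∘ chartAt H x) ⁻¹' A') := by
        rw [Measure.restrict_apply' hsrc]
    _ ≤ (ν.restrict (chartAt H x).source).map (I ∘ chartAt H x) A' :=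
        Measure.le_map_apply hae _
    _ = ∫⁻ y in A', ENNReal.ofReal (f y) ∂(volume.restrict (extChartAt I x).target) := by
        rw [hmap, withDensity_apply _ hA'm]
    _ ≤ ∫⁻ _ in A', ENNReal.ofReal (max C 0) ∂(volume.restrict (extChartAt I x).target) := by
        refine setLIntegral_mono' hA'm fun y hy => ENNReal.ofReal_le_ofReal ?_
        exact ((le_abs_self _).trans (hC y hy.2)).trans (le_max_left _ _)
    _ ≤ ENNReal.ofReal (max C 0) * volume A := by
        rw [setLIntegral_const]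
        refine mul_le_mul_right ?_ _
        calc (volume.restrict (extChartAt I x).target) A' ≤ volume A' :=
              Measure.restrict_le_self _
          _ ≤ volume (toMeasurable volume A) := measure_mono inter_subset_left
          _ = volume A := measure_toMeasurable _

/-- A finite family of bump functions with some room in the charts. -/
theorem exists_bumps [CompactSpace M] [Nonempty M] :
    ∃ (m : ℕ) (x : ℕ → M) (r : ℕ → ℝ) (f : (i : ℕ) → SmoothBumpFunction I (x i)),
      (∀ i, 0 < r i) ∧ (∀ i, (f i).rOut = 2 * r i) ∧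
      (∀ i, closedBall (extChartAt I (x i) (x i)) (3 * r i) ∩ range I ⊆
        (extChartAt I (x i)).target) ∧ ∀ y, ∃ i < m, f i y = 1 := by
  have h : ∀ x : M, ∃ (r : ℝ) (f : SmoothBumpFunction I x), 0 < r ∧ f.rOut = 2 * r ∧
      closedBall (extChartAt I x x) (3 * r) ∩ range I ⊆ (extChartAt I x).target := by
    intro x
    obtain ⟨ε, hε, hs⟩ := mem_nhdsWithin_iff.1 (extChartAt_target_mem_nhdsWithin (I := I) x)
    have h3 : closedBall (extChartAt I x x) (3 * (ε / 4)) ∩ range I ⊆ (extChartAt I x).target :=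
      (inter_subset_inter_left _ (closedBall_subset_ball (by linarith))).trans hs
    refine ⟨ε / 4, ⟨⟨ε / 4, 2 * (ε / 4), by positivity, by linarith⟩, ?_⟩, by positivity, rfl, h3⟩
    exact (inter_subset_inter_left _ (closedBall_subset_closedBall (by linarith))).trans h3
  choose r f hr hout hsub using h
  obtain ⟨t, -, ht⟩ := isCompact_univ.elim_nhds_subcover (fun x : M => {y | f x y = 1})
    (fun x _ => (f x).eventuallyEq_one)
  let e := t.equivFin
  let x : ℕ → M := fun i => if h : i < t.card then (e.symm ⟨i, h⟩ : M) else Classical.arbitrary M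
  refine ⟨t.card, x, fun i => r (x i), fun i => f (x i), fun i => hr _, fun i => hout _,
    fun i => hsub _, fun y => ?_⟩
  obtain ⟨z, hz, hy⟩ := mem_iUnion₂.1 (ht (mem_univ y))
  refine ⟨e ⟨z, hz⟩, (e ⟨z, hz⟩).2, ?_⟩
  have : x (e ⟨z, hz⟩) = z := by simp [x]
  have key : ∀ w, w = z → f w y = 1 := fun w hw => hw ▸ hy
  exact key _ this

end Manifold

end Crest.Agent.R133
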