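import Crest.Agent.R133.FlatAux

set_option autoImplicit false

open MeasureTheory Metric Set Crest.AnalysisR
open scoped ENNReal Manifold ContDiff Topology

namespace Crest.Agent.R133

variable {d : ℕ} {H : Type} [TopologicalSpace H] {I : ModelWithCorners ℝ (E d) H}
  {M : Type} [TopologicalSpace M] [ChartedSpace H M] [IsManifold I ∞ M]

/-- Real functions are Lipschitz on balls inside compact parts of a chart. -/
theorem lip_chart {g : M → ℝ} (hg : ContMDiff I 𝓘(ℝ, ℝ) ∞ g) (x : M) {K : Set (E d)}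
    (hK : IsCompact K) (hKt : K ⊆ (extChartAt I x).target) :
    ∃ Λ : ℝ, 0 ≤ Λ ∧ ∀ z ρ, 0 < ρ → ball z ρ ⊆ K → ∀ y ∈ ball z ρ,
      |g ((extChartAt I x).symm y) - g ((extChartAt I x).symm z)| ≤ Λ * ρ := by
  have h : ContDiffOn ℝ ∞ (g ∘ (extChartAt I x).symm) (extChartAt I x).target :=
    contMDiffOn_iff_contDiffOn.1 (hg.comp_contMDiffOn (contMDiffOn_extChartAt_symm x))
  obtain ⟨Λ, h0, hΛ⟩ := exists_C2_bound (uniqueDiffOn_extChartAt_target x) h hK hKt
  refine ⟨Λ, h0, fun z ρ hρ hb y hy => ?_⟩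
  obtain ⟨a, -, -, h1, -⟩ := hΛ z ρ hρ hb
  exact h1 y hy

/-- Second order bounds for a smooth map read in two charts. -/
theorem C2_chart {S : M → M} (hS : ContMDiff I I ∞ S) (x x' : M) {K : Set (E d)}
    (hK : IsCompact K) (hKt : K ⊆ (extChartAt I x).target) {Z : Set M} (hZ : IsClosed Z)
    (hZs : Z ⊆ (chartAt H x').source) :
    ∃ Λ : ℝ, 0 ≤ Λ ∧ ∀ z ρ, 0 < ρ → ball z ρ ⊆ K →
      (∀ y ∈ ball z ρ, S ((extChartAt I x).symm y) ∈ Z) → ∃ a : E d →L[ℝ] E d, ‖a‖ ≤ Λ ∧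
      HasFDerivAt (extChartAt I x' ∘ S ∘ (extChartAt I x).symm) a z ∧
      ∀ y ∈ ball z ρ, ∀ w ∈ ball z ρ, ‖(extChartAt I x' ∘ S ∘ (extChartAt I x).symm) y -
        (extChartAt I x' ∘ S ∘ (extChartAt I x).symm) w - a (y - w)‖ ≤ Λ * ρ * ‖y - w‖ := by
  set D := (extChartAt I x).target ∩ (extChartAt I x).symm ⁻¹' (S ⁻¹' (chartAt H x').source)
    with hD
  have hcs : ContinuousOn (extChartAt I x).symm (extChartAt I x).target :=
    continuousOn_extChartAt_symm x
  have hU : UniqueDiffOn ℝ D := by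
    obtain ⟨u, hu, he⟩ := (_root_.continuousOn_iff'.1 hcs) _
      ((chartAt H x').open_source.preimage hS.continuous)
    rw [hD, inter_comm, he, inter_comm]
    exact (uniqueDiffOn_extChartAt_target x).inter hu
  have h : ContDiffOn ℝ ∞ (extChartAt I x' ∘ S ∘ (extChartAt I x).symm) D := by
    refine contMDiffOn_iff_contDiffOn.1 ?_
    refine (contMDiffOn_extChartAt (I := I) (x := x')).comp
      ((hS.comp_contMDiffOn (contMDiffOn_extChartAt_symm x)).mono inter_subset_left) ?_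
    exact fun y hy => hy.2
  set K' := K ∩ (extChartAt I x).symm ⁻¹' (S ⁻¹' Z) with hK'
  have hK'c : IsCompact K' :=
    hK.of_isClosed_subset ((hcs.mono hKt).preimage_isClosed_of_isClosed hK.isClosed
      (hZ.preimage hS.continuous)) inter_subset_left
  obtain ⟨Λ, h0, hΛ⟩ := exists_C2_bound hU h hK'c (fun y hy => ⟨hKt hy.1, hZs hy.2⟩)
  refine ⟨Λ, h0, fun z ρ hρ hb hz => ?_⟩
  obtain ⟨a, h1, h2, -, h3⟩ := hΛ z ρ hρ (fun y hy => ⟨hb hy, hz y hy⟩)
  exact ⟨a, h1, h2, h3⟩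

omit [IsManifold I ∞ M] in
theorem standardBorel_of_compact [T2Space M] [CompactSpace M] [MeasurableSpace M]
    [BorelSpace M] (I : ModelWithCorners ℝ (E d) H) : StandardBorelSpace M := by
  have := I.secondCountableTopology
  have := ChartedSpace.secondCountable_of_sigmaCompact H M
  let _ := TopologicalSpace.metrizableSpaceMetric M
  infer_instance

theorem exists_uniform {ι : Type*} (s : Finset ι) (P : ι → ℝ → Prop)
    (hmono : ∀ i a b, a ≤ b → P i a → P i b) (h : ∀ i, ∃ a, P i a) :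
    ∃ a, 0 ≤ a ∧ ∀ i ∈ s, P i a := by
  choose f hf using h
  refine ⟨∑ i ∈ s, |f i|, Finset.sum_nonneg fun _ _ => abs_nonneg _, fun i hi => ?_⟩
  exact hmono i _ _ ((le_abs_self _).trans
    (Finset.single_le_sum (f := fun i => |f i|) (fun _ _ => abs_nonneg _) hi)) (hf i)

end Crest.Agent.R133
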