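import Crest.Agent.R133.Label
import Crest.Agent.R133.FlatAux2

set_option autoImplicit false

open MeasureTheory Metric Set Crest.AnalysisR
open scoped ENNReal Manifold ContDiff Topology

namespace Crest.Agent.R133

set_option maxHeartbeats 1600000 in
/-- Flattening a compact manifold.

Sketch. Take a `SmoothBumpCovering (Fin m) I M univ` (or finitely many `SmoothBumpFunction`s
`f i` centred at `x i` whose sets `{f i = 1}` cover `M`), `φ i = extChartAt I (x i)`,
`K i = tsupport (f i) ⊆ (φ i).source`, `φ i '' K i ⊆ closedBall (φ i (x i)) (rOut) ∩ range I =: K' i`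
which is compact, convex and contained in `(φ i).target`. Levels `θ i ∈ (0,1)` from
`exists_threshold` for `ν.map (f i)`. `c y` = least `i` with `θ i < f i y`,
`Ψ y = φ (c y) y - φ (c y) (x (c y)) + (3 R₀ c y) • e₀`: a measurable embedding with bounded range.
`S' = Function.extend Ψ (Ψ ∘ S) 0`, `A u = if ‖fderiv ℝ S' u‖ ≤ L then fderiv ℝ S' u else 0`.
Density: on `K' i` the density is continuous, hence bounded. Regularity: the functions
`f l ∘ (φ i).symm` and `f l ∘ S ∘ (φ i).symm` are `C^∞` on `(φ i).target`, hence `Λ`-Lipschitz on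
`K' i`; if `|f l y - θ l| > Λ ρ` and `|f l (S y) - θ l| > Λ ρ` for all `l` and
`ball (φ i y) ρ ⊆ range I` (`i = c y`, `ρ` small), then the whole ball lies in piece `i` and is mapped
into piece `j = c (S y)`, where `S'` is a translate of `φ j ∘ S ∘ (φ i).symm`, whose first and second
derivatives (within `(φ i).target ∩ (φ i).symm ⁻¹' (S ⁻¹' (φ j).source)`) are bounded on the compact
set `φ i '' (K i ∩ S ⁻¹' K j)`; mean value inequality twice. For `ρ ≥ ρ₀` use `L ≥ 1/ρ₀`. -/
theorem flatten {d : ℕ} (hd : 0 < d) {H : Type} [TopologicalSpace H]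
    (I : ModelWithCorners ℝ (E d) H)
    (hI : ∀ R : ℝ, ∃ C : ℝ, ∀ ρ : ℝ, 0 < ρ →
      volume {y ∈ range I ∩ closedBall 0 R | ¬ ball y ρ ⊆ range I} ≤ ENNReal.ofReal (C * ρ))
    {M : Type} [TopologicalSpace M] [T2Space M] [CompactSpace M] [ChartedSpace H M]
    [IsManifold I ∞ M] [MeasurableSpace M] [BorelSpace M] (ν : Measure M)
    [IsProbabilityMeasure ν] (hν : HasSmoothPositiveDensity I ν) (S : Diffeomorph I I M M ∞)
    (hS : MeasurePreserving S ν ν) :
    ∃ (L : ℕ) (Ψ : M → E d) (S' : E d → E d) (A : E d → (E d →L[ℝ] E d)),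
      MeasurableEmbedding Ψ ∧ (∀ x, S' (Ψ x) = Ψ (S x)) ∧
      Flat d L (ν.map Ψ) S' (fun _ => false) A := by
  classical
  have hne : Nonempty M := nonempty_of_isProbabilityMeasure ν
  have hsb : StandardBorelSpace M := standardBorel_of_compact I
  obtain ⟨m, x, r, f, hr, hout, hsub, hcov⟩ := exists_bumps (I := I) (M := M)
  have hfc : ∀ i, Continuous (f i) := fun i => (f i).continuous
  -- thresholds
  have hth : ∀ i, ∃ θ ∈ Ioo (0 : ℝ) 1, ∃ C : ℝ, ∀ s : ℝ, 0 < s →
      ν.real {y | |f i y - θ| ≤ s} ≤ C * s := by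
    intro i
    obtain ⟨θ, hθ, C, hC⟩ := exists_threshold (ν.map (f i)) (zero_lt_one' ℝ)
    refine ⟨θ, hθ, C, fun s hs => ?_⟩
    have := hC s hs
    rw [map_measureReal_apply (hfc i).measurable measurableSet_closedBall] at this
    simpa [preimage, Real.dist_eq] using this
  choose θ hθ hthC using hth
  obtain ⟨C₁, hC₁0, hC₁⟩ := exists_uniform (Finset.range m)
    (fun i C => ∀ s : ℝ, 0 < s → ν.real {y | |f i y - θ i| ≤ s} ≤ C * s)
    (fun i a b hab h s hs => (h s hs).trans (by gcongr)) hthC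
  -- charts
  set φ : ℕ → PartialEquiv M (E d) := fun i => extChartAt I (x i) with hφ
  set K : ℕ → Set (E d) := fun i => closedBall (φ i (x i)) (3 * r i) ∩ range I with hKdef
  have hKc : ∀ i, IsCompact (K i) := fun i =>
    (isCompact_closedBall _ _).inter_right I.isClosed_range
  have hKt : ∀ i, K i ⊆ (φ i).target := hsub
  have hsupp : ∀ i y, θ i ≤ f i y → y ∈ (chartAt H (x i)).source ∧
      dist (φ i y) (φ i (x i)) < 2 * r i := by
    intro i y hy
    have : y ∈ Function.support (f i) := ne_of_gt ((hθ i).1.trans_le hy)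
    rw [(f i).support_eq_inter_preimage, hout] at this
    exact this
  have hsrc : ∀ i y, θ i ≤ f i y → y ∈ (φ i).source := fun i y hy => by
    simpa [hφ] using (hsupp i y hy).1
  -- the piece
  have hex : ∀ y, ∃ i, θ i < f i y := fun y => by
    obtain ⟨i, -, hi⟩ := hcov y
    exact ⟨i, hi ▸ (hθ i).2⟩
  set c : M → ℕ := fun y => Nat.find (hex y) with hc
  have hcm : ∀ y, c y < m := fun y => by
    obtain ⟨i, him, hi⟩ := hcov y
    exact lt_of_le_of_lt (Nat.find_min' (hex y) (hi ▸ (hθ i).2)) him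
  have hcs : ∀ y, θ (c y) < f (c y) y := fun y => Nat.find_spec (hex y)
  have hceq : ∀ y y', (∀ l < m, θ l < f l y' ↔ θ l < f l y) → c y' = c y := by
    intro y y' h
    refine (Nat.find_eq_iff (hex y')).2 ⟨(h _ (hcm y)).2 (hcs y), fun l hl hl' => ?_⟩
    exact Nat.find_min (hex y) hl ((h l (hl.trans (hcm y))).1 hl')
  obtain ⟨R₀, hR₀0, hR₀⟩ := exists_uniform (Finset.range m)
    (fun i R => 3 * r i ≤ R ∧ ‖φ i (x i)‖ + 3 * r i ≤ R ∧ 1 / r i ≤ R)
    (fun i a b hab h => ⟨h.1.trans hab, h.2.1.trans hab, h.2.2.trans hab⟩)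
    (fun i => ⟨max (max (3 * r i) (‖φ i (x i)‖ + 3 * r i)) (1 / r i),
      (le_max_left _ _).trans (le_max_left _ _), (le_max_right _ _).trans (le_max_left _ _),
      le_max_right _ _⟩)
  set e₀ : E d := EuclideanSpace.single ⟨0, hd⟩ 1 with he₀
  have he₀n : ‖e₀‖ = 1 := by simp [he₀]
  set s : ℕ → E d := fun i => ((i : ℝ) * (2 * R₀)) • e₀ - φ i (x i) with hs
  set Ψ : M → E d := fun y => φ (c y) y + s (c y) with hΨ
  have hΨc : ∀ y, ‖Ψ y - ((c y : ℝ) * (2 * R₀)) • e₀‖ < R₀ := fun y => by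
    have h1 := (hsupp _ y (hcs y).le).2
    have h2 := (hR₀ _ (Finset.mem_range.2 (hcm y))).1
    have h3 := hr (c y)
    have : Ψ y - ((c y : ℝ) * (2 * R₀)) • e₀ = φ (c y) y - φ (c y) (x (c y)) := by
      simp only [hΨ, hs]; abel
    rw [this, ← dist_eq_norm]
    linarith
  have hinj : Function.Injective Ψ := by
    intro y y' h
    have hcc : c y = c y' := by
      have h1 := hΨc y
      have h2 := hΨc y'
      rw [h] at h1
      have h3 : ‖((c y : ℝ) * (2 * R₀)) • e₀ - ((c y' : ℝ) * (2 * R₀)) • e₀‖ < 2 * R₀ := by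
        have := norm_sub_le (Ψ y' - ((c y' : ℝ) * (2 * R₀)) • e₀)
          (Ψ y' - ((c y : ℝ) * (2 * R₀)) • e₀)
        rw [sub_sub_sub_cancel_left] at this
        linarith
      rw [← sub_smul, norm_smul, he₀n, mul_one, ← sub_mul, Real.norm_eq_abs, abs_mul,
        abs_of_nonneg (by positivity : (0 : ℝ) ≤ 2 * R₀)] at h3
      have h4 : |(c y : ℝ) - c y'| < 1 := by
        by_contra h5
        nlinarith [not_lt.1 h5]
      have h5 : |(c y : ℤ) - c y'| < 1 := by exact_mod_cast h4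
      have := Int.abs_lt_one_iff.1 h5
      omega
    have h' : φ (c y) y = φ (c y) y' := by
      simp only [hΨ] at h
      rw [← hcc] at h
      exact add_right_cancel h
    exact (φ (c y)).injOn (hsrc _ y (hcs y).le) (hcc ▸ hsrc _ y' (hcs y').le) h'
  have hmeas : Measurable Ψ := by
    have h1 : ∀ i, Measurable ((chartAt H (x i)).source.piecewise (φ i) (fun _ => 0)) := fun i =>
      ContinuousOn.measurable_piecewise
        (by simpa [hφ] using continuousOn_extChartAt (I := I) (x i)) continuousOn_const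
        (chartAt H (x i)).open_source.measurableSet
    have h2 := Measurable.find
      (f := fun i y => (chartAt H (x i)).source.piecewise (φ i) (fun _ => 0) y + s i)
      (p := fun i y => θ i < f i y) (fun i => (h1 i).add_const _)
      (fun i => measurableSet_lt measurable_const (hfc i).measurable) hex
    convert h2 using 2 with y
    simp only [hΨ]
    rw [piecewise_eq_of_mem _ _ _ (hsupp _ y (hcs y).le).1]
  have hemb : MeasurableEmbedding Ψ := hmeas.measurableEmbedding hinj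
  set S' : E d → E d := Function.extend Ψ (Ψ ∘ S) (fun _ => 0) with hS'
  have hS'Ψ : ∀ y, S' (Ψ y) = Ψ (S y) := fun y => hinj.extend_apply _ _ y
  have hS'm : Measurable S' :=
    hemb.measurable_extend (hmeas.comp hS.measurable) measurable_const
  -- uniform constants
  obtain ⟨C₂, hC₂0, hC₂⟩ := exists_uniform (Finset.range m)
    (fun i C => ∀ A : Set (E d), ν ((φ i).source ∩ φ i ⁻¹' (A ∩ K i)) ≤
      ENNReal.ofReal C * volume A)
    (fun i a b hab h A => (h A).trans (by gcongr))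
    (fun i => by
      obtain ⟨C, -, hC⟩ := dens_chart hν (x i) (hKc i) (hKt i)
      exact ⟨C, hC⟩)
  obtain ⟨Λ₁, hΛ₁0, hΛ₁⟩ := exists_uniform (Finset.range m ×ˢ Finset.range m)
    (fun q Λ => ∀ z ρ, 0 < ρ → ball z ρ ⊆ K q.1 → ∀ y ∈ ball z ρ,
      |f q.2 ((φ q.1).symm y) - f q.2 ((φ q.1).symm z)| ≤ Λ * ρ ∧
      |f q.2 (S ((φ q.1).symm y)) - f q.2 (S ((φ q.1).symm z))| ≤ Λ * ρ)
    (fun q a b hab h z ρ hρ hb y hy =>
      ⟨(h z ρ hρ hb y hy).1.trans (by gcongr), (h z ρ hρ hb y hy).2.trans (by gcongr)⟩)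
    (fun q => by
      obtain ⟨a, ha0, ha⟩ := lip_chart (f q.2).contMDiff (x q.1) (hKc q.1) (hKt q.1)
      obtain ⟨b, hb0, hb⟩ := lip_chart ((f q.2).contMDiff.comp S.contMDiff) (x q.1) (hKc q.1)
        (hKt q.1)
      refine ⟨a + b, fun z ρ hρ hz y hy => ⟨(ha z ρ hρ hz y hy).trans ?_,
        (hb z ρ hρ hz y hy).trans ?_⟩⟩ <;> gcongr <;> linarith)
  obtain ⟨Λ₂, hΛ₂0, hΛ₂⟩ := exists_uniform (Finset.range m ×ˢ Finset.range m)
    (fun q Λ => ∀ z ρ, 0 < ρ → ball z ρ ⊆ K q.1 →
      (∀ y ∈ ball z ρ, S ((φ q.1).symm y) ∈ {w | θ q.2 ≤ f q.2 w}) →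
      ∃ a : E d →L[ℝ] E d, ‖a‖ ≤ Λ ∧ HasFDerivAt (φ q.2 ∘ S ∘ (φ q.1).symm) a z ∧
      ∀ y ∈ ball z ρ, ∀ w ∈ ball z ρ, ‖(φ q.2 ∘ S ∘ (φ q.1).symm) y -
        (φ q.2 ∘ S ∘ (φ q.1).symm) w - a (y - w)‖ ≤ Λ * ρ * ‖y - w‖)
    (fun q a b hab h z ρ hρ hb hz => by
      obtain ⟨A, h1, h2, h3⟩ := h z ρ hρ hb hz
      exact ⟨A, h1.trans hab, h2, fun y hy w hw => (h3 y hy w hw).trans (by gcongr)⟩)
    (fun q => by
      obtain ⟨a, -, ha⟩ := C2_chart S.contMDiff (x q.1) (x q.2) (hKc q.1) (hKt q.1)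
        (isClosed_le continuous_const (hfc q.2)) (fun w hw => (hsupp _ w hw).1)
      exact ⟨a, ha⟩)
  obtain ⟨C₃, hC₃⟩ := hI R₀
  obtain ⟨L, hL⟩ := exists_nat_ge (m * C₂ + (m * (2 * R₀) + R₀) + Λ₂ +
    (2 * (m * (C₁ * (Λ₁ + 1))) + m * (C₂ * |C₃|)))
  have hp1 : 0 ≤ m * C₂ := by positivity
  have hp2 : 0 ≤ m * (2 * R₀) := by positivity
  have hp3 : 0 ≤ 2 * (m * (C₁ * (Λ₁ + 1))) := by positivity
  have hp4 : 0 ≤ m * (C₂ * |C₃|) := by positivity
  set A : E d → (E d →L[ℝ] E d) := fun u => if ‖fderiv ℝ S' u‖ ≤ L then fderiv ℝ S' u else 0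
    with hA
  have hprob : IsProbabilityMeasure (ν.map Ψ) := Measure.isProbabilityMeasure_map hmeas.aemeasurable
  have hKm : ∀ y, φ (c y) y ∈ K (c y) := fun y =>
    ⟨mem_closedBall.2 (by linarith [(hsupp _ y (hcs y).le).2, hr (c y)]),
      extChartAt_target_subset_range _ ((φ (c y)).map_source (hsrc _ y (hcs y).le))⟩
  refine ⟨L, Ψ, S', A, hemb, hS'Ψ, hprob, ⟨hS'm, ?_⟩, measurable_const, ?_, ?_, ?_, ?_, ?_⟩
  · rw [Measure.map_map hS'm hmeas]
    have : S' ∘ Ψ = Ψ ∘ S := funext hS'Ψ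
    rw [this, ← Measure.map_map hmeas hS.measurable, hS.map_eq]
  · exact Measurable.ite (measurableSet_le (measurable_fderiv ℝ S').norm measurable_const)
      (measurable_fderiv ℝ S') measurable_const
  · intro u
    simp only [hA]
    split_ifs with h
    · exact h
    · simp
  · intro B
    rw [hemb.map_apply]
    calc ν (Ψ ⁻¹' B) ≤ ν (⋃ i ∈ Finset.range m,
          (φ i).source ∩ φ i ⁻¹' ((fun z => z + s i) ⁻¹' B ∩ K i)) := by
          refine measure_mono fun y hy => ?_
          exact mem_iUnion₂.2 ⟨c y, Finset.mem_range.2 (hcm y), hsrc _ y (hcs y).le, hy, hKm y⟩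
      _ ≤ ∑ i ∈ Finset.range m, ν ((φ i).source ∩ φ i ⁻¹' ((fun z => z + s i) ⁻¹' B ∩ K i)) :=
          measure_biUnion_finset_le _ _
      _ ≤ ∑ _i ∈ Finset.range m, ENNReal.ofReal C₂ * volume B := by
          refine Finset.sum_le_sum fun i hi => (hC₂ i hi _).trans ?_
          rw [measure_preimage_add_right]
      _ = ENNReal.ofReal (m * C₂) * volume B := by
          rw [Finset.sum_const, Finset.card_range, nsmul_eq_mul, ENNReal.ofReal_mul (by positivity),
            ENNReal.ofReal_natCast, mul_assoc]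
      _ ≤ L * volume B := by
          gcongr
          rw [← ENNReal.ofReal_natCast]
          exact ENNReal.ofReal_le_ofReal (by linarith)
  · rw [hemb.map_apply]
    have : Ψ ⁻¹' (closedBall (0 : E d) L)ᶜ = ∅ := by
      refine eq_empty_of_forall_notMem fun y hy => hy ?_
      rw [mem_closedBall_zero_iff]
      have h1 := hΨc y
      have h2 := norm_add_le (Ψ y - ((c y : ℝ) * (2 * R₀)) • e₀) (((c y : ℝ) * (2 * R₀)) • e₀)
      rw [sub_add_cancel, norm_smul, he₀n, mul_one, Real.norm_of_nonneg (by positivity)] at h2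
      have h3 : (c y : ℝ) * (2 * R₀) ≤ m * (2 * R₀) := by
        gcongr
        exact_mod_cast (hcm y).le
      linarith
    rw [this, measure_empty]
  · intro ρ hρ
    by_cases hρ1 : 1 ≤ R₀ * ρ
    · calc (ν.map Ψ).real _ ≤ 1 := measureReal_le_one
        _ ≤ R₀ * ρ := hρ1
        _ ≤ L * ρ := by gcongr; linarith
    have hρr : ∀ i < m, ρ ≤ r i := fun i hi => by
      have h1 := (hR₀ i (Finset.mem_range.2 hi)).2.2
      have h2 := hr i
      rw [div_le_iff₀ h2] at h1
      by_contra h3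
      nlinarith [not_le.1 h3, not_le.1 hρ1]
    set B₁ : Set M := ⋃ l ∈ Finset.range m, {y | |f l y - θ l| ≤ (Λ₁ + 1) * ρ} with hB₁
    set Z : Set (E d) := {y ∈ range I ∩ closedBall 0 R₀ | ¬ ball y ρ ⊆ range I} with hZ
    set B₂ : Set M := ⋃ i ∈ Finset.range m, (φ i).source ∩ φ i ⁻¹' (Z ∩ K i) with hB₂
    have hB₁m : MeasurableSet B₁ :=
      Finset.measurableSet_biUnion _ fun l _ =>
        measurableSet_le ((hfc l).sub continuous_const).abs.measurable measurable_const
    have hB₁ν : ν.real B₁ ≤ m * (C₁ * (Λ₁ + 1)) * ρ := by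
      refine (measureReal_biUnion_finset_le _ _).trans ?_
      refine (Finset.sum_le_sum fun l hl => hC₁ l hl ((Λ₁ + 1) * ρ) (by positivity)).trans ?_
      rw [Finset.sum_const, Finset.card_range, nsmul_eq_mul]
      exact le_of_eq (by ring)
    have hB₂ν : ν.real B₂ ≤ m * (C₂ * |C₃|) * ρ := by
      refine (measureReal_biUnion_finset_le _ _).trans ?_
      have : ∀ i ∈ Finset.range m, ν.real ((φ i).source ∩ φ i ⁻¹' (Z ∩ K i)) ≤
          C₂ * |C₃| * ρ := by
        intro i hi
        refine ENNReal.toReal_le_of_le_ofReal (by positivity) ((hC₂ i hi Z).trans ?_)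
        rw [mul_assoc, ENNReal.ofReal_mul hC₂0]
        gcongr
        exact (hC₃ ρ hρ).trans (ENNReal.ofReal_le_ofReal (by gcongr; exact le_abs_self _))
      refine (Finset.sum_le_sum this).trans ?_
      rw [Finset.sum_const, Finset.card_range, nsmul_eq_mul]
      exact le_of_eq (by ring)
    have hgood : Ψ ⁻¹' (Reg S' (fun _ => false) A L ρ)ᶜ ⊆ B₁ ∪ S ⁻¹' B₁ ∪ B₂ := by
      intro y hy
      by_contra hbad
      simp only [mem_union, not_or, mem_preimage] at hbad
      obtain ⟨⟨hb1, hb2⟩, hb3⟩ := hbad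
      apply hy
      have hside : ∀ w w', w ∉ B₁ → (∀ l < m, |f l w' - f l w| ≤ Λ₁ * ρ) → c w' = c w := by
        intro w w' hw h
        refine hceq w w' fun l hl => ?_
        have h1 : (Λ₁ + 1) * ρ < |f l w - θ l| := by
          by_contra h2
          exact hw (mem_iUnion₂.2 ⟨l, Finset.mem_range.2 hl, not_lt.1 h2⟩)
        have h2 := abs_le.1 (h l hl)
        rcases lt_abs.1 h1 with h3 | h3 <;> constructor <;> intro h4 <;> nlinarith
      set i := c y with hi
      set j := c (S y) with hj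
      have him : i < m := hcm y
      have hjm : j < m := hcm (S y)
      have hys : y ∈ (φ i).source := hsrc _ y (hcs y).le
      have hball : ball (φ i y) ρ ⊆ K i := by
        have h1 : ball (φ i y) ρ ⊆ range I := by
          by_contra h2
          refine hb3 (mem_iUnion₂.2 ⟨i, Finset.mem_range.2 him, hys, ⟨⟨(hKm y).2, ?_⟩, h2⟩, hKm y⟩)
          rw [mem_closedBall_zero_iff]
          have h3 := (hR₀ i (Finset.mem_range.2 him)).2.1
          have h4 := mem_closedBall.1 (hKm y).1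
          rw [dist_eq_norm] at h4
          have h5 := norm_add_le (φ i y - φ i (x i)) (φ i (x i))
          rw [sub_add_cancel] at h5
          linarith
        intro z hz
        refine ⟨mem_closedBall.2 ?_, h1 hz⟩
        have h2 := dist_triangle z (φ i y) (φ i (x i))
        have h3 := (hsupp i y (hcs y).le).2
        have h4 := hρr i him
        linarith [mem_ball.1 hz]
      have hc1 : ∀ z ∈ ball (φ i y) ρ, c ((φ i).symm z) = i := fun z hz =>
        hside y _ hb1 fun l hl => by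
          have := (hΛ₁ (i, l) (by simp [him, hl]) _ ρ hρ hball z hz).1
          rwa [(φ i).left_inv hys] at this
      have hc2 : ∀ z ∈ ball (φ i y) ρ, c (S ((φ i).symm z)) = j := fun z hz =>
        hside (S y) _ hb2 fun l hl => by
          have := (hΛ₁ (i, l) (by simp [him, hl]) _ ρ hρ hball z hz).2
          rwa [(φ i).left_inv hys] at this
      obtain ⟨a, ha1, ha2, ha3⟩ := hΛ₂ (i, j) (by simp [him, hjm]) _ ρ hρ hball
        (fun z hz => by
          have := hcs (S ((φ i).symm z))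
          rw [hc2 z hz] at this
          exact this.le)
      have hmem : ∀ u ∈ ball (Ψ y) ρ, u - s i ∈ ball (φ i y) ρ := fun u hu => by
        rw [mem_ball, dist_eq_norm] at hu ⊢
        have : u - s i - φ i y = u - Ψ y := by simp only [hΨ, ← hi]; abel
        rwa [this]
      have hform : ∀ u ∈ ball (Ψ y) ρ, S' u = (φ j ∘ S ∘ (φ i).symm) (u - s i) + s j := by
        intro u hu
        have h1 := hmem u hu
        have h2 : Ψ ((φ i).symm (u - s i)) = u := by
          simp only [hΨ, hc1 _ h1]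
          rw [(φ i).right_inv (hKt i (hball h1)), sub_add_cancel]
        conv_lhs => rw [← h2, hS'Ψ]
        simp only [hΨ, hc2 _ h1, Function.comp]
      have hder : HasFDerivAt S' a (Ψ y) := by
        have h1 : HasFDerivAt (fun u => (φ j ∘ S ∘ (φ i).symm) (u - s i) + s j) a (Ψ y) := by
          have h2 : Ψ y - s i = φ i y := by simp only [hΨ, ← hi]; abel
          have h3 : HasFDerivAt (φ j ∘ S ∘ (φ i).symm) a (Ψ y - s i) := h2 ▸ ha2
          exact ((hasFDerivAt_comp_sub (s i)).2 h3).add_const _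
        exact h1.congr_of_eventuallyEq
          (Filter.mem_of_superset (ball_mem_nhds _ hρ) fun u hu => hform u hu)
      have hAa : A (Ψ y) = a := by
        simp only [hA, hder.fderiv]
        rw [if_pos (by linarith)]
      refine ⟨fun _ _ => rfl, fun u hu w hw => ?_⟩
      have h1 := ha3 _ (hmem u hu) _ (hmem w hw)
      rw [sub_sub_sub_cancel_right] at h1
      rw [hAa, hform u hu, hform w hw, add_sub_add_right_eq_sub]
      refine h1.trans ?_
      gcongr
      linarith
    have hSB : ν.real (S ⁻¹' B₁) = ν.real B₁ := hS.measureReal_preimage hB₁m.nullMeasurableSet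
    calc (ν.map Ψ).real (Reg S' (fun _ => false) A L ρ)ᶜ
        = ν.real (Ψ ⁻¹' (Reg S' (fun _ => false) A L ρ)ᶜ) := by
          simp only [Measure.real, hemb.map_apply]
      _ ≤ ν.real (B₁ ∪ S ⁻¹' B₁ ∪ B₂) := measureReal_mono hgood
      _ ≤ ν.real B₁ + ν.real (S ⁻¹' B₁) + ν.real B₂ :=
          (measureReal_union_le _ _).trans (by gcongr; exact measureReal_union_le _ _)
      _ ≤ (2 * (m * (C₁ * (Λ₁ + 1))) + m * (C₂ * |C₃|)) * ρ := by rw [hSB]; linarith
      _ ≤ L * ρ := by gcongr; linarith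

/-- The boundary condition for the half-space model. -/
theorem halfSpace_strip (d : ℕ) (R : ℝ) : ∃ C : ℝ, ∀ ρ : ℝ, 0 < ρ →
    volume {y ∈ range (𝓡∂ (d + 1)) ∩ closedBall (0 : E (d + 1)) R |
      ¬ ball y ρ ⊆ range (𝓡∂ (d + 1))} ≤ ENNReal.ofReal (C * ρ) := by
  refine ⟨(2 * |R|) ^ d, fun ρ hρ => ?_⟩
  set lo : Fin (d + 1) → ℝ := Fin.cons 0 (fun _ => -|R|) with hlo
  set hi : Fin (d + 1) → ℝ := Fin.cons ρ (fun _ => |R|) with hhi
  have hsub : {y ∈ range (𝓡∂ (d + 1)) ∩ closedBall (0 : E (d + 1)) R |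
      ¬ ball y ρ ⊆ range (𝓡∂ (d + 1))} ⊆ WithLp.ofLp ⁻¹' (Icc lo hi) := by
    rintro y ⟨⟨hy, hyR⟩, hb⟩
    rw [range_modelWithCornersEuclideanHalfSpace] at hy hb
    have hc : ∀ i, |y i| ≤ |R| := fun i =>
      ((PiLp.norm_apply_le y i).trans (mem_closedBall_zero_iff.1 hyR)).trans (le_abs_self R)
    have h0 : y 0 ≤ ρ := by
      by_contra h
      refine hb fun z hz => ?_
      have h1 : |(z - y) 0| ≤ ‖z - y‖ := PiLp.norm_apply_le (z - y) 0
      rw [mem_ball, dist_eq_norm] at hz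
      have h2 := (abs_le.1 h1).1
      simp only [PiLp.sub_apply] at h2
      show 0 ≤ z 0
      linarith [not_le.1 h]
    refine ⟨fun i => ?_, fun i => ?_⟩
    · refine Fin.cases ?_ (fun i => ?_) i
      · exact hy
      · exact (abs_le.1 (hc _)).1
    · refine Fin.cases ?_ (fun i => ?_) i
      · exact h0
      · exact (abs_le.1 (hc _)).2
  refine (measure_mono hsub).trans (le_of_eq ?_)
  rw [(PiLp.volume_preserving_ofLp (Fin (d + 1))).measure_preimage
    measurableSet_Icc.nullMeasurableSet, Real.volume_Icc_pi, Fin.prod_univ_succ]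
  simp only [hlo, hhi, Fin.cons_zero, Fin.cons_succ, sub_zero, sub_neg_eq_add, Finset.prod_const,
    Finset.card_univ, Fintype.card_fin]
  rw [← ENNReal.ofReal_pow (by positivity), ← ENNReal.ofReal_mul hρ.le]
  congr 1
  ring

end Crest.Agent.R133
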