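import Crest.Agent.R133.Defs

set_option autoImplicit false

open MeasureTheory Metric Set Crest.AnalysisR
open scoped ENNReal Manifold ContDiff Topology

namespace Crest.Agent.R133

theorem cp_add {d : ℕ} (a : ℕ → (E d →L[ℝ] E d)) (s t t' : ℕ) :
    cp a s (t + t') = (cp a (s + t) t').comp (cp a s t) := by
  induction t' with
  | zero => rfl
  | succ t' ih =>
    rw [← Nat.add_assoc, cp, ih, cp, ContinuousLinearMap.comp_assoc, Nat.add_assoc]

/-- Small defects give a Green operator.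
Sketch: for an impulse `ξ` at step `s < n` take `T₁ = cp a 0 (s+1)`, `T₂ = cp a (s+1) (n-s-1)`,
`B` from the splitting property, `v t = cp a 0 t (B ξ)` for `t ≤ s` and
`v t = cp a (s+1) (t-s-1) (T₁ (B ξ) + ξ)` for `t > s`; the "no bump" property for the triples
`(0,t,s+1)` and `(s+1,t,n)` gives `‖v t‖² ≤ e^{2Δ} 2^d e^{2Δ} ‖ξ‖²`. Sum over `s`. -/
theorem green_of_defect {d : ℕ} (Φ : (E d →L[ℝ] E d) → ℝ)
    (hb : ∀ (T₁ T₂ : E d →L[ℝ] E d) (v : E d), ‖T₁ v‖ ^ 2 ≤
      Real.exp (2 * (Φ T₁ + Φ T₂ - Φ (T₂.comp T₁))) * (‖v‖ ^ 2 + ‖T₂ (T₁ v)‖ ^ 2))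
    (hs : ∀ T₁ T₂ : E d →L[ℝ] E d, ∃ B : E d →L[ℝ] E d, ∀ ξ : E d,
      ‖B ξ‖ ^ 2 + ‖T₁ (B ξ)‖ ^ 2 + ‖T₁ (B ξ) + ξ‖ ^ 2 + ‖T₂ (T₁ (B ξ) + ξ)‖ ^ 2 ≤
        2 ^ d * Real.exp (2 * (Φ T₁ + Φ T₂ - Φ (T₂.comp T₁))) * ‖ξ‖ ^ 2)
    (a : ℕ → (E d →L[ℝ] E d)) (n : ℕ) (Δ : ℝ)
    (hΔ : ∀ s t t', s + t + t' ≤ n →
      Φ (cp a s t) + Φ (cp a (s + t) t') - Φ (cp a s (t + t')) ≤ Δ) :
    Green a n (n * 2 ^ d * Real.exp (2 * Δ)) := by
  choose B hB using fun s : ℕ => hs (cp a 0 (s + 1)) (cp a (s + 1) (n - (s + 1)))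
  let K : ℕ → ℕ → (E d →L[ℝ] E d) := fun s t => if t ≤ s then (cp a 0 t).comp (B s)
    else (cp a (s + 1) (t - (s + 1))).comp ((cp a 0 (s + 1)).comp (B s) + .id ℝ _)
  have hb' : ∀ s t t', s + t + t' ≤ n → ∀ v, ‖cp a s t v‖ ^ 2 ≤
      Real.exp (2 * Δ) * (‖v‖ ^ 2 + ‖cp a s (t + t') v‖ ^ 2) := fun s t t' h v => by
    have h1 := hb (cp a s t) (cp a (s + t) t') v
    rw [← cp_add, ← ContinuousLinearMap.comp_apply, ← cp_add] at h1
    refine h1.trans ?_
    gcongr
    exact hΔ s t t' h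
  have hK : ∀ s t, s < n → t ≤ n → ∀ ξ, ‖K s t ξ‖ ≤ 2 ^ d * Real.exp (2 * Δ) * ‖ξ‖ := by
    intro s t hsn htn ξ
    have h1 := hB s ξ
    have h2 := hΔ 0 (s + 1) (n - (s + 1)) (by omega)
    rw [cp_add a 0 (s + 1) (n - (s + 1)), Nat.zero_add] at h2
    have h3 : 2 ^ d * Real.exp (2 * (Φ (cp a 0 (s + 1)) + Φ (cp a (s + 1) (n - (s + 1))) -
        Φ ((cp a (s + 1) (n - (s + 1))).comp (cp a 0 (s + 1))))) * ‖ξ‖ ^ 2 ≤
        2 ^ d * Real.exp (2 * Δ) * ‖ξ‖ ^ 2 := by gcongr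
    replace h1 := h1.trans h3
    have h4 : ‖K s t ξ‖ ^ 2 ≤ Real.exp (2 * Δ) * (2 ^ d * Real.exp (2 * Δ) * ‖ξ‖ ^ 2) := by
      by_cases h : t ≤ s
      · have := hb' 0 t (s + 1 - t) (by omega) (B s ξ)
        rw [show t + (s + 1 - t) = s + 1 by omega] at this
        simp only [K, if_pos h, ContinuousLinearMap.comp_apply]
        refine this.trans ?_
        gcongr
        nlinarith [sq_nonneg ‖cp a 0 (s + 1) (B s ξ) + ξ‖,
          sq_nonneg ‖cp a (s + 1) (n - (s + 1)) (cp a 0 (s + 1) (B s ξ) + ξ)‖]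
      · have := hb' (s + 1) (t - (s + 1)) (n - t) (by omega) (cp a 0 (s + 1) (B s ξ) + ξ)
        rw [show t - (s + 1) + (n - t) = n - (s + 1) by omega] at this
        simp only [K, if_neg h, ContinuousLinearMap.comp_apply, ContinuousLinearMap.add_apply,
          ContinuousLinearMap.id_apply]
        refine this.trans ?_
        gcongr
        nlinarith [sq_nonneg ‖cp a 0 (s + 1) (B s ξ)‖, sq_nonneg ‖B s ξ‖]
    refine (pow_le_pow_iff_left₀ (norm_nonneg _) (by positivity) two_ne_zero).1 (h4.trans ?_)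
    have h5 : (2 : ℝ) ^ d ≤ (2 ^ d) ^ 2 := by
      have : (1 : ℝ) ≤ 2 ^ d := one_le_pow₀ (by norm_num)
      nlinarith
    calc _ = 2 ^ d * (Real.exp (2 * Δ) * ‖ξ‖) ^ 2 := by ring
      _ ≤ (2 ^ d) ^ 2 * (Real.exp (2 * Δ) * ‖ξ‖) ^ 2 := by gcongr
      _ = _ := by ring
  have hrec : ∀ s t ξ, K s (t + 1) ξ - a t (K s t ξ) = if s = t then ξ else 0 := by
    intro s t ξ
    rcases lt_trichotomy s t with h | rfl | h
    · have e : t + 1 - (s + 1) = (t - (s + 1)) + 1 := by omega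
      have e' : s + 1 + (t - (s + 1)) = t := by omega
      simp only [K, if_neg (show ¬ t + 1 ≤ s by omega), if_neg (show ¬ t ≤ s by omega),
        if_neg h.ne, e, cp, e', ContinuousLinearMap.comp_apply, sub_self]
    · simp [K, cp]
    · simp [K, if_pos (show t + 1 ≤ s by omega), if_pos h.le, if_neg h.ne', cp]
  refine ⟨ContinuousLinearMap.pi fun t : Fin (n + 1) =>
    ∑ s : Fin n, (K s t).comp (ContinuousLinearMap.proj s), ?_, fun ξ t => ?_⟩
  · refine ContinuousLinearMap.opNorm_le_bound _ (by positivity) fun ξ => ?_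
    refine (pi_norm_le_iff_of_nonneg (by positivity)).mpr fun t => ?_
    simp only [ContinuousLinearMap.pi_apply, ContinuousLinearMap.sum_apply,
      ContinuousLinearMap.comp_apply, ContinuousLinearMap.proj_apply]
    refine (norm_sum_le _ _).trans ((Finset.sum_le_card_nsmul _ _
      (2 ^ d * Real.exp (2 * Δ) * ‖ξ‖) fun s _ => ?_).trans (le_of_eq ?_))
    · refine (hK s t s.2 (by omega) _).trans ?_
      gcongr
      exact norm_le_pi_norm ξ s
    · simp [mul_assoc]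
  · simp only [ContinuousLinearMap.pi_apply, ContinuousLinearMap.sum_apply,
      ContinuousLinearMap.comp_apply, ContinuousLinearMap.proj_apply, map_sum,
      ← Finset.sum_sub_distrib, Fin.val_succ, Fin.val_castSucc, hrec, Fin.val_inj]
    simp

/-- Defects of triples are controlled by the defect of the partition into pieces of length `τ`.
Sketch: `φ s t = Φ (cp a s t)` is subadditive, `0 ≤ φ s t ≤ c (t + 1)`. Refine the partition of
`[0, m τ]` by the three cut points `s, s+t, s+t+t'`: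
`φ 0 (mτ) ≤ φ 0 s + φ s (t+t') + φ (s+t+t') (..)` and each of the four intervals is covered by whole
pieces and at most two partial pieces, so
`φ 0 s + φ s t + φ (s+t) t' + φ (s+t+t') (..) ≤ ∑ pieces + 8 c (τ + 1)`. -/
theorem defect_le (φ : ℕ → ℕ → ℝ) (c : ℝ) (h0 : ∀ s t, 0 ≤ φ s t)
    (h1 : ∀ s t, φ s t ≤ c * (t + 1)) (hsub : ∀ s t t', φ s (t + t') ≤ φ s t + φ (s + t) t')
    (m τ : ℕ) (hτ : 0 < τ) (s t t' : ℕ) (h : s + t + t' ≤ m * τ) :
    φ s t + φ (s + t) t' - φ s (t + t') ≤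
      (∑ i ∈ Finset.range m, φ (i * τ) τ - φ 0 (m * τ)) + 8 * c * (τ + 1) := by
  have hc : 0 ≤ c := by simpa using (h0 0 0).trans (h1 0 0)
  let P : ℕ → ℝ := fun j => ∑ i ∈ Finset.range j, φ (i * τ) τ
  have hP : ∀ j, P (j + 1) = P j + φ (j * τ) τ := fun j => Finset.sum_range_succ _ _
  have hsm : ∀ x r, r ≤ τ → φ x r ≤ c * (τ + 1) := fun x r hr => (h1 x r).trans (by gcongr)
  have A : ∀ x k l, x ≤ k * τ → φ x ((k + l) * τ - x) ≤ φ x (k * τ - x) + P (k + l) - P k := by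
    intro x k l hx
    induction l with
    | zero => simp
    | succ l ih =>
      have h2 : x ≤ (k + l) * τ := hx.trans (Nat.mul_le_mul_right _ (by omega))
      have := hsub x ((k + l) * τ - x) τ
      rw [show x + ((k + l) * τ - x) = (k + l) * τ by omega,
        show (k + l) * τ - x + τ = (k + (l + 1)) * τ - x by
          rw [← Nat.add_assoc, Nat.succ_mul]; omega] at this
      rw [← Nat.add_assoc k l, hP, Nat.add_assoc k l]
      linarith
  have B : ∀ x r, φ x r ≤ P ((x + r) / τ) - P (x / τ) + 2 * c * (τ + 1) := by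
    intro x r
    have hx1 := Nat.div_add_mod x τ
    have hx2 := Nat.mod_lt x hτ
    have hy1 := Nat.div_add_mod (x + r) τ
    have hy2 := Nat.mod_lt (x + r) hτ
    have hc' : 0 ≤ c * (τ + 1) := by positivity
    obtain ⟨l, hl⟩ := Nat.exists_eq_add_of_le (Nat.div_le_div_right (c := τ) (Nat.le_add_right x r))
    set i := x / τ
    rw [hl] at hy1 ⊢
    rcases l with _ | l
    · have := hsm x r (by simp only [Nat.add_zero] at hy1; omega)
      simp only [Nat.add_zero]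
      linarith
    · have e1 : (i + 1) * τ = τ * i + τ := by ring
      have e2 : (i + 1 + l) * τ = τ * (i + (l + 1)) := by ring
      have h2 := A x (i + 1) l (by omega)
      have h3 := hsm x ((i + 1) * τ - x) (by omega)
      have h4 := hsub x ((i + 1 + l) * τ - x) ((x + r) % τ)
      have hle : x ≤ (i + 1 + l) * τ :=
        (show x ≤ (i + 1) * τ by omega).trans (Nat.mul_le_mul_right _ (by omega))
      rw [show (i + 1 + l) * τ - x + (x + r) % τ = r by omega] at h4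
      have h5 := hsm (x + ((i + 1 + l) * τ - x)) ((x + r) % τ) hy2.le
      have h6 := hP i
      have h7 := h0 (i * τ) τ
      rw [show i + (l + 1) = i + 1 + l by omega]
      linarith
  obtain ⟨r, hr⟩ := Nat.exists_eq_add_of_le h
  have b1 := B 0 s
  have b2 := B s t
  have b3 := B (s + t) t'
  have b4 := B (s + t + t') r
  have c1 := hsub 0 s (t + t' + r)
  have c2 := hsub s (t + t') r
  rw [← hr, Nat.mul_div_cancel _ hτ] at b4
  rw [show s + (t + t' + r) = m * τ by omega, Nat.zero_add] at c1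
  rw [← Nat.add_assoc] at c2
  have p0 : P 0 = 0 := rfl
  rw [Nat.zero_add, Nat.zero_div, p0] at b1
  change _ ≤ P m - _ + _
  linarith

end Crest.Agent.R133
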