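import Crest.Agent.R133.Defs

set_option autoImplicit false

open MeasureTheory Metric Set Crest.AnalysisR
open scoped ENNReal Manifold ContDiff Topology

namespace Crest.Agent.R133

/-- A level near which a finite measure on the line has linear growth.
(`x ↦ m.real (Iic x)` is monotone, hence differentiable almost everywhere.) -/
theorem exists_threshold (m : Measure ℝ) [IsFiniteMeasure m] {a b : ℝ} (hab : a < b) :
    ∃ θ ∈ Ioo a b, ∃ C : ℝ, ∀ s : ℝ, 0 < s → m.real (closedBall θ s) ≤ C * s := by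
  have h1 := (Besicovitch.ae_tendsto_rnDeriv m volume).and (Measure.rnDeriv_lt_top m volume)
  obtain ⟨θ, hθ, h2, h3⟩ := Measure.exists_mem_of_measure_ne_zero_of_ae (s := Ioo a b)
    (by simpa using hab) (ae_restrict_of_ae h1)
  obtain ⟨l, hl1, hl2⟩ := ENNReal.lt_iff_exists_nnreal_btwn.1 h3
  obtain ⟨r, hr, h4⟩ := mem_nhdsGT_iff_exists_Ioo_subset.1 (h2.eventually (gt_mem_nhds hl1))
  have hr' : 0 < r := hr
  refine ⟨θ, hθ, 2 * l + m.real univ / r, fun s hs => ?_⟩
  have h5 : 0 ≤ m.real univ / r * s := by positivity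
  have h6 : 0 ≤ 2 * (l : ℝ) * s := by positivity
  rw [add_mul]
  rcases lt_or_ge s r with h | h
  · have h7 : m (closedBall θ s) / volume (closedBall θ s) < l := h4 ⟨hs, h⟩
    rw [Real.volume_closedBall] at h7
    have h8 := ENNReal.toReal_mono (ENNReal.mul_ne_top ENNReal.coe_ne_top ENNReal.ofReal_ne_top)
      ((ENNReal.div_le_iff (by simpa using hs) ENNReal.ofReal_ne_top).1 h7.le)
    rw [ENNReal.toReal_mul, ENNReal.coe_toReal, ENNReal.toReal_ofReal (by positivity)] at h8
    change m.real _ ≤ _ at h8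
    linarith
  · have h7 : m.real (closedBall θ s) ≤ m.real univ := measureReal_mono (subset_univ _)
    have h8 : m.real univ / r * r ≤ m.real univ / r * s := by gcongr
    rw [div_mul_cancel₀ _ hr'.ne'] at h8
    linarith

/-- Adding a label. Sketch: `K ⊆ {Q = true} ⊆ U`, `K` compact, `U` open, `ν (U \ K) ≤ δ`. If `K`
is empty take `Y = false`. Otherwise `Y u = decide (infDist u K < θ)` with `θ ∈ (0, δ₀)`,
`thickening δ₀ K ⊆ U`, `θ` from `exists_threshold` for `ν.map (infDist · K)`;
`Y` is constant on `ball x ρ` unless `|infDist x K - θ| ≤ ρ`. All fields of `Flat` are monotone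
in `L`. -/
theorem Flat.label {d L : ℕ} {ν : Measure (E d)} {S : E d → E d} {A : E d → (E d →L[ℝ] E d)}
    (h : Flat d L ν S (fun _ => false) A) (Q : E d → Bool) (hQ : Measurable Q) (δ : ℝ)
    (hδ : 0 < δ) : ∃ (L' : ℕ) (Y : E d → Bool), Flat d L' ν S Y A ∧ ν.real {x | Y x ≠ Q x} ≤ δ := by
  have := h.prob
  have hs : MeasurableSet {x | Q x = true} := hQ (measurableSet_singleton true)
  have hε : ENNReal.ofReal (δ / 2) ≠ 0 := by simpa using hδ
  obtain ⟨K, hKs, hK, hK'⟩ := hs.exists_isCompact_sdiff_lt (μ := ν) (measure_ne_top _ _) hε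
  obtain ⟨U, hsU, hU, -, hU'⟩ := hs.exists_isOpen_sdiff_lt (μ := ν) (measure_ne_top _ _) hε
  have herr : ∀ Y : E d → Bool, (∀ x ∈ K, Y x = true) → (∀ x, Y x = true → x ∈ U) →
      ν.real {x | Y x ≠ Q x} ≤ δ := fun Y h1 h2 => by
    have h3 : {x | Y x ≠ Q x} ⊆ ({x | Q x = true} \ K) ∪ (U \ {x | Q x = true}) := fun x hx => by
      cases hq : Q x
      · exact Or.inr ⟨h2 x (by simpa [hq] using hx), by simp [hq]⟩
      · exact Or.inl ⟨hq, fun hxK => hx ((h1 x hxK).trans hq.symm)⟩
    have h4 := (measureReal_mono h3 (measure_ne_top ν _)).trans (measureReal_union_le _ _)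
    have h5 := ENNReal.toReal_lt_of_lt_ofReal hK'
    have h6 := ENNReal.toReal_lt_of_lt_ofReal hU'
    change ν.real _ < _ at h5 h6
    linarith
  rcases K.eq_empty_or_nonempty with rfl | hne
  · exact ⟨L, _, h, herr _ (by simp) (by simp)⟩
  obtain ⟨δ₀, hδ₀, hth⟩ := hK.exists_thickening_subset_open hU (hKs.trans hsU)
  have hm : Measurable fun x : E d => infDist x K := (continuous_infDist_pt K).measurable
  obtain ⟨θ, hθ, C, hC⟩ := exists_threshold (ν.map fun x => infDist x K) hδ₀
  have hL : (L : ℝ) ≤ (L + ⌈C⌉₊ : ℕ) := by exact_mod_cast Nat.le_add_right _ _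
  refine ⟨L + ⌈C⌉₊, fun x => decide (infDist x K < θ), ⟨h.prob, h.mp, ?_, h.measA,
    fun x => (h.normA x).trans hL, fun s => (h.dens s).trans ?_, ?_, fun ρ hρ => ?_⟩,
    herr _ (fun x hx => ?_) fun x hx => hth ?_⟩
  · refine measurable_to_bool ?_
    convert measurableSet_lt hm (measurable_const (a := θ)) using 1
    ext x
    simp
  · gcongr
    exact Nat.le_add_right _ _
  · exact measure_mono_null (compl_subset_compl.2 (closedBall_subset_closedBall hL)) h.supp
  · have h1 : (Reg S (fun x => decide (infDist x K < θ)) A (L + ⌈C⌉₊ : ℕ) ρ)ᶜ ⊆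
        (Reg S (fun _ => false) A L ρ)ᶜ ∪ (fun x => infDist x K) ⁻¹' closedBall θ ρ := by
      intro x hx
      by_contra hcon
      rw [mem_union, not_or, notMem_compl_iff, mem_preimage, mem_closedBall, Real.dist_eq,
        not_le] at hcon
      refine hx ⟨fun y hy => ?_, fun y hy z hz => (hcon.1.2 y hy z hz).trans (by gcongr)⟩
      have h2 := infDist_le_infDist_add_dist (x := x) (y := y) (s := K)
      have h3 := infDist_le_infDist_add_dist (x := y) (y := x) (s := K)
      rw [dist_comm] at h2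
      rw [mem_ball] at hy
      rw [decide_eq_decide]
      rcases lt_abs.1 hcon.2 with h4 | h4 <;> constructor <;> intro h5 <;> linarith
    have h2 := (measureReal_mono h1 (measure_ne_top ν _)).trans (measureReal_union_le _ _)
    have h3 := hC ρ hρ
    rw [map_measureReal_apply hm measurableSet_closedBall] at h3
    have h4 := h.reg ρ hρ
    have h5 := mul_le_mul_of_nonneg_right (Nat.le_ceil C) hρ.le
    push_cast at h2 ⊢
    linarith
  · simp [infDist_zero_of_mem hx, hθ.1]
  · exact (mem_thickening_iff_infDist_lt hne).2 ((of_decide_eq_true hx).trans hθ.2)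

end Crest.Agent.R133
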