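import Crest.Agent.R133.Shear

set_option autoImplicit false

open MeasureTheory Metric Set Crest.AnalysisR
open scoped ENNReal Manifold ContDiff Topology

namespace Crest.Agent.R133

theorem LowerAux.closed {d n : ℕ} (a : ℕ → (E d →L[ℝ] E d)) (r : ℝ) : IsClosed (Elin a n r) := by
  have : Elin a n r = ⋂ t, ⋂ _ : t ≤ n, {v | ‖cp a 0 t v‖ ≤ r} := by
    ext v
    simp [Elin]
  rw [this]
  exact isClosed_iInter fun t => isClosed_iInter fun _ =>
    isClosed_le (cp a 0 t).continuous.norm continuous_const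

theorem LowerAux.hom {d n : ℕ} (a : ℕ → (E d →L[ℝ] E d)) (w : Fin (n + 1) → E d)
    (hw : ∀ t : Fin n, w t.succ = a t (w t.castSucc)) (t : Fin (n + 1)) :
    cp a 0 t (w 0) = w t := by
  induction t using Fin.induction with
  | zero => rfl
  | succ t ih =>
    rw [hw, ← ih, Fin.val_succ, Fin.val_castSucc, cp, zero_add]
    rfl

/-- Lower bound for the volume of noisy orbits in a tube.

Sketch. `W = {u | ‖u t - p t‖ ≤ r, ‖(u (t+1) - p (t+1)) - a t (u t - p t)‖ ≤ σ'}` (compact) is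
contained in the set on the right. By `shear` with `g t y = p (t+1) + a t (y - p t)` and Fubini:
for `‖ξ‖ ≤ σ'` the slice contains `p 0 + 𝒢 ξ 0 + Elin a n (r/2)`
(take `u t = p t + 𝒢 ξ t + cp a 0 t v`). -/
theorem vol_lower {d n : ℕ} (S S' : E d → E d) (p : ℕ → E d)
    (a : ℕ → (E d →L[ℝ] E d)) (κ ρ r G e σ σ' : ℝ) (hp : ∀ t < n, S (p t) = p (t + 1))
    (happ : ∀ t < n, ∀ y ∈ ball (p t) ρ, ∀ z ∈ ball (p t) ρ,
      ‖S y - S z - a t (y - z)‖ ≤ κ * ‖y - z‖)
    (hS' : ∀ t < n, ∀ y ∈ closedBall (p t) r, ‖S' y - S y‖ ≤ e)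
    (hG : Green a n G) (hr : 0 < r) (hρ : r < ρ) (hκ : 0 ≤ κ) (hσ' : 0 ≤ σ')
    (h1 : σ' + e + κ * r ≤ σ) (h2 : G * σ' ≤ r / 2) :
    volume (closedBall (0 : E d) σ') ^ n * volume (Elin a n (r / 2)) ≤
      volume {u : Fin (n + 1) → E d | (∀ t, ‖u t - p t‖ ≤ r) ∧
        ∀ t : Fin n, ‖u t.succ - S' (u t.castSucc)‖ ≤ σ} := by
  obtain ⟨𝒢, hn, h𝒢⟩ := hG
  have hsh := shear (fun t y => p (t + 1) + a t (y - p t)) (fun t => by fun_prop) n
  let Z : Set (E d × (Fin n → E d)) := Prod.snd ⁻¹' closedBall (0 : Fin n → E d) σ' ∩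
    (fun q => q.1 - (p 0 + 𝒢 q.2 0)) ⁻¹' Elin a n (r / 2)
  have hZ : MeasurableSet Z := by
    refine IsClosed.measurableSet ((isClosed_closedBall.preimage continuous_snd).inter
      ((LowerAux.closed a _).preimage ?_))
    exact continuous_fst.sub (continuous_const.add
      ((continuous_apply 0).comp (𝒢.continuous.comp continuous_snd)))
  have e1 : (volume : Measure (E d)).prod (volume : Measure (Fin n → E d)) Z =
      volume (Elin a n (r / 2)) * volume (closedBall (0 : Fin n → E d) σ') := by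
    rw [Measure.prod_apply_symm hZ, ← setLIntegral_const,
      ← lintegral_indicator isClosed_closedBall.measurableSet]
    refine lintegral_congr fun ξ => ?_
    by_cases hξ : ξ ∈ closedBall (0 : Fin n → E d) σ'
    · rw [indicator_of_mem hξ,
        ← measure_preimage_add_right volume (-(p 0 + 𝒢 ξ 0)) (Elin a n (r / 2))]
      congr 1
      ext x
      simp only [Z, mem_preimage, mem_inter_iff, hξ, true_and, sub_eq_add_neg]
    · rw [indicator_of_notMem hξ]
      have : (fun x => (x, ξ)) ⁻¹' Z = ∅ := by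
        ext x
        simp only [Z, mem_preimage, mem_inter_iff, hξ, false_and, mem_empty_iff_false]
      rw [this, measure_empty]
  have e2 : volume (closedBall (0 : Fin n → E d) σ') = volume (closedBall (0 : E d) σ') ^ n := by
    rw [volume_pi_closedBall _ hσ']
    simp
  rw [← e2, mul_comm, ← e1, ← hsh.measure_preimage hZ.nullMeasurableSet]
  refine measure_mono fun u hu => ?_
  obtain ⟨ξ, hξ⟩ : ∃ ξ : Fin n → E d, ξ = fun t : Fin n =>
    u t.succ - (p (t + 1) + a t (u t.castSucc - p t)) := ⟨_, rfl⟩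
  simp only [Z, mem_preimage, mem_inter_iff, ← hξ, mem_closedBall_zero_iff] at hu
  have hw := LowerAux.hom a (fun t => u t - (p t + 𝒢 ξ t)) fun t => by
    have h3 := h𝒢 ξ t
    have h4 := congrFun hξ t
    simp only [Fin.val_succ, Fin.val_castSucc, map_sub, map_add] at h4 ⊢
    rw [← h3] at h4
    linear_combination (norm := module) -h4
  have hu1 : ∀ t, ‖u t - p t‖ ≤ r := by
    intro t
    have h3 : ‖u t - (p t + 𝒢 ξ t)‖ ≤ r / 2 := by
      rw [← hw t]
      exact hu.2 t (Nat.lt_succ_iff.1 t.2)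
    have h4 : ‖𝒢 ξ t‖ ≤ r / 2 :=
      (norm_le_pi_norm _ t).trans ((𝒢.le_opNorm ξ).trans
        ((mul_le_mul hn hu.1 (norm_nonneg _) ((norm_nonneg _).trans hn)).trans h2))
    have h5 : u t - p t = (u t - (p t + 𝒢 ξ t)) + 𝒢 ξ t := by abel
    rw [h5]
    linarith [norm_add_le (u t - (p t + 𝒢 ξ t)) (𝒢 ξ t)]
  refine ⟨hu1, fun t => ?_⟩
  have h3 : ‖u t.castSucc - p t‖ ≤ r := hu1 t.castSucc
  have h4 := happ t t.2 (u t.castSucc) (mem_ball_iff_norm.2 (h3.trans_lt hρ)) (p t)
    (mem_ball_self (hr.trans hρ))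
  have h5 := hS' t t.2 (u t.castSucc) (mem_closedBall_iff_norm.2 h3)
  have h6 : ‖ξ t‖ ≤ σ' := (norm_le_pi_norm _ t).trans hu.1
  have h7 : u t.succ - S' (u t.castSucc) = ξ t -
      (S (u t.castSucc) - S (p t) - a t (u t.castSucc - p t)) -
      (S' (u t.castSucc) - S (u t.castSucc)) := by
    rw [hξ, hp t t.2]
    simp only []
    abel
  rw [h7]
  have h8 := mul_le_mul_of_nonneg_left h3 hκ
  refine (norm_sub_le _ _).trans ?_
  linarith [norm_sub_le (ξ t) (S (u t.castSucc) - S (p t) - a t (u t.castSucc - p t))]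

open Pointwise in
/-- Scaling of linear Bowen balls. -/
theorem vol_Elin_smul {d n : ℕ} (a : ℕ → (E d →L[ℝ] E d)) (r c : ℝ) (hc : 0 < c) :
    volume (Elin a n (c * r)) = ENNReal.ofReal (c ^ d) * volume (Elin a n r) := by
  have : Elin a n (c * r) = c • Elin a n r := by
    ext v
    rw [mem_smul_set_iff_inv_smul_mem₀ hc.ne']
    simp only [Elin, mem_ofPred_eq, map_smul, norm_smul, norm_inv, Real.norm_of_nonneg hc.le,
      inv_mul_le_iff₀ hc]
  rw [this, Measure.addHaar_smul, finrank_euclideanSpace_fin, abs_of_pos (pow_pos hc d)]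

/-- A finite measurable quantiser of the ball of radius `R` with mesh `η`.
Sketch: coordinatewise, `q u i = min M ⌊(u i + R) / η'⌋₊` with `η' = η / (d+1)`,
`M = ⌈2 R / η'⌉₊`, index type `Fin d → Fin (M+1)` transported to `Fin K`. -/
theorem exists_quant (d : ℕ) (R η : ℝ) (hR : 0 ≤ R) (hη : 0 < η) :
    ∃ (K : ℕ) (q : E d → Fin K) (c : Fin K → E d), Measurable q ∧
      (K : ℝ) ≤ (2 * R * (d + 1) / η + 2) ^ d ∧ ∀ u, ‖u‖ ≤ R → ‖u - c (q u)‖ ≤ η := by
  obtain ⟨η', hη'⟩ : ∃ η', η' = η / (d + 1) := ⟨_, rfl⟩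
  have h0 : 0 < η' := by rw [hη']; positivity
  let M : ℕ := ⌊2 * R / η'⌋₊
  let φ : ℕ → Fin (M + 1) := fun k => ⟨min M k, Nat.lt_succ_of_le (min_le_left _ _)⟩
  refine ⟨(M + 1) ^ d, fun u => finFunctionFinEquiv fun i => φ ⌊(u i + R) / η'⌋₊,
    fun k => WithLp.toLp 2 fun i => (finFunctionFinEquiv.symm k i : ℕ) * η' - R, ?_, ?_, ?_⟩
  · refine (measurable_of_finite finFunctionFinEquiv).comp (measurable_pi_lambda _ fun i => ?_)
    exact (measurable_from_nat (f := φ)).comp (Measurable.nat_floor (by fun_prop))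
  · push_cast
    refine pow_le_pow_left₀ (by positivity) ?_ d
    have h1 : (M : ℝ) ≤ 2 * R / η' := Nat.floor_le (by positivity)
    have h2 : 2 * R / η' = 2 * R * (d + 1) / η := by rw [hη']; field_simp
    linarith
  · intro u hu
    refine (pow_le_pow_iff_left₀ (norm_nonneg _) hη.le two_ne_zero).1 ?_
    rw [EuclideanSpace.norm_sq_eq]
    have h1 : ∀ i : Fin d, ‖(u - WithLp.toLp 2 fun i => ((finFunctionFinEquiv.symm
        (finFunctionFinEquiv fun i => φ ⌊(u i + R) / η'⌋₊) i : ℕ) : ℝ) * η' - R : E d) i‖ ^ 2 ≤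
        η' ^ 2 := by
      intro i
      refine pow_le_pow_left₀ (norm_nonneg _) ?_ 2
      have h2 := abs_le.1 ((PiLp.norm_apply_le u i).trans hu)
      have h3 : 0 ≤ (u i + R) / η' := div_nonneg (by linarith) h0.le
      have h4 : ⌊(u i + R) / η'⌋₊ ≤ M := Nat.floor_le_floor (by gcongr; linarith)
      have h5 := Nat.floor_le h3
      have h6 := (Nat.lt_floor_add_one ((u i + R) / η')).le
      rw [le_div_iff₀ h0] at h5
      rw [div_le_iff₀ h0] at h6
      simp only [Equiv.symm_apply_apply, PiLp.sub_apply, φ, min_eq_right h4, Real.norm_eq_abs,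
        abs_le]
      constructor <;> linarith
    refine (Finset.sum_le_sum fun i _ => h1 i).trans ?_
    have h2 : η = (d + 1) * η' := by rw [hη']; field_simp
    rw [Finset.sum_const, Finset.card_univ, Fintype.card_fin, nsmul_eq_mul, h2, mul_pow]
    have : (0 : ℝ) ≤ d := Nat.cast_nonneg d
    gcongr
    nlinarith

end Crest.Agent.R133
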