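import Mathlib

/-! Row 133: determinant inequalities for `Φ T = (1/2) log det (1 + Tᵀ T)` (matrix form). -/

set_option autoImplicit false

open Matrix
open scoped MatrixOrder

namespace Crest.Agent.R133

variable {n : Type} [Fintype n] [DecidableEq n]

theorem phi_core {R : Matrix n n ℝ} (hR : R.PosSemidef) :
    1 ≤ (1 + R).det ∧ ((1 + R).det • (1 : Matrix n n ℝ) - (1 + R)).PosSemidef := by
  set U : Matrix n n ℝ := (hR.1.eigenvectorUnitary : Matrix n n ℝ) with hU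
  set l : n → ℝ := hR.1.eigenvalues with hl
  have hl0 : ∀ i, 0 ≤ l i := hR.eigenvalues_nonneg
  have hUU : U * star U = 1 := Unitary.coe_mul_star_self _
  have hspec : R = U * diagonal l * star U := by
    have := hR.1.spectral_theorem
    rw [Unitary.conjStarAlgAut_apply] at this
    simpa using this
  have hconj : ∀ c : ℝ, U * diagonal (fun _ => c) * star U = c • (1 : Matrix n n ℝ) := by
    intro c
    rw [← smul_one_eq_diagonal, mul_smul_comm, mul_one, smul_mul_assoc, hUU]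
  have h1 : 1 + R = U * diagonal (fun i => 1 + l i) * star U := by
    rw [← diagonal_add, mul_add, add_mul, hconj, one_smul, ← hspec]
  have hdet : (1 + R).det = ∏ i, (1 + l i) := by
    rw [h1, det_mul, det_mul, mul_right_comm, ← det_mul, hUU, det_one, one_mul, det_diagonal]
  have hge : ∀ i, 1 + l i ≤ ∏ j, (1 + l j) := fun i => by
    rw [← Finset.mul_prod_erase _ _ (Finset.mem_univ i)]
    refine le_mul_of_one_le_right (by linarith [hl0 i]) ?_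
    exact Finset.one_le_prod fun j _ => by linarith [hl0 j]
  refine ⟨hdet ▸ Finset.one_le_prod fun j _ => by linarith [hl0 j], ?_⟩
  rw [hdet, h1, ← hconj, ← sub_mul, ← mul_sub, diagonal_sub]
  exact (PosSemidef.diagonal fun i => sub_nonneg.2 (hge i)).mul_mul_conjTranspose_same U

theorem phi_det {P R : Matrix n n ℝ} (hP : P.PosDef) (hR : R.PosSemidef) :
    ∃ c : ℝ, 1 ≤ c ∧ (P + R).det = c * P.det ∧ (c • P - (P + R)).PosSemidef := by
  set S : Matrix n n ℝ := CFC.sqrt P with hS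
  have hSS : S * S = P := CFC.sqrt_mul_sqrt_self P hP.posSemidef.nonneg
  have hSH : Sᴴ = S := (CFC.sqrt_nonneg P).posSemidef.1
  have hdet : S.det * S.det = P.det := by rw [← det_mul, hSS]
  have hu : IsUnit S.det := by
    refine isUnit_iff_ne_zero.2 fun h => hP.det_pos.ne' ?_
    rw [← hdet, h, mul_zero]
  have hR' : (S⁻¹ * R * S⁻¹).PosSemidef := by
    have := hR.conjTranspose_mul_mul_same S⁻¹
    rwa [conjTranspose_nonsing_inv, hSH] at this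
  have h1 : P + R = S * (1 + S⁻¹ * R * S⁻¹) * S := by
    rw [mul_add, add_mul, mul_one, hSS, mul_assoc S, mul_assoc _ S⁻¹ S, nonsing_inv_mul _ hu,
      mul_one, ← mul_assoc, mul_nonsing_inv _ hu, one_mul]
  obtain ⟨h2, h3⟩ := phi_core hR'
  refine ⟨_, h2, ?_, ?_⟩
  · rw [h1, det_mul, det_mul, ← hdet]; ring
  · have := h3.conjTranspose_mul_mul_same S
    rwa [hSH, mul_sub, sub_mul, ← h1, mul_smul_comm, mul_one, smul_mul_assoc, hSS] at this

theorem phi_det_le {P R : Matrix n n ℝ} (hP : P.PosDef) (hR : R.PosSemidef) :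
    P.det ≤ (P + R).det := by
  obtain ⟨c, h1, h2, -⟩ := phi_det hP hR
  rw [h2]
  exact le_mul_of_one_le_left hP.det_pos.le h1

theorem phi_quad_le {P R : Matrix n n ℝ} (hP : P.PosDef) (hR : R.PosSemidef) (v : n → ℝ) :
    v ⬝ᵥ (P + R) *ᵥ v ≤ (P + R).det / P.det * (v ⬝ᵥ P *ᵥ v) := by
  obtain ⟨c, -, h2, h3⟩ := phi_det hP hR
  have := h3.dotProduct_mulVec_nonneg v
  rw [star_trivial, sub_mulVec, dotProduct_sub, smul_mulVec, dotProduct_smul, smul_eq_mul] at this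
  rw [h2, mul_div_assoc, div_self hP.det_pos.ne', mul_one]
  linarith

omit [DecidableEq n] in
theorem phi_psd (A : Matrix n n ℝ) : (Aᵀ * A).PosSemidef := by
  simpa using posSemidef_conjTranspose_mul_self A

theorem phi_pd (A : Matrix n n ℝ) : (1 + Aᵀ * A).PosDef := PosDef.one.add_posSemidef (phi_psd A)

omit [DecidableEq n] in
theorem phi_quad (A : Matrix n n ℝ) (v : n → ℝ) : v ⬝ᵥ (Aᵀ * A) *ᵥ v = A *ᵥ v ⬝ᵥ A *ᵥ v := by
  rw [← mulVec_mulVec, dotProduct_mulVec, vecMul_transpose]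

/-- `D A = det (1 + Aᵀ A)` -/
noncomputable def phiD (A : Matrix n n ℝ) : ℝ := (1 + Aᵀ * A).det

theorem phiD_pos (A : Matrix n n ℝ) : 0 < phiD A := (phi_pd A).det_pos

theorem one_le_phiD (A : Matrix n n ℝ) : 1 ≤ phiD A := (phi_core (phi_psd A)).1

theorem phiD_le (A : Matrix n n ℝ) {c : ℝ} (h : ∀ v, A *ᵥ v ⬝ᵥ A *ᵥ v ≤ c * (v ⬝ᵥ v)) :
    phiD A ≤ (1 + c) ^ Fintype.card n := by
  have hR : (c • (1 : Matrix n n ℝ) - Aᵀ * A).PosSemidef := by
    refine PosSemidef.of_dotProduct_mulVec_nonneg ?_ fun v => ?_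
    · exact (IsHermitian.smul isHermitian_one (IsSelfAdjoint.all c)).sub (phi_psd A).1
    · rw [star_trivial, sub_mulVec, dotProduct_sub, smul_mulVec, dotProduct_smul, smul_eq_mul,
        one_mulVec, phi_quad]
      linarith [h v]
  have := phi_det_le (phi_pd A) hR
  rwa [show 1 + Aᵀ * A + (c • (1 : Matrix n n ℝ) - Aᵀ * A) = (1 + c) • (1 : Matrix n n ℝ) by
    rw [add_smul, one_smul]; abel, det_smul, det_one, mul_one] at this

theorem phi_mid (A C : Matrix n n ℝ) :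
    (1 + (C * A)ᵀ * (C * A) + Aᵀ * A).det ≤ phiD A * phiD C := by
  set Q : Matrix n n ℝ := 1 + Cᵀ * C with hQ
  have hQp : Q.PosDef := phi_pd C
  have hu : IsUnit Q.det := isUnit_iff_ne_zero.2 hQp.det_pos.ne'
  have hAA : (A * Aᵀ).PosSemidef := by simpa using phi_psd Aᵀ
  have h1 : 1 + (C * A)ᵀ * (C * A) + Aᵀ * A = 1 + Aᵀ * (Q * A) := by
    rw [hQ, transpose_mul]; noncomm_ring
  have h2 : 1 + Q * A * Aᵀ = Q * (Q⁻¹ + A * Aᵀ) := by
    rw [mul_add, mul_nonsing_inv _ hu, mul_assoc]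
  have h3 : (1 - Q⁻¹).PosSemidef := by
    have h4 : (Cᵀ * C + (Cᵀ * C)ᵀ * (Cᵀ * C)).PosSemidef := (phi_psd C).add (phi_psd _)
    have h5 := h4.conjTranspose_mul_mul_same Q⁻¹
    have h6 : Cᵀ * C + (Cᵀ * C)ᵀ * (Cᵀ * C) = Q * Q - Q := by
      rw [hQ, transpose_mul, transpose_transpose]; noncomm_ring
    rwa [hQp.inv.1, h6, mul_sub, sub_mul, ← mul_assoc, nonsing_inv_mul _ hu, one_mul,
      mul_nonsing_inv _ hu, one_mul] at h5
  have h7 := phi_det_le (hQp.inv.add_posSemidef hAA) h3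
  rw [show Q⁻¹ + A * Aᵀ + (1 - Q⁻¹) = 1 + A * Aᵀ by abel, det_one_add_mul_comm] at h7
  rw [h1, det_one_add_mul_comm, h2, det_mul, mul_comm]
  exact mul_le_mul_of_nonneg_right h7 hQp.det_pos.le

theorem phiD_mul (A C : Matrix n n ℝ) : phiD (C * A) ≤ phiD A * phiD C :=
  (phi_det_le (phi_pd (C * A)) (phi_psd A)).trans (phi_mid A C)

theorem phi_nobump (A C : Matrix n n ℝ) (v : n → ℝ) : A *ᵥ v ⬝ᵥ A *ᵥ v ≤
    phiD A * phiD C / phiD (C * A) * (v ⬝ᵥ v + C *ᵥ A *ᵥ v ⬝ᵥ C *ᵥ A *ᵥ v) := by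
  have h1 := phi_quad_le (phi_pd (C * A)) (phi_psd A) v
  have h0 := (phi_pd (C * A)).posSemidef.dotProduct_mulVec_nonneg v
  rw [star_trivial] at h0
  have h2 : v ⬝ᵥ (1 + (C * A)ᵀ * (C * A)) *ᵥ v = v ⬝ᵥ v + C *ᵥ A *ᵥ v ⬝ᵥ C *ᵥ A *ᵥ v := by
    rw [add_mulVec, dotProduct_add, one_mulVec, phi_quad, mulVec_mulVec]
  rw [add_mulVec, dotProduct_add, phi_quad] at h1
  rw [← h2]
  have h3 := mul_le_mul_of_nonneg_right
    (div_le_div_of_nonneg_right (phi_mid A C) (phiD_pos (C * A)).le) h0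
  exact le_trans (by linarith) (h1.trans h3)

theorem phi_split (A C : Matrix n n ℝ) : ∃ B : Matrix n n ℝ, ∀ ξ : n → ℝ,
    B *ᵥ ξ ⬝ᵥ B *ᵥ ξ + A *ᵥ B *ᵥ ξ ⬝ᵥ A *ᵥ B *ᵥ ξ + (A *ᵥ B *ᵥ ξ + ξ) ⬝ᵥ (A *ᵥ B *ᵥ ξ + ξ) +
      C *ᵥ (A *ᵥ B *ᵥ ξ + ξ) ⬝ᵥ C *ᵥ (A *ᵥ B *ᵥ ξ + ξ) ≤
      2 ^ Fintype.card n * (phiD A * phiD C / phiD (C * A)) * (ξ ⬝ᵥ ξ) := by
  set Q : Matrix n n ℝ := 1 + Cᵀ * C with hQ
  set M : Matrix n n ℝ := 1 + (C * A)ᵀ * (C * A) + (Aᵀ * A + Aᵀ * A) with hM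
  have hAA2 := (phi_psd A).add (phi_psd A)
  have hMp : M.PosDef := (phi_pd (C * A)).add_posSemidef hAA2
  have hu : IsUnit M.det := isUnit_iff_ne_zero.2 hMp.det_pos.ne'
  have hM2 : M = 1 + Aᵀ * A + Aᵀ * Q * A := by rw [hM, hQ, transpose_mul]; noncomm_ring
  set B : Matrix n n ℝ := -(M⁻¹ * Aᵀ * Q) with hB
  have hMB : M * B = -(Aᵀ * Q) := by
    rw [hB, mul_neg, ← mul_assoc, ← mul_assoc, mul_nonsing_inv _ hu, one_mul]
  set Sg : Matrix n n ℝ := Bᵀ * B + (A * B)ᵀ * (A * B) + (A * B + 1)ᵀ * (A * B + 1) +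
    (C * (A * B + 1))ᵀ * (C * (A * B + 1)) with hSg
  have hS2 : Sg = Q * (1 + A * B) := by
    have e1 : Sg = Bᵀ * (M * B + Aᵀ * Q) + Q * (1 + A * B) := by
      rw [hSg, hM2, hQ]
      simp only [transpose_mul, transpose_add, transpose_one]
      noncomm_ring
    rw [e1, hMB, neg_add_cancel, mul_zero, zero_add]
  have hdet : Sg.det * M.det = phiD A * phiD C := by
    rw [hS2, det_mul, det_one_add_mul_comm A B, mul_assoc, mul_comm _ M.det, ← det_mul, mul_add,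
      mul_one, ← mul_assoc, hMB, mul_comm]
    congr 2
    rw [hM2]; noncomm_ring
  have hq : ∀ ξ : n → ℝ, ξ ⬝ᵥ Sg *ᵥ ξ =
      B *ᵥ ξ ⬝ᵥ B *ᵥ ξ + A *ᵥ B *ᵥ ξ ⬝ᵥ A *ᵥ B *ᵥ ξ + (A *ᵥ B *ᵥ ξ + ξ) ⬝ᵥ (A *ᵥ B *ᵥ ξ + ξ) +
        C *ᵥ (A *ᵥ B *ᵥ ξ + ξ) ⬝ᵥ C *ᵥ (A *ᵥ B *ᵥ ξ + ξ) := by
    intro ξ
    rw [hSg, add_mulVec, add_mulVec, add_mulVec, dotProduct_add, dotProduct_add, dotProduct_add,
      phi_quad, phi_quad, phi_quad, phi_quad]
    simp only [add_mulVec, ← mulVec_mulVec, one_mulVec]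
  have hP : ((1 / 2 : ℝ) • (1 : Matrix n n ℝ)).PosDef := PosDef.one.smul (by norm_num)
  have hR : (Sg - (1 / 2 : ℝ) • (1 : Matrix n n ℝ)).PosSemidef := by
    refine PosSemidef.of_dotProduct_mulVec_nonneg ?_ fun ξ => ?_
    · exact ((((phi_psd _).add (phi_psd _)).add (phi_psd _)).add (phi_psd _)).1.sub hP.1
    · rw [star_trivial, sub_mulVec, dotProduct_sub, smul_mulVec, dotProduct_smul, smul_eq_mul,
        one_mulVec, hq]
      have h1 : ∀ x : n → ℝ, 0 ≤ x ⬝ᵥ x := fun x => by simpa using dotProduct_star_self_nonneg x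
      have h2 := h1 (B *ᵥ ξ)
      have h3 := h1 (C *ᵥ (A *ᵥ B *ᵥ ξ + ξ))
      generalize A *ᵥ B *ᵥ ξ = y at *
      have h4 := h1 (y + y + ξ)
      simp only [add_dotProduct, dotProduct_add, dotProduct_comm ξ y] at h4 ⊢
      linarith
  refine ⟨B, fun ξ => ?_⟩
  have h1 := phi_quad_le hP hR ξ
  rw [add_sub_cancel, hq, det_smul, det_one, mul_one, smul_mulVec, dotProduct_smul, smul_eq_mul,
    one_mulVec] at h1
  refine h1.trans ?_
  have h2 : 0 ≤ ξ ⬝ᵥ ξ := by simpa using dotProduct_star_self_nonneg ξ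
  have h3 : phiD (C * A) ≤ M.det := phi_det_le (phi_pd (C * A)) hAA2
  have h4 : Sg.det ≤ phiD A * phiD C / phiD (C * A) := by
    rw [← eq_div_iff hMp.det_pos.ne'] at hdet
    rw [hdet]
    exact div_le_div_of_nonneg_left (mul_pos (phiD_pos A) (phiD_pos C)).le (phiD_pos _) h3
  have h5 : 0 ≤ phiD A * phiD C / phiD (C * A) :=
    div_nonneg (mul_pos (phiD_pos A) (phiD_pos C)).le (phiD_pos _).le
  rw [one_div, inv_pow, div_inv_eq_mul]
  have h6 : (0 : ℝ) < 2 ^ Fintype.card n := by positivity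
  calc Sg.det * 2 ^ Fintype.card n * (2⁻¹ * (ξ ⬝ᵥ ξ))
      ≤ phiD A * phiD C / phiD (C * A) * 2 ^ Fintype.card n * (2⁻¹ * (ξ ⬝ᵥ ξ)) := by gcongr
    _ ≤ phiD A * phiD C / phiD (C * A) * 2 ^ Fintype.card n * (ξ ⬝ᵥ ξ) := by
        gcongr; linarith
    _ = _ := by ring

end Crest.Agent.R133
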