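import Crest.Agent.R133.Defs
import Crest.Agent.R133.PhiAux

set_option autoImplicit false

open MeasureTheory Metric Set Crest.AnalysisR
open scoped ENNReal Manifold ContDiff Topology

namespace Crest.Agent.R133

/-- The subadditive function `Φ T = (1/2) log det (1 + Tᵀ T)` and its two geometric properties.

Sketch (matrices w.r.t. the standard orthonormal basis, `D T = det (1 + Tᵀ T) ≥ 1`).
DET: if `P` is positive definite and `P ≤ P'` then `det P ≤ det P'` and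
`(vᵀ P' v) * det P ≤ det P' * (vᵀ P v)` (write `P = Bᵀ B`, conjugate to `P = 1`, all eigenvalues of
`P'` are `≥ 1`, the largest is at most their product).
With `Q = 1 + T₂ᵀ T₂`, `P = 1 + (T₂T₁)ᵀ(T₂T₁) ≤ P' = 1 + T₁ᵀ Q T₁` and
`det P' = det (1 + T₁T₁ᵀ Q) = det (Q⁻¹ + T₁T₁ᵀ) det Q ≤ D T₁ * D T₂` (`det_one_add_mul_comm`,
`Q⁻¹ ≤ 1`). This gives subadditivity and the "no bump" inequality.
Splitting: the form `𝒬 (v, ξ) = |v|² + |T₁ v|² + |w|² + |T₂ w|²`, `w = T₁ v + ξ`, has determinant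
`D T₁ * D T₂` (unimodular change of variables); its `(v,v)` block `M = P' + T₁ᵀ T₁ ≥ P`; the Schur
complement `Σ = Q - Q T₁ M⁻¹ T₁ᵀ Q` (value at the minimiser `v = - M⁻¹ T₁ᵀ Q ξ`) has
`det Σ * det M = D T₁ * D T₂` and `Σ ≥ 1/2`, so `Σ ≤ 2^(d-1) det Σ`. -/
theorem exists_Phi (d : ℕ) : ∃ Φ : (E d →L[ℝ] E d) → ℝ, Continuous Φ ∧ (∀ T, 0 ≤ Φ T) ∧
    (∀ T, Φ T ≤ d * ‖T‖) ∧ (∀ T₁ T₂, Φ (T₂.comp T₁) ≤ Φ T₁ + Φ T₂) ∧
    (∀ (T₁ T₂ : E d →L[ℝ] E d) (v : E d), ‖T₁ v‖ ^ 2 ≤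
      Real.exp (2 * (Φ T₁ + Φ T₂ - Φ (T₂.comp T₁))) * (‖v‖ ^ 2 + ‖T₂ (T₁ v)‖ ^ 2)) ∧
    (∀ T₁ T₂ : E d →L[ℝ] E d, ∃ B : E d →L[ℝ] E d, ∀ ξ : E d,
      ‖B ξ‖ ^ 2 + ‖T₁ (B ξ)‖ ^ 2 + ‖T₁ (B ξ) + ξ‖ ^ 2 + ‖T₂ (T₁ (B ξ) + ξ)‖ ^ 2 ≤
        2 ^ d * Real.exp (2 * (Φ T₁ + Φ T₂ - Φ (T₂.comp T₁))) * ‖ξ‖ ^ 2) := by
  let e := Matrix.toEuclideanCLM (n := Fin d) (𝕜 := ℝ)
  have hap : ∀ (T : E d →L[ℝ] E d) (v : E d), (T v).ofLp = (e.symm T).mulVec v.ofLp := by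
    intro T v
    rw [← Matrix.ofLp_toEuclideanCLM]
    congr 2
    exact (e.apply_symm_apply T).symm
  have hn : ∀ v : E d, ‖v‖ ^ 2 = v.ofLp ⬝ᵥ v.ofLp := by
    intro v
    rw [EuclideanSpace.real_norm_sq_eq, dotProduct]
    simp only [sq]
  have hcomp : ∀ T₁ T₂ : E d →L[ℝ] E d, e.symm (T₂.comp T₁) = e.symm T₂ * e.symm T₁ :=
    fun T₁ T₂ => map_mul e.symm T₂ T₁
  have hexp : ∀ T₁ T₂ : E d →L[ℝ] E d, Real.exp (2 * (Real.log (phiD (e.symm T₁)) / 2 +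
      Real.log (phiD (e.symm T₂)) / 2 - Real.log (phiD (e.symm (T₂.comp T₁))) / 2)) =
      phiD (e.symm T₁) * phiD (e.symm T₂) / phiD (e.symm T₂ * e.symm T₁) := by
    intro T₁ T₂
    rw [hcomp, show ∀ a b c : ℝ, 2 * (a / 2 + b / 2 - c / 2) = a + b - c from fun a b c => by ring,
      Real.exp_sub, Real.exp_add, Real.exp_log (phiD_pos _), Real.exp_log (phiD_pos _),
      Real.exp_log (phiD_pos _)]
  refine ⟨fun T => Real.log (phiD (e.symm T)) / 2, ?_, fun T => ?_, fun T => ?_, fun T₁ T₂ => ?_,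
    fun T₁ T₂ v => ?_, fun T₁ T₂ => ?_⟩
  · have hc : Continuous e.symm :=
      LinearMap.continuous_of_finiteDimensional e.symm.toAlgEquiv.toLinearMap
    refine Continuous.div_const (Continuous.log ?_ fun T => (phiD_pos _).ne') 2
    unfold phiD
    exact (continuous_const.add (hc.matrix_transpose.matrix_mul hc)).matrix_det
  · exact div_nonneg (Real.log_nonneg (one_le_phiD _)) two_pos.le
  · have h1 := phiD_le (e.symm T) (c := ‖T‖ ^ 2) fun v => by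
      have h2 := T.le_opNorm (WithLp.toLp 2 v)
      have h3 := pow_le_pow_left₀ (norm_nonneg _) h2 2
      rwa [mul_pow, hn, hn, hap] at h3
    rw [Fintype.card_fin] at h1
    have h2 : 1 + ‖T‖ ^ 2 ≤ Real.exp (2 * ‖T‖) := by
      have h3 := Real.quadratic_le_exp_of_nonneg (x := 2 * ‖T‖) (by positivity)
      nlinarith [norm_nonneg T]
    have h3 := h1.trans (pow_le_pow_left₀ (by positivity) h2 d)
    rw [← Real.exp_nat_mul, ← Real.log_le_iff_le_exp (phiD_pos _)] at h3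
    linarith
  · have h1 := Real.log_le_log (phiD_pos _) (phiD_mul (e.symm T₁) (e.symm T₂))
    rw [Real.log_mul (phiD_pos _).ne' (phiD_pos _).ne'] at h1
    beta_reduce
    rw [hcomp]
    linarith
  · rw [hexp, hn, hn, hn, hap T₂, hap T₁]
    exact phi_nobump _ _ _
  · obtain ⟨B, hB⟩ := phi_split (e.symm T₁) (e.symm T₂)
    refine ⟨e B, fun ξ => ?_⟩
    have h1 := hB ξ.ofLp
    rw [Fintype.card_fin] at h1
    rw [hexp, hn, hn, hn, hn, hn, hap T₂, WithLp.ofLp_add, hap T₁, hap (e B), e.symm_apply_apply]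
    exact h1

end Crest.Agent.R133
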