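import Crest.Agent.R133.Tube
import Crest.Agent.R133.Phi
import Crest.Agent.R133.GreenOp

set_option autoImplicit false

open MeasureTheory Metric Set Crest.AnalysisR
open scoped ENNReal Manifold ContDiff Topology

namespace Crest.Agent.R133

namespace Smooth

theorem cp_shift {d : ℕ} (S : E d → E d) (A : E d → (E d →L[ℝ] E d)) (x : E d) (s t : ℕ) :
    cp (fun i => A (S^[i] x)) s t = cp (fun i => A (S^[i] (S^[s] x))) 0 t := by
  induction t with
  | zero => rfl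
  | succ t ih =>
    simp only [cp, ih, Nat.zero_add]
    rw [Nat.add_comm s t, Function.iterate_add_apply]

theorem measurable_cp {d : ℕ} {S : E d → E d} {A : E d → (E d →L[ℝ] E d)} (hS : Measurable S)
    (hA : Measurable A) (t : ℕ) : Measurable fun x => cp (fun i => A (S^[i] x)) 0 t := by
  induction t with
  | zero => exact measurable_const
  | succ t ih =>
    have hc : Continuous fun p : (E d →L[ℝ] E d) × (E d →L[ℝ] E d) => p.1.comp p.2 :=
      continuous_fst.clm_comp continuous_snd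
    exact hc.measurable.comp ((hA.comp (hS.iterate (0 + t))).prodMk ih)

theorem phi_le {d : ℕ} {Φ : (E d →L[ℝ] E d) → ℝ} (h1 : ∀ T, Φ T ≤ d * ‖T‖)
    (h2 : ∀ T₁ T₂, Φ (T₂.comp T₁) ≤ Φ T₁ + Φ T₂) (a : ℕ → (E d →L[ℝ] E d)) (L : ℝ)
    (ha : ∀ i, ‖a i‖ ≤ L) (s t : ℕ) : Φ (cp a s t) ≤ d * (L + 1) * (t + 1) := by
  have hL : 0 ≤ L := (norm_nonneg _).trans (ha 0)
  have hd : (0 : ℝ) ≤ d := Nat.cast_nonneg d
  induction t with
  | zero =>
    have := h1 (ContinuousLinearMap.id ℝ (E d))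
    have h3 : ‖ContinuousLinearMap.id ℝ (E d)‖ ≤ 1 := ContinuousLinearMap.norm_id_le
    simp only [cp, Nat.cast_zero, zero_add, mul_one]
    nlinarith
  | succ t ih =>
    have h3 := h2 (cp a s t) (a (s + t))
    have h4 := h1 (a (s + t))
    have h5 := ha (s + t)
    simp only [cp]
    push_cast
    nlinarith

theorem Green.mono {d : ℕ} {a : ℕ → (E d →L[ℝ] E d)} {n : ℕ} {G G' : ℝ} (h : Green a n G)
    (hG : G ≤ G') : Green a n G' := by
  obtain ⟨𝒢, h1, h2⟩ := h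
  exact ⟨𝒢, h1.trans hG, h2⟩

theorem sub_sum (φ : ℕ → ℕ → ℝ) (hsub : ∀ s t t', φ s (t + t') ≤ φ s t + φ (s + t) t') (τ m : ℕ)
    (hm : 1 ≤ m) : φ 0 (m * τ) ≤ ∑ i ∈ Finset.range m, φ (i * τ) τ := by
  induction m, hm using Nat.le_induction with
  | base => simp
  | succ m _ ih =>
    rw [Finset.sum_range_succ, Nat.succ_mul]
    have := hsub 0 (m * τ) τ
    rw [Nat.zero_add] at this
    linarith

theorem card_bad (ψ : ℕ → ℝ) (C γ : ℝ) (hγ : 0 < γ) (h0 : ∀ j, 0 ≤ ψ j) (hC : ψ 0 ≤ C)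
    (hanti : ∀ j, ψ (j + 1) ≤ ψ j) (J : ℕ) :
    ((Finset.range J).filter (fun j => γ < ψ j - ψ (j + 1))).card ≤ ⌈C / γ⌉₊ := by
  have h1 : (((Finset.range J).filter (fun j => γ < ψ j - ψ (j + 1))).card : ℝ) * γ ≤ C := by
    calc (((Finset.range J).filter (fun j => γ < ψ j - ψ (j + 1))).card : ℝ) * γ
        = ∑ _j ∈ (Finset.range J).filter (fun j => γ < ψ j - ψ (j + 1)), γ := by simp
      _ ≤ ∑ j ∈ (Finset.range J).filter (fun j => γ < ψ j - ψ (j + 1)), (ψ j - ψ (j + 1)) :=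
        Finset.sum_le_sum fun j hj => (Finset.mem_filter.1 hj).2.le
      _ ≤ ∑ j ∈ Finset.range J, (ψ j - ψ (j + 1)) :=
        Finset.sum_le_sum_of_subset_of_nonneg (Finset.filter_subset _ _)
          fun j _ _ => sub_nonneg.2 (hanti j)
      _ = ψ 0 - ψ J := Finset.sum_range_sub' ψ J
      _ ≤ C := by linarith [h0 J]
  have h2 := (le_div_iff₀ hγ).2 h1
  exact_mod_cast h2.trans (Nat.le_ceil _)

theorem sq_le_exp {x : ℝ} (hx : 0 ≤ x) : x ^ 2 / 2 ≤ Real.exp x := by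
  have := Real.pow_div_factorial_le_exp x hx 2
  simpa [Nat.factorial] using this

end Smooth

open Smooth in
open Classical in
/-- All but boundedly many scales are dominated.

Sketch. `θ = ε / (13 (d+1))`, `Φ` from `exists_Phi`, `φ x s t = Φ (cp (fun i => A (S^[i] x)) s t)`,
`0 ≤ φ ≤ c (t+1)` with `c = d (L+1)`; `φ x s t = φ (S^[s] x) 0 t`. `ψ n = (∫ φ x 0 n) / n ∈ [0, 2c]`.
For `n = m τ`, `Δ x = ∑_{i<m} φ x (iτ) τ - φ x 0 n ≥ 0` has integral `n (ψ τ - ψ n)`. So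
`ψ (τ j)` decreases and at most `β = ⌈2c / (θ κ / 16)⌉` indices `j` have
`ψ (τ j) - ψ (τ (j+1)) > θ κ / 16`. For the others, Markov: `ν {Δ > θ n / 8} ≤ κ / 2`; off this set
`defect_le` gives defects `≤ θ n/8 + 16 c τ ≤ θ n / 4` (`m ≥ m₀`), and `green_of_defect` gives
`G ≤ n 2^d exp (θ n / 2) ≤ exp (θ n)`. Also `ν (∃ t ≤ n, S^[t] x ∉ Reg ∩ ball) ≤ (n+1) L exp (-3θn) ≤ κ/2`
(`Measure.le_map_apply` for the possibly non-measurable `Reg`). Conclude by `tube_dom`. -/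
theorem smooth_side (d L : ℕ) (ε κ : ℝ) (hε : 0 < ε) (hκ : 0 < κ) :
    ∃ (β m₀ : ℕ) (D : ℝ) (𝓕 : (n : ℕ) → Finset ((Fin n → Bool) → ℝ)),
      0 ≤ D ∧ (∀ n, ∀ ν' ∈ 𝓕 n, IsSubProb ν') ∧
      (∀ n, m₀ ≤ n → ((𝓕 n).card : ℝ) ≤ Real.exp (Real.exp (ε * n))) ∧
      ∀ (ν : Measure (E d)) (S : E d → E d) (Y : E d → Bool) (A : E d → (E d →L[ℝ] E d)),
        Flat d L ν S Y A → ∀ (J : ℕ) (τ : ℕ → ℕ), 1 ≤ τ 0 → (∀ j, τ j ∣ τ (j + 1)) →
          (∀ j, m₀ * τ j ≤ τ (j + 1)) →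
          ((Finset.range J).filter (fun j =>
            ¬ ∃ ν' ∈ 𝓕 (τ (j + 1)), Dom ν S Y (τ (j + 1)) κ D ν')).card ≤ β := by
  have hd0 : (0 : ℝ) ≤ d := Nat.cast_nonneg d
  have hL0 : (0 : ℝ) ≤ L := Nat.cast_nonneg L
  set θ : ℝ := ε / (13 * (d + 1)) with hθdef
  have hθ : 0 < θ := by positivity
  obtain ⟨D, hD, htube⟩ := tube_dom d L
  obtain ⟨n₀, 𝓕, h𝓕, hcard, hdom⟩ := htube θ hθ
  obtain ⟨Φ, hΦc, hΦ0, hΦ1, hΦ2, hb, hs⟩ := exists_Phi d
  set c : ℝ := d * (L + 1) with hc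
  have hc0 : 0 ≤ c := by positivity
  set γ : ℝ := θ * κ / 16 with hγ
  have hγ0 : 0 < γ := by positivity
  set M : ℝ := 128 * c / θ + 8 * 2 ^ d / θ ^ 2 + L / (θ ^ 2 * κ) with hM
  refine ⟨⌈2 * c / γ⌉₊, n₀ + 1 + ⌈M⌉₊, D, 𝓕, hD, h𝓕, fun n hn => ?_, ?_⟩
  · have := hcard n (by omega)
    rwa [show 13 * ((d : ℝ) + 1) * θ = ε by rw [hθdef]; field_simp] at this
  intro ν S Y A hF J τ hτ0 hτd hτm
  have := hF.prob
  have hτ : ∀ j, 1 ≤ τ j := by
    intro j
    induction j with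
    | zero => exact hτ0
    | succ j ih => exact le_trans (Nat.mul_le_mul (by omega : 1 ≤ n₀ + 1 + ⌈M⌉₊) ih) (hτm j)
  let φ : E d → ℕ → ℕ → ℝ := fun x s t => Φ (cp (fun i => A (S^[i] x)) s t)
  have hφ0 : ∀ x s t, 0 ≤ φ x s t := fun x s t => hΦ0 _
  have hφ1 : ∀ x s t, φ x s t ≤ c * (t + 1) := fun x s t =>
    phi_le hΦ1 hΦ2 _ L (fun i => hF.normA _) s t
  have hφsub : ∀ x s t t', φ x s (t + t') ≤ φ x s t + φ x (s + t) t' := fun x s t t' => by
    simp only [φ]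
    rw [cp_add]
    exact hΦ2 _ _
  have hφsh : ∀ x s t, φ x s t = φ (S^[s] x) 0 t := fun x s t => by
    simp only [φ]
    rw [cp_shift]
  have hφm : ∀ t, Measurable fun x => φ x 0 t := fun t =>
    hΦc.measurable.comp (measurable_cp hF.mp.measurable hF.measA t)
  have hφm' : ∀ s t, Measurable fun x => φ x s t := fun s t => by
    simp only [hφsh _ s t]
    exact (hφm t).comp (hF.mp.measurable.iterate s)
  have hφi : ∀ s t, Integrable (fun x => φ x s t) ν := fun s t =>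
    Integrable.of_bound (hφm' s t).aestronglyMeasurable (c * (t + 1))
      (Filter.Eventually.of_forall fun x => by
        rw [Real.norm_eq_abs, abs_of_nonneg (hφ0 x s t)]; exact hφ1 x s t)
  let I : ℕ → ℝ := fun t => ∫ x, φ x 0 t ∂ν
  have hI : ∀ s t, ∫ x, φ x s t ∂ν = I t := fun s t => by
    simp only [hφsh _ s t, I]
    have h1 := (hF.mp.iterate s).map_eq
    conv_rhs => rw [← h1]
    rw [integral_map (hF.mp.iterate s).measurable.aemeasurable (hφm t).aestronglyMeasurable]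
  have hI0 : ∀ t, 0 ≤ I t := fun t => integral_nonneg fun x => hφ0 x 0 t
  have hI1 : ∀ t, I t ≤ c * (t + 1) := fun t => by
    have := integral_mono (hφi 0 t) (integrable_const (c * (t + 1))) fun x => hφ1 x 0 t
    simpa using this
  let Δ : ℕ → ℕ → E d → ℝ := fun m t x => ∑ i ∈ Finset.range m, φ x (i * t) t - φ x 0 (m * t)
  have hΔ0 : ∀ m t, 1 ≤ m → ∀ x, 0 ≤ Δ m t x := fun m t hm x =>
    sub_nonneg.2 (sub_sum (φ x) (hφsub x) t m hm)
  have hΔi : ∀ m t, Integrable (Δ m t) ν := fun m t =>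
    (integrable_finset_sum _ fun i _ => hφi _ _).sub (hφi _ _)
  have hΔI : ∀ m t, ∫ x, Δ m t x ∂ν = m * I t - I (m * t) := fun m t => by
    simp only [Δ]
    rw [integral_sub (integrable_finset_sum _ fun i _ => hφi _ _) (hφi _ _),
      integral_finset_sum _ fun i _ => hφi _ _]
    simp [hI]
  let ψ : ℕ → ℝ := fun j => I (τ j) / τ j
  have hτpos : ∀ j, (0 : ℝ) < τ j := fun j => by exact_mod_cast hτ j
  have hψ0 : ∀ j, 0 ≤ ψ j := fun j => div_nonneg (hI0 _) (hτpos j).le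
  have hψC : ψ 0 ≤ 2 * c := by
    have h1 : (1 : ℝ) ≤ τ 0 := by exact_mod_cast hτ0
    rw [div_le_iff₀ (hτpos 0)]
    nlinarith [hI1 (τ 0)]
  have hm : ∀ j, ∃ m : ℕ, n₀ + 1 + ⌈M⌉₊ ≤ m ∧ τ (j + 1) = m * τ j := fun j => by
    obtain ⟨m, hm⟩ := hτd j
    refine ⟨m, ?_, by rw [hm, mul_comm]⟩
    have := hτm j
    rw [hm, mul_comm (τ j) m] at this
    exact Nat.le_of_mul_le_mul_right this (hτ j)
  have hdiff : ∀ j m, τ (j + 1) = m * τ j →
      ∫ x, Δ m (τ j) x ∂ν = τ (j + 1) * (ψ j - ψ (j + 1)) := fun j m h => by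
    have h1 := hτpos j
    have h2 := hτpos (j + 1)
    have h3 : (τ (j + 1) : ℝ) = m * τ j := by exact_mod_cast h
    rw [hΔI, ← h]
    simp only [ψ]
    rw [mul_sub, mul_div_cancel₀ _ h2.ne', h3]
    field_simp
  have hanti : ∀ j, ψ (j + 1) ≤ ψ j := fun j => by
    obtain ⟨m, hm1, hm2⟩ := hm j
    have h1 : 0 ≤ ∫ x, Δ m (τ j) x ∂ν := integral_nonneg (hΔ0 m _ (by omega))
    rw [hdiff j m hm2] at h1
    have := (mul_nonneg_iff_of_pos_left (hτpos (j + 1))).1 h1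
    linarith
  refine le_trans (Finset.card_le_card fun j hj => ?_) (card_bad ψ (2 * c) γ hγ0 hψ0 hψC hanti J)
  simp only [Finset.mem_filter] at hj ⊢
  refine ⟨hj.1, ?_⟩
  by_contra hgood
  rw [not_lt] at hgood
  apply hj.2
  obtain ⟨m, hm1, hm2⟩ := hm j
  set n := τ (j + 1) with hn
  have hmn : m ≤ n := by rw [hm2]; exact Nat.le_mul_of_pos_right m (hτ j)
  have hnpos : (0 : ℝ) < n := hτpos (j + 1)
  have hn1 : (1 : ℝ) ≤ n := by exact_mod_cast hτ (j + 1)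
  have hMm : M ≤ m := (Nat.le_ceil M).trans (by exact_mod_cast (by omega : ⌈M⌉₊ ≤ m))
  have hMn : M ≤ n := hMm.trans (by exact_mod_cast hmn)
  have hM1 : 0 ≤ 128 * c / θ := by positivity
  have hM2 : 0 ≤ 8 * 2 ^ d / θ ^ 2 := by positivity
  have hM3 : 0 ≤ L / (θ ^ 2 * κ) := by positivity
  obtain ⟨ν', hν', hw⟩ := hdom ν S Y A hF n (by omega)
  refine ⟨ν', hν', _, ?_, hw⟩
  -- the two exceptional sets
  have hA : ν.real {x | θ * n / 8 ≤ Δ m (τ j) x} ≤ κ / 2 := by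
    have h1 := mul_meas_ge_le_integral_of_nonneg
      (Filter.Eventually.of_forall (hΔ0 m (τ j) (by omega))) (hΔi m (τ j)) (θ * n / 8)
    rw [hdiff j m hm2] at h1
    have h2 : (n : ℝ) * (ψ j - ψ (j + 1)) ≤ θ * n / 8 * (κ / 2) := by
      calc (n : ℝ) * (ψ j - ψ (j + 1)) ≤ n * γ := by gcongr
        _ = θ * n / 8 * (κ / 2) := by rw [hγ]; ring
    exact le_of_mul_le_mul_left (h1.trans h2) (by positivity)
  set ρ : ℝ := Real.exp (-3 * θ * n) with hρ
  have hρ0 : 0 < ρ := Real.exp_pos _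
  have hB : ν.real (⋃ t ∈ Finset.range (n + 1), S^[t] ⁻¹' (Reg S Y A L ρ ∩ closedBall 0 L)ᶜ) ≤
      κ / 2 := by
    have h1 : ∀ t, ν.real (S^[t] ⁻¹' (Reg S Y A L ρ ∩ closedBall 0 L)ᶜ) ≤ L * ρ := fun t => by
      have h2 : ν.real (S^[t] ⁻¹' (Reg S Y A L ρ ∩ closedBall 0 L)ᶜ) ≤
          ν.real (Reg S Y A L ρ ∩ closedBall 0 L)ᶜ := by
        refine ENNReal.toReal_mono (measure_ne_top _ _) ?_
        have := Measure.le_map_apply (μ := ν) (hF.mp.iterate t).measurable.aemeasurable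
          (Reg S Y A L ρ ∩ closedBall 0 L)ᶜ
        rwa [(hF.mp.iterate t).map_eq] at this
      refine h2.trans ?_
      rw [compl_inter]
      refine (measureReal_union_le _ _).trans ?_
      have h3 : ν.real (closedBall (0 : E d) L)ᶜ = 0 := by simp [Measure.real, hF.supp]
      rw [h3, add_zero]
      exact hF.reg ρ hρ0
    refine (measureReal_biUnion_finset_le _ _).trans ((Finset.sum_le_card_nsmul _ _ _
      fun t _ => h1 t).trans ?_)
    rw [Finset.card_range, nsmul_eq_mul]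
    push_cast
    have h2 := sq_le_exp (show 0 ≤ 3 * θ * n by positivity)
    have h3 : ρ * Real.exp (3 * θ * n) = 1 := by
      rw [hρ, ← Real.exp_add]; simp
    have h4 : L ≤ n * (θ ^ 2 * κ) := by
      have : L / (θ ^ 2 * κ) ≤ n := by linarith
      rwa [div_le_iff₀ (by positivity)] at this
    have h5 : ρ * ((3 * θ * n) ^ 2 / 2) ≤ 1 := by
      rw [← h3]; gcongr
    calc ((n : ℝ) + 1) * (L * ρ) ≤ (2 * n) * (n * (θ ^ 2 * κ) * ρ) := by gcongr; linarith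
      _ = (4 / 9) * κ * (ρ * ((3 * θ * n) ^ 2 / 2)) := by ring
      _ ≤ (4 / 9) * κ * 1 := by gcongr
      _ ≤ κ / 2 := by linarith
  refine le_trans (measureReal_mono (s₂ := {x | θ * n / 8 ≤ Δ m (τ j) x} ∪
    ⋃ t ∈ Finset.range (n + 1), S^[t] ⁻¹' (Reg S Y A L ρ ∩ closedBall 0 L)ᶜ) ?_) ?_
  · intro x hx
    by_contra hcon
    apply hx
    simp only [mem_union, not_or, mem_setOf_eq, not_le, mem_iUnion, not_exists, mem_preimage,
      mem_compl_iff, not_not, Finset.mem_range] at hcon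
    refine ⟨?_, fun t ht => hcon.2 t (by omega)⟩
    have h1 : ∀ s t t', s + t + t' ≤ n → φ x s t + φ x (s + t) t' - φ x s (t + t') ≤ θ * n / 4 := by
      intro s t t' h
      have h2 := defect_le (φ x) c (hφ0 x) (hφ1 x) (hφsub x) m (τ j) (hτ j) s t t' (hm2 ▸ h)
      have h3 : Δ m (τ j) x < θ * n / 8 := hcon.1
      have h4 : (n : ℝ) = m * τ j := by exact_mod_cast hm2
      have h5 : 128 * c ≤ m * θ := by
        have : 128 * c / θ ≤ m := by linarith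
        rwa [div_le_iff₀ hθ] at this
      have h6 : (1 : ℝ) ≤ τ j := by exact_mod_cast hτ j
      have h7 : 8 * c * (τ j + 1) ≤ θ * n / 8 := by
        rw [h4]
        nlinarith
      simp only [Δ] at h3
      linarith
    refine Green.mono (green_of_defect Φ hb hs _ n (θ * n / 4) h1) ?_
    have h2 := sq_le_exp (show 0 ≤ θ * n / 2 by positivity)
    have h3 : 8 * 2 ^ d ≤ n * θ ^ 2 := by
      have : 8 * 2 ^ d / θ ^ 2 ≤ n := by linarith
      rwa [div_le_iff₀ (by positivity)] at this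
    have h4 : (n : ℝ) * 2 ^ d ≤ Real.exp (θ * n / 2) := by
      refine le_trans ?_ h2
      nlinarith
    calc (n : ℝ) * 2 ^ d * Real.exp (2 * (θ * n / 4))
        ≤ Real.exp (θ * n / 2) * Real.exp (2 * (θ * n / 4)) := by gcongr
      _ = Real.exp (θ * n) := by rw [← Real.exp_add]; congr 1; ring
  · refine (measureReal_union_le _ _).trans ?_
    linarith

end Crest.Agent.R133
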