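import Crest.Agent.R133.Defs

set_option autoImplicit false

open MeasureTheory Metric Set Crest.AnalysisR
open scoped ENNReal Manifold ContDiff Topology

namespace Crest.Agent.R133

/-- The odometer group. -/
def towOm (N : ℕ → ℕ) (hd : ∀ k, N k ∣ N (k + 1)) : AddSubgroup (∀ k, ZMod (N k)) where
  carrier := {w | ∀ k, ZMod.castHom (hd k) (ZMod (N k)) (w (k + 1)) = w k}
  add_mem' := fun {a b} ha hb k => by
    simp only [Pi.add_apply, map_add]
    rw [ha k, hb k]
  zero_mem' := fun k => by simp only [Pi.zero_apply, map_zero]
  neg_mem' := fun {a} ha k => by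
    simp only [Pi.neg_apply, map_neg]
    rw [ha k]

section TowAux
variable {N : ℕ → ℕ} (hd : ∀ k, N k ∣ N (k + 1))

theorem towOm_closed : IsClosed (towOm N hd : Set (∀ k, ZMod (N k))) := by
  have : (towOm N hd : Set (∀ k, ZMod (N k))) =
      ⋂ k, {w | ZMod.castHom (hd k) (ZMod (N k)) (w (k + 1)) = w k} := by
    ext w
    simp only [mem_iInter]
    rfl
  rw [this]
  refine isClosed_iInter fun k => isClosed_eq ?_ (continuous_apply k)
  exact continuous_of_discreteTopology.comp (continuous_apply (k + 1))

/-- The generator of the odometer. -/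
def towOne : towOm N hd := ⟨fun _ => 1, fun _ => map_one _⟩

/-- The position at level `k`. -/
def towPos (k : ℕ) (w : towOm N hd) : ℕ := (w.1 k).val

theorem tow_meas_coord (k : ℕ) : Measurable fun w : towOm N hd => w.1 k :=
  (measurable_pi_apply k).comp measurable_subtype_coe

theorem tow_meas_pos (k : ℕ) : Measurable (towPos hd k) :=
  (measurable_from_top (f := fun a : ZMod (N k) => a.val)).comp (tow_meas_coord hd k)

variable [hN : ∀ k, NeZero (N k)]

theorem towPos_lt (k : ℕ) (w : towOm N hd) : towPos hd k w < N k := ZMod.val_lt _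

theorem towPos_add_one (k : ℕ) (w : towOm N hd) :
    towPos hd k (w + towOne hd) = (towPos hd k w + 1) % N k := by
  change (w.1 k + 1).val = _
  rw [ZMod.val_add, ZMod.val_one_eq_one_mod, Nat.add_mod_mod]
  rfl

theorem towPos_mod (k : ℕ) (w : towOm N hd) : towPos hd (k + 1) w % N k = towPos hd k w := by
  have h := w.2 k
  rw [ZMod.castHom_apply, ← ZMod.natCast_val] at h
  rw [towPos, towPos, ← h, ZMod.val_natCast]

instance tow_compact : CompactSpace (towOm N hd) :=
  isCompact_iff_compactSpace.1 (towOm_closed hd).isCompact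

instance tow_borel : BorelSpace (towOm N hd) :=
  inferInstanceAs (BorelSpace (towOm N hd : Set (∀ k, ZMod (N k))))

instance tow_std : StandardBorelSpace (towOm N hd) :=
  (towOm_closed hd).measurableSet.standardBorel

/-- Haar probability measure. -/
noncomputable def towMu : Measure (towOm N hd) := Measure.addHaarMeasure ⊤

instance tow_prob : IsProbabilityMeasure (towMu hd) :=
  ⟨by simpa [towMu] using Measure.addHaarMeasure_self (K₀ := (⊤ : TopologicalSpace.PositiveCompacts
    (towOm N hd)))⟩

instance tow_haar : (towMu hd).IsAddHaarMeasure := by unfold towMu; infer_instance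

theorem tow_meas_cyl (k : ℕ) (a : ZMod (N k)) :
    towMu hd {w | w.1 k = a} = (N k : ℝ≥0∞)⁻¹ := by
  have h1 : ∀ a : ZMod (N k), towMu hd ((fun w => w.1 k) ⁻¹' {a}) =
      towMu hd ((fun w => w.1 k) ⁻¹' {0}) := by
    intro a
    rw [← measure_preimage_add (towMu hd) (a.val • towOne hd)]
    congr 1
    ext w
    change a.val • (1 : ZMod (N k)) + w.1 k = a ↔ w.1 k = 0
    simp
  have h2 := sum_measure_preimage_singleton (μ := towMu hd) (Finset.univ : Finset (ZMod (N k)))
    (f := fun w => w.1 k) fun y _ => tow_meas_coord hd k (measurableSet_singleton y)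
  simp only [h1, Finset.sum_const, Finset.card_univ, ZMod.card, nsmul_eq_mul, Finset.coe_univ,
    preimage_univ, measure_univ] at h2
  exact (h1 a).trans (ENNReal.eq_inv_of_mul_eq_one_left (by rw [mul_comm]; exact h2))

theorem tow_meas_pos_eq (k a : ℕ) (ha : a < N k) :
    towMu hd {w | towPos hd k w = a} = (N k : ℝ≥0∞)⁻¹ := by
  rw [← tow_meas_cyl hd k (a : ZMod (N k))]
  congr 1
  ext w
  simp only [towPos, mem_ofPred_eq]
  constructor
  · rintro rfl; simp
  · intro h; rw [h, ZMod.val_cast_of_lt ha]

end TowAux

/-- The uniform measure on `Bool`. -/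
noncomputable def towNu : Measure Bool := (PMF.uniformOfFintype Bool).toMeasure

instance towNu_prob : IsProbabilityMeasure towNu := by unfold towNu; infer_instance

theorem towNu_singleton (s : Bool) : towNu {s} = 2⁻¹ := by
  rw [towNu, PMF.toMeasure_apply_singleton _ _ (measurableSet_singleton s)]
  simp

theorem towNu_map (c : Bool) : towNu.map (fun s => xor s c) = towNu := by
  refine Measure.ext_of_singleton fun s => ?_
  rw [Measure.map_apply (measurable_of_finite _) (measurableSet_singleton s)]
  have : (fun s => xor s c) ⁻¹' {s} = {xor s c} := by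
    ext t
    cases s <;> cases c <;> cases t <;> simp
  rw [this, towNu_singleton, towNu_singleton]

/-- Consistency of the cocycle. -/
theorem tow_cocycle {N B : ℕ → ℕ} {u b : ℕ → ℕ → Bool} (h : MorseData N B u b) (p : ℕ → ℕ)
    (hlt : ∀ k, p k < N k) (hmod : ∀ k, p (k + 1) % N k = p k) {j k : ℕ} (hjk : j ≤ k)
    (hj : p j + 1 < N j) :
    p k + 1 < N k ∧ xor (u k (p k + 1)) (u k (p k)) = xor (u j (p j + 1)) (u j (p j)) := by
  induction k, hjk using Nat.le_induction with
  | base => exact ⟨hj, rfl⟩
  | succ k _ ih =>
    obtain ⟨h1, h2⟩ := ih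
    have h3 : (p (k + 1) + 1) % N k = p k + 1 := by
      rw [Nat.add_mod, hmod, Nat.mod_eq_of_lt (by omega : 1 < N k), Nat.mod_eq_of_lt h1]
    have h4 : (p (k + 1) + 1) / N k = p (k + 1) / N k := by
      refine Nat.succ_div_of_not_dvd fun hdv => ?_
      rw [Nat.mod_eq_zero_of_dvd hdv] at h3
      omega
    refine ⟨?_, ?_⟩
    · refine lt_of_le_of_ne (hlt (k + 1)) fun he => ?_
      rw [he, h.N_succ, Nat.mul_mod_right] at h3
      omega
    · rw [h.u_succ, h.u_succ, h3, h4, hmod, ← h2]
      cases u k (p k + 1) <;> cases u k (p k) <;> cases b k (p (k + 1) / N k) <;> rfl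

/-- Construction of the Morse system.
Sketch: `Ω` = closed subgroup `{ω | ∀ k, (ω (k+1)).val % N k = (ω k).val}` of the compact group
`∀ k, ZMod (N k)` with Haar probability (`Measure.addHaarMeasure ⊤`), `X = Ω × Bool` with the
uniform measure on `Bool`. `pos k (ω, s) = (ω k).val`, `P (ω, s) = s`,
`sg k (ω,s) = xor s (u k (pos k))`, `T (ω, s) = (ω + 1, xor s (c ω))`, where
`c ω = xor (u k (pos k + 1)) (u k (pos k))` for the first (equivalently any, by `u_succ`) `k` with
`pos k + 1 < N k`, and `false` if there is none.  `MeasurePreserving.skew_product`.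
`μ {pos k = a} = 1 / N k` follows from invariance under `+ 1`. -/
theorem exists_towers {N B : ℕ → ℕ} {u b : ℕ → ℕ → Bool} (h : MorseData N B u b) :
    ∃ (X : Type) (_ : MeasurableSpace X) (μ : Measure X) (T : X ≃ᵐ X)
      (pos : ℕ → X → ℕ) (sg : ℕ → X → Bool) (P : X → Bool),
      StandardBorelSpace X ∧ IsProbabilityMeasure μ ∧ MeasurePreserving T μ μ ∧
      Towers μ T N u pos sg P := by
  classical
  have hpos : ∀ k, 0 < N k := by
    intro k
    induction k with
    | zero => rw [h.N_zero]; exact one_pos
    | succ k ih => rw [h.N_succ]; exact Nat.mul_pos ih (by have := h.two_le k; omega)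
  have hN : ∀ k, NeZero (N k) := fun k => ⟨(hpos k).ne'⟩
  have hd : ∀ k, N k ∣ N (k + 1) := fun k => ⟨B k, h.N_succ k⟩
  let c : towOm N hd → Bool := fun w => decide (∃ k, towPos hd k w + 1 < N k ∧
    xor (u k (towPos hd k w + 1)) (u k (towPos hd k w)) = true)
  have hc : ∀ k w, towPos hd k w + 1 < N k →
      c w = xor (u k (towPos hd k w + 1)) (u k (towPos hd k w)) := by
    intro k w hk
    have key := fun j k => @tow_cocycle N B u b h (fun k => towPos hd k w)
      (fun k => towPos_lt hd k w) (fun k => towPos_mod hd k w) j k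
    rw [Bool.eq_iff_iff]
    simp only [c, decide_eq_true_eq]
    refine ⟨?_, fun h' => ⟨k, hk, h'⟩⟩
    rintro ⟨j, hj, hj'⟩
    rcases le_total j k with hjk | hjk
    · rw [(key j k hjk hj).2, hj']
    · rw [← (key k j hjk hk).2, hj']
  have hcm : Measurable c := by
    refine measurable_to_bool ?_
    have : c ⁻¹' {true} = ⋃ k, towPos hd k ⁻¹'
        {a | a + 1 < N k ∧ xor (u k (a + 1)) (u k a) = true} := by
      ext w
      simp only [c, mem_preimage, mem_singleton_iff, decide_eq_true_eq, mem_iUnion, mem_ofPred_eq]
    rw [this]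
    exact MeasurableSet.iUnion fun k => tow_meas_pos hd k (MeasurableSet.of_discrete)
  have hxor : Measurable fun p : Bool × Bool => xor p.1 p.2 := measurable_of_finite _
  let T : towOm N hd × Bool ≃ᵐ towOm N hd × Bool :=
    { toFun := fun x => (x.1 + towOne hd, xor x.2 (c x.1))
      invFun := fun x => (x.1 - towOne hd, xor x.2 (c (x.1 - towOne hd)))
      left_inv := fun x => by simp
      right_inv := fun x => by simp
      measurable_toFun := (measurable_fst.add_const _).prodMk
        (hxor.comp (measurable_snd.prodMk (hcm.comp measurable_fst)))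
      measurable_invFun := (measurable_fst.sub_const _).prodMk
        (hxor.comp (measurable_snd.prodMk (hcm.comp (measurable_fst.sub_const _)))) }
  have hT : ∀ x, T x = (x.1 + towOne hd, xor x.2 (c x.1)) := fun _ => rfl
  have hmp : ∀ k, Measurable fun x : towOm N hd × Bool => towPos hd k x.1 := fun k =>
    (tow_meas_pos hd k).comp measurable_fst
  have hms : ∀ k, Measurable fun x : towOm N hd × Bool => xor x.2 (u k (towPos hd k x.1)) :=
    fun k => hxor.comp (measurable_snd.prodMk ((measurable_from_top (f := u k)).comp (hmp k)))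
  refine ⟨towOm N hd × Bool, inferInstance, (towMu hd).prod towNu, T,
    fun k x => towPos hd k x.1, fun k x => xor x.2 (u k (towPos hd k x.1)), fun x => x.2,
    inferInstance, inferInstance, ?_, ?_⟩
  · exact MeasurePreserving.skew_product (g := fun w s => xor s (c w))
      (measurePreserving_add_right (towMu hd) (towOne hd))
      (hxor.comp (measurable_snd.prodMk (hcm.comp measurable_fst)))
      (ae_of_all _ fun w => towNu_map _)
  · refine ⟨hmp, hms, fun k x => towPos_lt hd k _, fun k x => towPos_add_one hd k _,
      fun k x => towPos_mod hd k _, fun k x hk => ?_, fun k x => by simp, fun k a s ha => ?_, ?_⟩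
    · simp only [hT]
      rw [towPos_add_one, Nat.mod_eq_of_lt hk, hc k _ hk]
      cases x.2 <;> cases u k (towPos hd k x.1 + 1) <;> cases u k (towPos hd k x.1) <;> rfl
    · have : {x : towOm N hd × Bool | towPos hd k x.1 = a ∧ xor x.2 (u k (towPos hd k x.1)) = s} =
          {w | towPos hd k w = a} ×ˢ {xor s (u k a)} := by
        ext x
        simp only [mem_ofPred_eq, mem_prod, mem_singleton_iff]
        refine and_congr_right fun hx => ?_
        rw [hx]
        cases x.2 <;> cases s <;> cases u k a <;> simp
      rw [this, Measure.prod_prod, tow_meas_pos_eq hd k a ha, towNu_singleton,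
        ENNReal.mul_inv (by simp) (by simp), mul_comm]
    · refine le_antisymm (MeasurableSpace.generateFrom_le ?_) ?_
      · rintro _ ⟨k, a, s, rfl⟩
        exact (hmp k (measurableSet_singleton a)).inter (hms k (measurableSet_singleton s))
      · set m' := MeasurableSpace.generateFrom {C : Set (towOm N hd × Bool) | ∃ k a s,
          C = {x | towPos hd k x.1 = a ∧ xor x.2 (u k (towPos hd k x.1)) = s}} with hm'
        have hcell : ∀ k a s, MeasurableSet[m']
            {x | towPos hd k x.1 = a ∧ xor x.2 (u k (towPos hd k x.1)) = s} := fun k a s =>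
          MeasurableSpace.measurableSet_generateFrom ⟨k, a, s, rfl⟩
        have h1 : Measurable[m'] fun x : towOm N hd × Bool => x.1 := by
          refine Measurable.subtype_mk (f := fun x : towOm N hd × Bool => x.1.1)
            (h := fun x => x.1.2) (@measurable_pi_lambda _ _ _ m' _ _ fun k => ?_)
          refine @measurable_to_countable' _ _ _ _ m' _ fun y => ?_
          convert (hcell k y.val true).union (hcell k y.val false) using 1
          ext x
          simp only [mem_preimage, mem_singleton_iff, mem_union, mem_ofPred_eq, ← and_or_left,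
            Bool.eq_true_or_eq_false_self, and_true, towPos]
          exact (ZMod.val_injective _).eq_iff.symm
        have h2 : Measurable[m'] fun x : towOm N hd × Bool => x.2 := by
          refine @measurable_to_countable' _ _ _ _ m' _ fun y => ?_
          convert hcell 0 0 (xor y (u 0 0)) using 1
          ext x
          have h0 : towPos hd 0 x.1 = 0 := by
            have := towPos_lt hd 0 x.1
            rw [h.N_zero] at this
            omega
          simp [h0]
        exact fun s hs => (h1.prodMk h2) hs

end Crest.Agent.R133
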