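import Crest.Agent.R133.Defs

set_option autoImplicit false

open MeasureTheory Metric Set Crest.AnalysisR
open scoped ENNReal Manifold ContDiff Topology

namespace Crest.Agent.R133

section ZeroAux
variable {X : Type} [MeasurableSpace X] {μ : Measure X} [IsProbabilityMeasure μ]

theorem zero_nonneg {α : Type*} [Fintype α] (W : X → α) : 0 ≤ labelEntropy μ W :=
  Finset.sum_nonneg fun _ _ => Real.negMulLog_nonneg ENNReal.toReal_nonneg measureReal_le_one

/-- Gibbs' inequality. -/
theorem zero_gibbs {α : Type*} [Fintype α] [MeasurableSpace α] [MeasurableSingletonClass α]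
    (W : X → α) (hW : Measurable W) (q : α → ℝ) (hq : ∀ a, 0 < q a) (hq1 : ∑ a, q a ≤ 1) :
    labelEntropy μ W ≤ ∫ x, -Real.log (q (W x)) ∂μ := by
  have h1 : ∫ x, -Real.log (q (W x)) ∂μ = ∑ a, μ.real (W ⁻¹' {a}) * -Real.log (q a) := by
    rw [← integral_map (φ := W) (f := fun a => -Real.log (q a)) hW.aemeasurable
      (measurable_of_finite _).aestronglyMeasurable, integral_fintype Integrable.of_finite]
    refine Finset.sum_congr rfl fun a _ => ?_
    rw [map_measureReal_apply hW (measurableSet_singleton a), smul_eq_mul]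
  have h2 : ∑ a, μ.real (W ⁻¹' {a}) = 1 := by
    rw [sum_measureReal_preimage_singleton _ fun y _ => hW (measurableSet_singleton y)]
    simp
  have h3 : ∀ a, Real.negMulLog (μ.real (W ⁻¹' {a})) ≤
      μ.real (W ⁻¹' {a}) * -Real.log (q a) + (q a - μ.real (W ⁻¹' {a})) := by
    intro a
    rcases (measureReal_nonneg (μ := μ) (s := W ⁻¹' {a})).eq_or_lt with h | h
    · rw [← h]; simpa using (hq a).le
    · have := Real.log_le_sub_one_of_pos (div_pos (hq a) h)
      rw [Real.log_div (hq a).ne' h.ne'] at this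
      have h4 := mul_le_mul_of_nonneg_left this h.le
      rw [mul_sub (μ.real _) (_ / _), mul_div_cancel₀ _ h.ne'] at h4
      rw [Real.negMulLog]
      linarith
  rw [h1]
  refine (Finset.sum_le_sum fun a _ => h3 a).trans ?_
  rw [Finset.sum_add_distrib, Finset.sum_sub_distrib, h2]
  linarith

/-- Entropy of a word which is close to one of finitely many words. -/
theorem zero_ent_le {m n : ℕ} {ι : Type} [Fintype ι] [Nonempty ι] (W : X → Fin n → Fin m)
    (hW : Measurable W) (F : ι → Fin n → Fin m) (g : X → ι) (E : Fin n → Set X)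
    (hE : ∀ j, MeasurableSet (E j)) (hEW : ∀ x j, x ∉ E j → W x j = F (g x) j) {η δ : ℝ}
    (hη : ∀ j, μ.real (E j) ≤ η) (hδ : 0 < δ) (hδ1 : δ ≤ 1) :
    labelEntropy μ W ≤ Real.log (Fintype.card ι) + n * (m * δ) + n * (η * -Real.log δ) := by
  classical
  have hM : (0 : ℝ) < Fintype.card ι := by exact_mod_cast Fintype.card_pos
  have hD : (0 : ℝ) < 1 + m * δ := by positivity
  have hl : 0 ≤ -Real.log δ := neg_nonneg.2 (Real.log_nonpos hδ.le hδ1)
  set r : Fin m → Fin m → ℝ := fun a a' => (if a = a' then 1 else δ) / (1 + m * δ) with hr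
  have hr0 : ∀ a a', 0 < r a a' := fun a a' => by
    simp only [hr]
    split_ifs <;> positivity
  have hr1 : ∀ a', ∑ a, r a a' ≤ 1 := fun a' => by
    simp only [hr]
    rw [← Finset.sum_div, div_le_one hD]
    calc ∑ a : Fin m, (if a = a' then 1 else δ) ≤ ∑ a : Fin m, ((if a = a' then 1 else 0) + δ) :=
          Finset.sum_le_sum fun a _ => by split_ifs <;> linarith
      _ = 1 + m * δ := by simp [Finset.sum_add_distrib]
  set q : (Fin n → Fin m) → ℝ := fun w => (∑ i, ∏ j, r (w j) (F i j)) / Fintype.card ι with hq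
  have hq0 : ∀ w, 0 < q w := fun w => div_pos
    (Finset.sum_pos (fun i _ => Finset.prod_pos fun j _ => hr0 _ _) Finset.univ_nonempty) hM
  have hq1 : ∑ w, q w ≤ 1 := by
    simp only [hq]
    rw [← Finset.sum_div, div_le_one hM, Finset.sum_comm]
    calc ∑ i, ∑ w : Fin n → Fin m, ∏ j, r (w j) (F i j) ≤ ∑ _i : ι, (1 : ℝ) := by
          refine Finset.sum_le_sum fun i _ => ?_
          rw [← Fintype.piFinset_univ, ← Finset.prod_univ_sum (fun _ => Finset.univ)
            fun j a => r a (F i j)]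
          exact Finset.prod_le_one (fun j _ => Finset.sum_nonneg fun a _ => (hr0 _ _).le)
            fun j _ => hr1 _
      _ = _ := by simp
  have hpt : ∀ x, -Real.log (q (W x)) ≤ Real.log (Fintype.card ι) + n * (m * δ) +
      ∑ j, (E j).indicator (fun _ => -Real.log δ) x := by
    intro x
    have h1 : (∏ j, r (W x j) (F (g x) j)) / Fintype.card ι ≤ q (W x) :=
      div_le_div_of_nonneg_right (Finset.single_le_sum (f := fun i => ∏ j, r (W x j) (F i j))
        (fun i _ => Finset.prod_nonneg fun j _ => (hr0 _ _).le) (Finset.mem_univ _)) hM.le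
    have h0 : 0 < ∏ j, r (W x j) (F (g x) j) := Finset.prod_pos fun j _ => hr0 _ _
    have h2 := Real.log_le_log (div_pos h0 hM) h1
    rw [Real.log_div h0.ne' hM.ne', Real.log_prod fun j _ => (hr0 _ _).ne'] at h2
    have h3 : ∀ j, -Real.log (r (W x j) (F (g x) j)) ≤
        m * δ + (E j).indicator (fun _ => -Real.log δ) x := by
      intro j
      have h4 := Real.log_le_sub_one_of_pos hD
      simp only [hr]
      rw [Real.log_div (by split_ifs <;> positivity) hD.ne']
      by_cases hx : x ∈ E j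
      · rw [indicator_of_mem hx]
        split_ifs
        · rw [Real.log_one]; linarith
        · linarith
      · rw [indicator_of_notMem hx, if_pos (hEW x j hx), Real.log_one]
        linarith
    have h5 := Finset.sum_le_sum fun j (_ : j ∈ Finset.univ) => h3 j
    rw [Finset.sum_neg_distrib, Finset.sum_add_distrib, Finset.sum_const, Finset.card_univ,
      Fintype.card_fin, nsmul_eq_mul] at h5
    linarith
  have hi : ∀ j, Integrable ((E j).indicator fun _ => -Real.log δ) μ := fun j =>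
    (integrable_const _).indicator (hE j)
  have hi2 : Integrable (fun x => ∑ j, (E j).indicator (fun _ => -Real.log δ) x) μ :=
    integrable_finsetSum _ fun j _ => hi j
  have hi3 : Integrable (fun x => -Real.log (q (W x))) μ :=
    (Integrable.of_finite (μ := μ.map W) (f := fun w => -Real.log (q w))).comp_measurable hW
  refine (zero_gibbs W hW q hq0 hq1).trans
    ((integral_mono hi3 ((integrable_const _).add hi2) hpt).trans ?_)
  simp only [Pi.add_apply]
  rw [integral_add (integrable_const _) hi2, integral_finsetSum _ fun j _ => hi j, integral_const,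
    probReal_univ, one_smul]
  refine add_le_add_right ?_ _
  calc ∑ j, ∫ x, (E j).indicator (fun _ => -Real.log δ) x ∂μ ≤ ∑ _j : Fin n, η * -Real.log δ := by
        refine Finset.sum_le_sum fun j _ => ?_
        rw [integral_indicator_const _ (hE j), smul_eq_mul]
        exact mul_le_mul_of_nonneg_right (hη j) hl
    _ = _ := by simp

variable {T : X → X} {N B : ℕ → ℕ} {u b : ℕ → ℕ → Bool} {pos : ℕ → X → ℕ}
  {sg : ℕ → X → Bool} {P : X → Bool}

omit [IsProbabilityMeasure μ] in
theorem zero_level (hT : Towers μ T N u pos sg P) {j k : ℕ} (hjk : j ≤ k) :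
    ∃ f : ℕ × Bool → ℕ × Bool, ∀ x, (pos j x, sg j x) = f (pos k x, sg k x) := by
  induction k, hjk using Nat.le_induction with
  | base => exact ⟨id, fun _ => rfl⟩
  | succ k _ ih =>
    obtain ⟨f, hf⟩ := ih
    refine ⟨fun p => f (p.1 % N k, xor (xor p.2 (u (k + 1) p.1)) (u k (p.1 % N k))), fun x => ?_⟩
    rw [hf x]
    simp only
    rw [hT.pos_mod, ← hT.P_eq (k + 1) x, hT.P_eq k x]
    simp

theorem zero_approx_set (hT : Towers μ T N u pos sg P) {s : Set X} (hs : MeasurableSet s)
    {ε : ℝ≥0∞} (hε : 0 < ε) : ∃ k₀, ∀ k, k₀ ≤ k → ∃ A : Set (ℕ × Bool),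
      μ (symmDiff ((fun x => (pos k x, sg k x)) ⁻¹' A) s) < ε := by
  set C : Set (Set X) := {t | ∃ k, ∃ A : Set (ℕ × Bool), t = (fun x => (pos k x, sg k x)) ⁻¹' A}
    with hC
  have hup : ∀ t ∈ C, ∃ k₀, ∀ k, k₀ ≤ k → ∃ A : Set (ℕ × Bool),
      t = (fun x => (pos k x, sg k x)) ⁻¹' A := by
    rintro _ ⟨j, A, rfl⟩
    refine ⟨j, fun k hk => ?_⟩
    obtain ⟨f, hf⟩ := zero_level hT hk
    refine ⟨f ⁻¹' A, ?_⟩
    ext x
    simp only [mem_preimage, hf x]
  have hring : IsSetRing C := by
    refine ⟨⟨0, ∅, rfl⟩, fun s t hs ht => ?_, fun s t hs ht => ?_⟩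
    · obtain ⟨j, hj⟩ := hup s hs
      obtain ⟨k, hk⟩ := hup t ht
      obtain ⟨A, rfl⟩ := hj _ (le_max_left j k)
      obtain ⟨A', rfl⟩ := hk _ (le_max_right j k)
      exact ⟨_, A ∪ A', rfl⟩
    · obtain ⟨j, hj⟩ := hup s hs
      obtain ⟨k, hk⟩ := hup t ht
      obtain ⟨A, rfl⟩ := hj _ (le_max_left j k)
      obtain ⟨A', rfl⟩ := hk _ (le_max_right j k)
      exact ⟨_, A \ A', rfl⟩
  have hgen : (inferInstance : MeasurableSpace X) = MeasurableSpace.generateFrom C := by
    refine le_antisymm ?_ (MeasurableSpace.generateFrom_le ?_)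
    · refine hT.gen.ge.trans (MeasurableSpace.generateFrom_mono ?_)
      rintro _ ⟨k, a, s, rfl⟩
      refine ⟨k, {(a, s)}, ?_⟩
      ext x
      simp
    · rintro _ ⟨k, A, rfl⟩
      exact ((hT.meas_pos k).prodMk (hT.meas_sg k)) MeasurableSet.of_discrete
  obtain ⟨t, ht, h⟩ := exists_measure_symmDiff_lt_of_generateFrom_isSetRing (μ := μ) hring
    ⟨{univ}, countable_singleton _, by
      rintro _ rfl
      exact ⟨0, univ, rfl⟩, by simp⟩ hgen hs hε
  obtain ⟨k₀, hk₀⟩ := hup t ht
  refine ⟨k₀, fun k hk => ?_⟩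
  obtain ⟨A, rfl⟩ := hk₀ k hk
  exact ⟨A, h⟩

theorem zero_approx (hT : Towers μ T N u pos sg P) {m : ℕ} (Q : X → Fin m) (hQ : Measurable Q)
    {η : ℝ} (hη : 0 < η) : ∃ k₀, ∀ k, k₀ ≤ k → ∃ Q' : ℕ × Bool → Fin m,
      μ.real {x | Q x ≠ Q' (pos k x, sg k x)} ≤ η := by
  classical
  obtain ⟨x₀⟩ := nonempty_of_isProbabilityMeasure μ
  have hm : (0 : ℝ) < m := by exact_mod_cast (Q x₀).pos
  have h := fun i : Fin m => zero_approx_set hT (hQ (measurableSet_singleton i))
    (ENNReal.ofReal_pos.2 (div_pos hη hm))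
  choose k₀ hk₀ using h
  refine ⟨Finset.univ.sup k₀, fun k hk => ?_⟩
  choose A hA using fun i => hk₀ i k ((Finset.le_sup (Finset.mem_univ i)).trans hk)
  refine ⟨fun p => if h : ∃ i, p ∈ A i then h.choose else Q x₀, ?_⟩
  have hsub : {x | Q x ≠ (fun p => if h : ∃ i, p ∈ A i then h.choose else Q x₀) (pos k x, sg k x)}
      ⊆ ⋃ i, symmDiff ((fun x => (pos k x, sg k x)) ⁻¹' A i) (Q ⁻¹' {i}) := by
    intro x hx
    by_contra hc
    simp only [mem_iUnion, not_exists, mem_symmDiff, mem_preimage, mem_singleton_iff] at hc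
    have h1 : ∀ i, (pos k x, sg k x) ∈ A i ↔ Q x = i := fun i => by
      have := hc i
      tauto
    have h2 : ∃ i, (pos k x, sg k x) ∈ A i := ⟨Q x, (h1 _).2 rfl⟩
    apply hx
    simp only [dif_pos h2]
    exact (h1 _).1 h2.choose_spec
  refine (measureReal_mono hsub).trans ((measureReal_iUnion_fintype_le _).trans ?_)
  calc ∑ i, μ.real (symmDiff ((fun x => (pos k x, sg k x)) ⁻¹' A i) (Q ⁻¹' {i}))
      ≤ ∑ _i : Fin m, η / m := Finset.sum_le_sum fun i _ =>
        ENNReal.toReal_le_of_le_ofReal (div_pos hη hm).le (hA i).le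
    _ = η := by
        simp only [Finset.sum_const, Finset.card_univ, Fintype.card_fin, nsmul_eq_mul]
        field_simp

omit [IsProbabilityMeasure μ] in
theorem zero_pos_iter (hT : Towers μ T N u pos sg P) (k : ℕ) (x : X) (j : ℕ) :
    pos k (T^[j] x) = (pos k x + j) % N k := by
  induction j with
  | zero => simp [Nat.mod_eq_of_lt (hT.pos_lt k x)]
  | succ j ih => rw [Function.iterate_succ_apply', hT.pos_T, ih, Nat.mod_add_mod, add_assoc]

omit [IsProbabilityMeasure μ] in
theorem zero_sg_iter (hT : Towers μ T N u pos sg P) (k : ℕ) (x : X) (j : ℕ) :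
    sg k (T^[j] x) = sg k (T^[(pos k x + j) / N k * N k - pos k x] x) := by
  have hlt := hT.pos_lt k x
  induction j with
  | zero => simp [Nat.div_eq_of_lt hlt]
  | succ j ih =>
    by_cases h : N k ∣ pos k x + j + 1
    · rw [← add_assoc, Nat.div_mul_cancel h]
      congr 2
      omega
    · rw [← add_assoc, Nat.succ_div_of_not_dvd h, ← ih, Function.iterate_succ_apply']
      refine hT.sg_T k _ ?_
      rw [zero_pos_iter hT]
      refine lt_of_le_of_ne (Nat.mod_lt _ (by omega)) fun he => h ?_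
      rw [Nat.dvd_iff_mod_eq_zero, ← Nat.mod_add_mod, he, Nat.mod_self]

theorem zero_lt_N (h : MorseData N B u b) (k : ℕ) : k + 1 ≤ N k := by
  induction k with
  | zero => rw [h.N_zero]
  | succ k ih =>
    rw [h.N_succ]
    have := Nat.mul_le_mul ih (h.two_le k)
    omega

theorem zero_bound (hmp : MeasurePreserving T μ μ) (hT : Towers μ T N u pos sg P) {m : ℕ}
    (Q : X → Fin m) (hQ : Measurable Q) (k : ℕ) (Q' : ℕ × Bool → Fin m) {η δ : ℝ}
    (hη : μ.real {x | Q x ≠ Q' (pos k x, sg k x)} ≤ η) (hδ : 0 < δ) (hδ1 : δ ≤ 1) (n : ℕ) :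
    labelEntropy μ (fun x : X => fun j : Fin n => Q (T^[(j : ℕ)] x)) ≤
      (Real.log (N k) + 2) + n * (1 / N k + m * δ + η * -Real.log δ) := by
  obtain ⟨x₀⟩ := nonempty_of_isProbabilityMeasure μ
  have hN : 0 < N k := (Nat.zero_le _).trans_lt (hT.pos_lt k x₀)
  have hNr : (0 : ℝ) < N k := by exact_mod_cast hN
  have hidx : ∀ (p : Fin (N k)) (j : Fin n), ((p : ℕ) + (j : ℕ)) / N k < n / N k + 2 := fun p j => by
    have h1 : ((p : ℕ) + (j : ℕ)) / N k ≤ (n + N k) / N k := Nat.div_le_div_right (by omega)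
    rw [Nat.add_div_right _ hN] at h1
    omega
  have hne : Nonempty (Fin (N k) × (Fin (n / N k + 2) → Bool)) := ⟨(⟨0, hN⟩, fun _ => true)⟩
  have hE : MeasurableSet {x | Q x ≠ Q' (pos k x, sg k x)} :=
    (measurableSet_eq_fun hQ ((measurable_of_countable Q').comp
      ((hT.meas_pos k).prodMk (hT.meas_sg k)))).compl
  have h := zero_ent_le (μ := μ) (ι := Fin (N k) × (Fin (n / N k + 2) → Bool))
    (fun x : X => fun j : Fin n => Q (T^[(j : ℕ)] x))
    (measurable_pi_lambda _ fun j => hQ.comp (hmp.measurable.iterate j))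
    (fun i j => Q' (((i.1 : ℕ) + (j : ℕ)) % N k, i.2 ⟨((i.1 : ℕ) + (j : ℕ)) / N k, hidx i.1 j⟩))
    (fun x => (⟨pos k x, hT.pos_lt k x⟩, fun i => sg k (T^[i * N k - pos k x] x)))
    (fun j => T^[j] ⁻¹' {x | Q x ≠ Q' (pos k x, sg k x)})
    (fun j => (hmp.measurable.iterate j) hE)
    (fun x j hx => by
      simp only [mem_preimage, mem_ofPred_eq, not_not] at hx
      simp only
      rw [hx, zero_pos_iter hT, zero_sg_iter hT])
    (η := η) (fun j => by
      rw [(hmp.iterate j).measureReal_preimage hE.nullMeasurableSet]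
      exact hη) hδ hδ1
  refine h.trans ?_
  have h2 : Real.log 2 ≤ 1 := by
    have := Real.log_le_sub_one_of_pos (two_pos (α := ℝ))
    linarith
  have h3 : Real.log (Fintype.card (Fin (N k) × (Fin (n / N k + 2) → Bool))) ≤
      Real.log (N k) + 2 + n * (1 / N k) := by
    simp only [Fintype.card_prod, Fintype.card_fin, Fintype.card_pi, Fintype.card_bool,
      Finset.prod_const, Finset.card_univ]
    push_cast
    rw [Real.log_mul hNr.ne' (by positivity), Real.log_pow]
    have h4 : ((n / N k + 2 : ℕ) : ℝ) * Real.log 2 ≤ ((n / N k + 2 : ℕ) : ℝ) :=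
      mul_le_of_le_one_right (Nat.cast_nonneg _) h2
    have h5 : ((n / N k : ℕ) : ℝ) ≤ n / N k := Nat.cast_div_le
    push_cast at h4 ⊢
    rw [mul_one_div]
    linarith
  linarith [mul_add (n : ℝ) (1 / N k + m * δ) (η * -Real.log δ), mul_add (n : ℝ) (1 / N k) (m * δ)]

end ZeroAux

/-- Zero entropy.
Sketch: Gibbs: for a finite labelling `W : X → α` (measurable fibres) and `q : α → ℝ`, `q > 0`,
`∑ q ≤ 1`: `labelEntropy μ W ≤ ∑ a, μ(W = a) * (- log (q a))`.
Fix `Q : X → Fin m`, `η > 0`. The finite unions of cells of one level form a ring of sets that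
generates the σ-algebra (cells of level `k` are unions of cells of level `k+1`), so there are `k`
and `Q' : ℕ → Bool → Fin m` with `μ {Q x ≠ Q' (pos k x) (sg k x)} ≤ η`
(`exists_measure_symmDiff_lt_of_generateFrom_isSetRing`), and one may increase `k`.
The word `(pos k (T^j x), sg k (T^j x))_{j<n}` is determined by `pos k x` and the at most
`n / N k + 2` signs of the blocks met, so it takes at most `M = N k * 2 ^ (n / N k + 2)` values.
Take `q w = (1/M) ∑_{w'} ∏_j q_j (w j | w' j)` with `q_j = 1 - η` if the letters agree and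
`η / m` otherwise; then `- log q (word x) ≤ log M + n * (- log (1-η)) + #errors * log (m/η)`, and
`E #errors ≤ n η`. Hence `limsup H/n ≤ log 2 / N k - log (1-η) + η log (m/η)`. -/
theorem Towers.zeroEntropy {X : Type} [MeasurableSpace X] {μ : Measure X}
    [IsProbabilityMeasure μ] {T : X → X} {N B : ℕ → ℕ} {u b : ℕ → ℕ → Bool} {pos : ℕ → X → ℕ}
    {sg : ℕ → X → Bool} {P : X → Bool} (h : MorseData N B u b) (hmp : MeasurePreserving T μ μ)
    (hT : Towers μ T N u pos sg P) : HasZeroEntropy μ T := by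
  intro m Q hQ
  rw [Metric.tendsto_nhds]
  intro ε hε
  obtain ⟨δ, hδ, hδ1, hδ2⟩ : ∃ δ : ℝ, 0 < δ ∧ δ ≤ 1 ∧ m * δ ≤ ε / 5 := by
    refine ⟨min 1 (ε / 5 / (m + 1)), by positivity, min_le_left _ _, ?_⟩
    calc (m : ℝ) * min 1 (ε / 5 / (m + 1)) ≤ (m + 1) * (ε / 5 / (m + 1)) :=
          mul_le_mul (by linarith) (min_le_right _ _) (by positivity) (by positivity)
      _ = ε / 5 := by field_simp
  have hl : 0 ≤ -Real.log δ := neg_nonneg.2 (Real.log_nonpos hδ.le hδ1)
  obtain ⟨η, hη, hη2⟩ : ∃ η : ℝ, 0 < η ∧ η * -Real.log δ ≤ ε / 5 := by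
    refine ⟨ε / 5 / (-Real.log δ + 1), by positivity, ?_⟩
    calc ε / 5 / (-Real.log δ + 1) * -Real.log δ ≤ ε / 5 / (-Real.log δ + 1) * (-Real.log δ + 1) :=
          mul_le_mul_of_nonneg_left (by linarith) (by positivity)
      _ = ε / 5 := by field_simp
  obtain ⟨k₀, hk₀⟩ := zero_approx hT Q hQ hη
  obtain ⟨k₁, hk₁⟩ := exists_nat_one_div_lt (by positivity : 0 < ε / 5)
  obtain ⟨Q', hQ'⟩ := hk₀ (max k₀ k₁) (le_max_left _ _)
  set k := max k₀ k₁ with hk
  have hN : 1 / (N k : ℝ) ≤ ε / 5 := by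
    refine le_trans (one_div_le_one_div_of_le (by positivity) ?_) hk₁.le
    have h1 := zero_lt_N h k
    have h2 : k₁ ≤ k := le_max_right _ _
    exact_mod_cast (by omega : k₁ + 1 ≤ N k)
  have hlim := (tendsto_const_div_atTop_nhds_zero_nat (Real.log (N k) + 2)).eventually
    (gt_mem_nhds (by positivity : 0 < ε / 5))
  filter_upwards [hlim, Filter.eventually_gt_atTop 0] with n hn hn0
  have hnr : (0 : ℝ) < n := by exact_mod_cast hn0
  have hb := zero_bound hmp hT Q hQ k Q' hQ' hδ hδ1 n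
  rw [Real.dist_eq, sub_zero, abs_of_nonneg (div_nonneg (zero_nonneg _) hnr.le)]
  have h1 := div_le_div_of_nonneg_right hb hnr.le
  rw [add_div, mul_div_cancel_left₀ _ hnr.ne'] at h1
  linarith

end Crest.Agent.R133
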