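import Crest.Agent.R133.Std
import Crest.Agent.R133.Towers
import Crest.Agent.R133.Ergodic
import Crest.Agent.R133.ZeroEnt
import Crest.Agent.R133.Bridge
import Crest.Agent.R133.Smooth
import Crest.Agent.R133.Flatten

set_option autoImplicit false

open MeasureTheory Metric Set Crest.AnalysisR
open scoped ENNReal Manifold ContDiff Topology

namespace Crest.Agent.R133

/-- What level `(d, L)` of the construction achieves. -/
def Kills (d L N : ℕ) (u : ℕ → Bool) (B : ℕ) (b : ℕ → Bool) : Prop :=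
  ∀ (X : Type) [MeasurableSpace X] (μ : Measure X) [IsProbabilityMeasure μ] (T : X → X)
    (pos : X → ℕ) (sg P : X → Bool), MeasurePreserving T μ μ → Measurable pos →
    Measurable sg → (∀ x, pos x < N * B) → (∀ x, pos (T x) = (pos x + 1) % (N * B)) →
    (∀ x, pos x + 1 < N * B → sg (T x) = sg x) →
    (∀ x, P x = xor (sg x) (xor (u (pos x % N)) (b (pos x / N)))) →
    ∀ (S : E d → E d) (Y : E d → Bool) (A : E d → (E d →L[ℝ] E d)) (F : X → E d) (X₀ : Set X),
      Measurable F → Flat d L (μ.map F) S Y A → μ X₀ᶜ = 0 → MapsTo T X₀ X₀ →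
      (∀ x ∈ X₀, F (T x) = S (F x)) → ¬ μ.real {x | Y (F x) ≠ P x} ≤ 1 / 10000

theorem Dom.pullback {X : Type} [MeasurableSpace X] {μ : Measure X} [IsProbabilityMeasure μ]
    {T : X → X} {d : ℕ} {S : E d → E d} {Y : E d → Bool} {F : X → E d} {X₀ : Set X}
    (hF : Measurable F) (h0 : μ X₀ᶜ = 0) (hT : MapsTo T X₀ X₀)
    (hc : ∀ x ∈ X₀, F (T x) = S (F x)) {n : ℕ} {κ D : ℝ} {ν : (Fin n → Bool) → ℝ}
    (h : Dom (μ.map F) S Y n κ D ν) : Dom μ T (fun x => Y (F x)) n κ D ν := by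
  obtain ⟨G, hG, hw⟩ := h
  have : IsProbabilityMeasure (μ.map F) := Measure.isProbabilityMeasure_map hF.aemeasurable
  have key : ∀ s : Set (E d), μ.real (F ⁻¹' s) ≤ (μ.map F).real s := fun s =>
    ENNReal.toReal_mono (measure_ne_top _ _) (Measure.le_map_apply hF.aemeasurable s)
  have hit : ∀ t : ℕ, ∀ x ∈ X₀, F (T^[t] x) = S^[t] (F x) := by
    intro t
    induction t with
    | zero => intro x _; rfl
    | succ t ih =>
      intro x hx
      rw [Function.iterate_succ_apply, Function.iterate_succ_apply, ih _ (hT hx), hc x hx]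
  refine ⟨F ⁻¹' G ∩ X₀, ?_, fun w => ?_⟩
  · rw [compl_inter]
    calc μ.real ((F ⁻¹' G)ᶜ ∪ X₀ᶜ) ≤ μ.real (F ⁻¹' G)ᶜ + μ.real X₀ᶜ := measureReal_union_le _ _
      _ = μ.real (F ⁻¹' Gᶜ) := by simp [Measure.real, h0]
      _ ≤ κ := (key _).trans hG
  · refine le_trans ?_ ((key _).trans (hw w))
    refine measureReal_mono ?_
    rintro x ⟨⟨hxG, hx0⟩, hxw⟩
    refine ⟨hxG, ?_⟩
    simp only [mem_ofPred_eq] at hxw ⊢
    rw [← hxw]
    funext t
    simp only [word, hit t x hx0]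

theorem exists_kills (d L N : ℕ) (hN : 0 < N) (u : ℕ → Bool) :
    ∃ (B : ℕ) (b : ℕ → Bool), 2 ≤ B ∧ Balanced B b ∧ Kills d L N u B b := by
  classical
  have hε : (0 : ℝ) < 1 / (100 * N) := by positivity
  obtain ⟨β, m₀, D, 𝓕, hD, h𝓕, hcard, hs⟩ := smooth_side d L (1 / (100 * N)) (1 / 20) hε
    (by norm_num)
  obtain ⟨B, b, J, τ, hB, hbal, hτ0, hτd, hτm, hbr⟩ := bridge N hN u β m₀ D hD 𝓕 h𝓕 hcard
  refine ⟨B, b, hB, hbal, ?_⟩
  intro X _ μ _ T pos sg P hT hpos hsg h1 h2 h3 h4 S Y A F X₀ hF hflat h0 hmaps hc hle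
  have hlt := hbr X μ T pos sg P (fun x => Y (F x)) hT hpos hsg (hflat.measY.comp hF) h1 h2 h3 h4
    hle
  have hle' := hs _ S Y A hflat J τ hτ0 hτd hτm
  refine absurd (lt_of_lt_of_le hlt (le_trans (Finset.card_le_card ?_) hle')) (lt_irrefl _)
  intro j hj
  simp only [Finset.mem_filter] at hj ⊢
  refine ⟨hj.1, fun ⟨ν', hν', hd⟩ => hj.2 ⟨ν', hν', hd.pullback hF h0 hmaps hc⟩⟩

theorem exists_data : ∃ (N B : ℕ → ℕ) (u b : ℕ → ℕ → Bool), MorseData N B u b ∧
    ∀ k, Kills (Nat.unpair k).1 (Nat.unpair k).2 (N k) (u k) (B k) (b k) := by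
  choose Bf bf hB hbal hK using exists_kills
  let step : ℕ → {N : ℕ // 0 < N} × (ℕ → Bool) → {N : ℕ // 0 < N} × (ℕ → Bool) := fun k s =>
    (⟨s.1.1 * Bf (Nat.unpair k).1 (Nat.unpair k).2 s.1.1 s.1.2 s.2,
      Nat.mul_pos s.1.2 (lt_of_lt_of_le two_pos (hB _ _ _ _ _))⟩,
      fun i => xor (s.2 (i % s.1.1)) (bf (Nat.unpair k).1 (Nat.unpair k).2 s.1.1 s.1.2 s.2
        (i / s.1.1)))
  let st : ℕ → {N : ℕ // 0 < N} × (ℕ → Bool) := fun k =>
    Nat.rec (⟨1, one_pos⟩, fun _ => false) step k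
  refine ⟨fun k => (st k).1.1,
    fun k => Bf (Nat.unpair k).1 (Nat.unpair k).2 (st k).1.1 (st k).1.2 (st k).2,
    fun k => (st k).2,
    fun k => bf (Nat.unpair k).1 (Nat.unpair k).2 (st k).1.1 (st k).1.2 (st k).2,
    ⟨rfl, fun k => rfl, fun k => hB _ _ _ _ _, fun k i => rfl, fun k => hbal _ _ _ _ _⟩,
    fun k => hK _ _ _ _ _⟩

theorem not_conj_pos {X : Type} [MeasurableSpace X] {μ : Measure X} [IsProbabilityMeasure μ]
    {T : X → X} {N B : ℕ → ℕ} {u b : ℕ → ℕ → Bool} {pos : ℕ → X → ℕ} {sg : ℕ → X → Bool}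
    {P : X → Bool} (h : MorseData N B u b) (hmp : MeasurePreserving T μ μ)
    (hT : Towers μ T N u pos sg P)
    (hK : ∀ k, Kills (Nat.unpair k).1 (Nat.unpair k).2 (N k) (u k) (B k) (b k))
    {d : ℕ} (hd : 0 < d) {H : Type} [TopologicalSpace H] (I : ModelWithCorners ℝ (E d) H)
    (hI : ∀ R : ℝ, ∃ C : ℝ, ∀ ρ : ℝ, 0 < ρ →
      volume {y ∈ range I ∩ closedBall 0 R | ¬ ball y ρ ⊆ range I} ≤ ENNReal.ofReal (C * ρ))
    {M : Type} [TopologicalSpace M] [T2Space M] [CompactSpace M] [ChartedSpace H M]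
    [IsManifold I ∞ M] [MeasurableSpace M] [BorelSpace M] (ν : Measure M)
    [IsProbabilityMeasure ν] (hν : HasSmoothPositiveDensity I ν) (S : Diffeomorph I I M M ∞)
    (hS : MeasurePreserving S ν ν) : ¬ AreMeasConjugate μ T ν S := by
  rintro ⟨X₀, M₀, F, G, -, -, h0, -, hbT, -, hF, hG, -, hGF, hmap, hc⟩
  obtain ⟨L, Ψ, S', A, hΨ, hS', hflat⟩ := flatten hd I hI ν hν S hS
  have hP : Measurable P := by
    have : P = fun x => xor (sg 0 x) (u 0 (pos 0 x)) := funext (hT.P_eq 0)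
    rw [this]
    exact (measurable_of_countable (fun q : Bool × ℕ => xor q.1 (u 0 q.2))).comp
      ((hT.meas_sg 0).prodMk (hT.meas_pos 0))
  obtain ⟨Q, hQ, hQΨ⟩ := hΨ.exists_measurable_extend (hP.comp hG) (fun _ => ⟨false⟩)
  obtain ⟨L', Y, hflat', hY⟩ := hflat.label Q hQ (1 / 10000) (by norm_num)
  have hmap' : ν.map Ψ = μ.map (Ψ ∘ F) := by
    rw [← hmap, Measure.map_map hΨ.measurable hF]
  rw [hmap'] at hflat' hY
  have hΨF : Measurable (Ψ ∘ F) := hΨ.measurable.comp hF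
  have hk := hK (Nat.pair d L')
  simp only [Nat.unpair_pair] at hk
  set k := Nat.pair d L'
  refine hk X μ T (pos (k + 1)) (sg (k + 1)) P hmp (hT.meas_pos _) (hT.meas_sg _)
    (fun x => h.N_succ k ▸ hT.pos_lt _ x) (fun x => h.N_succ k ▸ hT.pos_T _ x)
    (fun x hx => hT.sg_T _ x (by rwa [h.N_succ k])) (fun x => by rw [hT.P_eq (k + 1), h.u_succ])
    S' Y A (Ψ ∘ F) X₀ hΨF hflat' h0 hbT.mapsTo
    (fun x hx => by simp only [Function.comp, hS', hc x hx]) ?_
  have : IsProbabilityMeasure (μ.map (Ψ ∘ F)) := Measure.isProbabilityMeasure_map hΨF.aemeasurable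
  refine le_trans ?_ hY
  calc μ.real {x | Y ((Ψ ∘ F) x) ≠ P x}
      ≤ μ.real ((Ψ ∘ F) ⁻¹' {y | Y y ≠ Q y} ∪ X₀ᶜ) := by
        refine measureReal_mono fun x hx => ?_
        by_cases hx0 : x ∈ X₀
        · left
          have : Q (Ψ (F x)) = P x := by
            have := congrFun hQΨ (F x)
            simp only [Function.comp] at this
            rw [this, hGF x hx0]
          simpa [this] using hx
        · exact Or.inr hx0
    _ ≤ μ.real ((Ψ ∘ F) ⁻¹' {y | Y y ≠ Q y}) + μ.real X₀ᶜ := measureReal_union_le _ _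
    _ = μ.real ((Ψ ∘ F) ⁻¹' {y | Y y ≠ Q y}) := by simp [Measure.real, h0]
    _ ≤ _ := ENNReal.toReal_mono (measure_ne_top _ _) (Measure.le_map_apply hΨF.aemeasurable _)

theorem not_conj_zero {X : Type} [MeasurableSpace X] {μ : Measure X} [IsProbabilityMeasure μ]
    [NullSingletonClass μ] {T : X → X}
    {M : Type} [TopologicalSpace M] [CompactSpace M] [ChartedSpace (E 0) M]
    [MeasurableSpace M] (ν : Measure M) (S : M → M) : ¬ AreMeasConjugate μ T ν S := by
  rintro ⟨X₀, M₀, F, G, -, -, h0, -, -, -, -, -, hbF, -, -, -⟩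
  have hdisc : DiscreteTopology M := by
    refine discreteTopology_iff_isOpen_singleton.2 fun x => ?_
    have : (chartAt (E 0) x).source = {x} := by
      ext y
      constructor
      · intro hy
        exact (chartAt (E 0) x).injOn hy (mem_chart_source _ x) (Subsingleton.elim _ _)
      · rintro rfl
        exact mem_chart_source _ _
    rw [← this]
    exact (chartAt (E 0) x).open_source
  have hfin : Finite M := finite_of_compact_of_discrete
  have hX : X₀.Finite := Set.Finite.of_injOn hbF.mapsTo hbF.injOn (toFinite _)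
  have h1 : μ X₀ = 0 := hX.measure_zero μ
  have : μ univ = 0 := by
    rw [← union_compl_self X₀]
    exact measure_union_null h1 h0
  simp at this

theorem main :
    ∃ (X : Type) (_ : MeasurableSpace X) (μ : Measure X) (T : X ≃ᵐ X),
      IsProbabilityMeasure μ ∧ IsStandardProbability μ ∧ MeasurePreserving T μ μ ∧
      Ergodic T μ ∧ HasZeroEntropy μ T ∧ NoSmoothPositiveVolumeModel μ T := by
  obtain ⟨N, B, u, b, h, hK⟩ := exists_data
  obtain ⟨X, mX, μ, T, pos, sg, P, hsb, hprob, hmp, hT⟩ := exists_towers h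
  have := hT.nullSingleton h
  refine ⟨X, mX, μ, T, hprob, isStandard_of_null μ, hmp, hT.ergodic h hmp,
    hT.zeroEntropy h hmp, ?_, ?_⟩
  · intro d M _ _ _ _ _ _ _ ν S hν hdens hS
    rcases Nat.eq_zero_or_pos d with rfl | hd
    · exact not_conj_zero ν S
    · refine not_conj_pos h hmp hT hK hd (𝓡 d) (fun R => ⟨0, fun ρ _ => ?_⟩) ν hdens S hS
      simp
  · intro d M _ _ _ _ _ _ _ ν S hν hdens hS
    exact not_conj_pos h hmp hT hK (Nat.succ_pos d) (𝓡∂ (d + 1)) (halfSpace_strip d) ν hdens S hS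

end Crest.Agent.R133
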