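import Crest.Agent.R133.Defs

set_option autoImplicit false

open MeasureTheory Metric Set Crest.AnalysisR
open scoped ENNReal Manifold ContDiff Topology

namespace Crest.Agent.R133

/-- Shears preserve Lebesgue measure. -/
theorem shear {d : ℕ} (g : ℕ → E d → E d) (hg : ∀ t, Measurable (g t)) (n : ℕ) :
    MeasurePreserving
      (fun u : Fin (n + 1) → E d => (u 0, fun t : Fin n => u t.succ - g t (u t.castSucc)))
      volume ((volume : Measure (E d)).prod (volume : Measure (Fin n → E d))) := by
  induction n generalizing g with
  | zero =>
    have h := volume_preserving_piFinSuccAbove (fun _ : Fin 1 => E d) 0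
    have e : (fun u : Fin (0 + 1) → E d =>
        (u 0, fun t : Fin 0 => u t.succ - g t (u t.castSucc))) =
        MeasurableEquiv.piFinSuccAbove (fun _ : Fin 1 => E d) 0 := by
      funext u
      refine Prod.ext rfl ?_
      funext t
      exact t.elim0
    rw [e]
    exact h
  | succ n ih =>
    have h1 := volume_preserving_piFinSuccAbove (fun _ : Fin (n + 2) => E d) 0
    have h2 := (MeasurePreserving.id (volume : Measure (E d))).prod
      (ih (fun t => g (t + 1)) fun t => hg (t + 1))
    have h3 : MeasurePreserving
        (fun p : E d × (E d × (Fin n → E d)) => (p.1, (p.2.1 - g 0 p.1, p.2.2)))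
        ((volume : Measure (E d)).prod
          ((volume : Measure (E d)).prod (volume : Measure (Fin n → E d))))
        ((volume : Measure (E d)).prod
          ((volume : Measure (E d)).prod (volume : Measure (Fin n → E d)))) := by
      refine (MeasurePreserving.id (volume : Measure (E d))).skew_product
        (g := fun a (q : E d × (Fin n → E d)) => (q.1 - g 0 a, q.2)) ?_
        (Filter.Eventually.of_forall fun a => ?_)
      · exact ((measurable_fst.comp measurable_snd).sub ((hg 0).comp measurable_fst)).prodMk
          (measurable_snd.comp measurable_snd)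
      · exact ((measurePreserving_sub_right (volume : Measure (E d)) (g 0 a)).prod
          (MeasurePreserving.id (volume : Measure (Fin n → E d)))).map_eq
    have h4 := (MeasurePreserving.id (volume : Measure (E d))).prod
      (volume_preserving_piFinSuccAbove (fun _ : Fin (n + 1) => E d) 0).symm
    have h := h4.comp (h3.comp (h2.comp h1))
    have e : (fun u : Fin (n + 1 + 1) → E d =>
        (u 0, fun t : Fin (n + 1) => u t.succ - g t (u t.castSucc))) =
        Prod.map id (MeasurableEquiv.piFinSuccAbove (fun _ : Fin (n + 1) => E d) 0).symm ∘
          (fun p : E d × (E d × (Fin n → E d)) => (p.1, (p.2.1 - g 0 p.1, p.2.2))) ∘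
          (Prod.map id fun u : Fin (n + 1) → E d =>
            (u 0, fun t : Fin n => u t.succ - g (t + 1) (u t.castSucc))) ∘
          MeasurableEquiv.piFinSuccAbove (fun _ : Fin (n + 2) => E d) 0 := by
      funext u
      refine Prod.ext rfl ?_
      funext t
      refine Fin.cases ?_ (fun t => ?_) t
      · rfl
      · rfl
    rw [e]
    exact h

end Crest.Agent.R133
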