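import Crest.Agent.R133.Defs
import Crest.Agent.Lib.Transport.Basic

set_option autoImplicit false

open MeasureTheory Metric Set Crest.AnalysisR
open scoped ENNReal Manifold ContDiff Topology

namespace Crest.Agent.R133

/-- An atomless probability measure on a standard Borel space is standard.
Sketch: `e = embeddingReal X`, `m = μ.map e`, `c = cdf m` continuous, `(m.map c) = volume`
(see `Crest.Agent.Lib.Transport.measure_cdf_le`, `exists_map_eq_volume`). The set `Z` of levels
`t` with `c ⁻¹' {t}` not subsingleton is countable (disjoint intervals) and each `c ⁻¹' {t}` is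
`m`-null. `X₀ = {x | c (e x) ∉ Z}`, `F = c ∘ e` is injective on `X₀`, `Y₀ = F '' X₀` is measurable
(`MeasurableSet.image_of_measurable_injOn`), `G` a measurable extension of the inverse
(restrict `F` to `X₀`: measurable embedding; `MeasurableEmbedding.measurable_extend`). -/
theorem isStandard_of_null {X : Type} [MeasurableSpace X] [StandardBorelSpace X]
    (μ : Measure X) [IsProbabilityMeasure μ] [NullSingletonClass μ] :
    IsStandardProbability μ := by
  classical
  have he := measurableEmbedding_embeddingReal X
  set m := μ.map (embeddingReal X) with hm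
  have : IsProbabilityMeasure m := Measure.isProbabilityMeasure_map he.measurable.aemeasurable
  have : NullSingletonClass m := by
    constructor
    intro x
    rw [hm, he.map_apply]
    exact (Set.subsingleton_singleton.preimage he.injective).measure_zero μ
  have hc := Lib.Transport.continuous_cdf_of_null m
  let c : ℝ → unitInterval := fun x =>
    ⟨ProbabilityTheory.cdf m x, ProbabilityTheory.cdf_nonneg m x, ProbabilityTheory.cdf_le_one m x⟩
  have hcm : Measurable c := hc.measurable.subtype_mk
  have hmono : Monotone c := fun x y h => ProbabilityTheory.monotone_cdf m h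
  let F : X → unitInterval := c ∘ embeddingReal X
  have hF : Measurable F := hcm.comp he.measurable
  have hmap : μ.map F = volume := by
    rw [← Measure.map_map hcm he.measurable, ← hm]
    have : IsProbabilityMeasure (m.map c) := Measure.isProbabilityMeasure_map hcm.aemeasurable
    refine Measure.ext_of_Iic _ _ fun t => ?_
    rw [Measure.map_apply hcm measurableSet_Iic, unitInterval.volume_Iic]
    exact Lib.Transport.measure_cdf_le m t t.2.1 t.2.2
  set Z : Set unitInterval := {t | ∃ x y, x < y ∧ c x = t ∧ c y = t} with hZ
  have hZc : Z.Countable := hmono.countable_setOfPred_two_preimages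
  have hZm : MeasurableSet Z := hZc.measurableSet
  have hX₀ : MeasurableSet (F ⁻¹' Zᶜ) := hF hZm.compl
  have hnull : μ (F ⁻¹' Zᶜ)ᶜ = 0 := by
    rw [← Set.preimage_compl, compl_compl, ← Measure.map_apply hF hZm, hmap]
    exact hZc.measure_zero _
  have hinj : Set.InjOn F (F ⁻¹' Zᶜ) := by
    intro x hx y _ hxy
    apply he.injective
    by_contra hne
    rcases lt_or_gt_of_ne hne with h | h
    · exact hx ⟨_, _, h, rfl, hxy.symm⟩
    · exact hx ⟨_, _, h, hxy.symm, rfl⟩
  have hY₀ : MeasurableSet (F '' (F ⁻¹' Zᶜ)) := hX₀.image_of_measurable_injOn hF hinj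
  have : Nonempty X := nonempty_of_isProbabilityMeasure μ
  have := hX₀.standardBorel
  have hemb : MeasurableEmbedding (fun x : (F ⁻¹' Zᶜ : Set X) => F x) :=
    (hF.comp measurable_subtype_coe).measurableEmbedding
      fun x y h => Subtype.ext (hinj x.2 y.2 h)
  refine ⟨F ⁻¹' Zᶜ, F '' (F ⁻¹' Zᶜ), F,
    Function.extend (fun x : (F ⁻¹' Zᶜ : Set X) => F x) Subtype.val
      (fun _ => Classical.arbitrary X),
    hX₀, hY₀, hnull, ?_, hF, hemb.measurable_extend measurable_subtype_coe measurable_const,
    hinj.bijOn_image, fun x hx => ?_, hmap⟩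
  · rw [← hmap, Measure.map_apply hF hY₀.compl]
    refine measure_mono_null (fun x hx => ?_) hnull
    exact fun hx' => hx ⟨x, hx', rfl⟩
  · exact hemb.injective.extend_apply Subtype.val _ ⟨x, hx⟩

end Crest.Agent.R133
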