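import Crest.Agent.R133.Upper
import Crest.Agent.R133.Lower

set_option autoImplicit false

open MeasureTheory Metric Set Crest.AnalysisR
open scoped ENNReal Manifold ContDiff Topology

namespace Crest.Agent.R133

/-- noisy orbits of `S'` starting in the ball of radius `R` that read the word `w` -/
def tubeSet {d : ℕ} (n : ℕ) (R σ : ℝ) (S' : E d → E d) (Y' : E d → Bool) (w : Fin n → Bool) :
    Set (Fin (n + 1) → E d) :=
  {u | (‖u 0‖ ≤ R ∧ ∀ t : Fin n, ‖u t.succ - S' (u t.castSucc)‖ ≤ σ) ∧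
    ∀ t : Fin n, Y' (u t.castSucc) = w t}

lemma tube_measurableSet_noise {d : ℕ} (n : ℕ) (σ : ℝ) {S' : E d → E d} (hS' : Measurable S') :
    MeasurableSet {u : Fin (n + 1) → E d | ∀ t : Fin n, ‖u t.succ - S' (u t.castSucc)‖ ≤ σ} := by
  rw [Set.ofPred_forall]
  refine MeasurableSet.iInter fun t => measurableSet_le ?_ measurable_const
  exact ((measurable_pi_apply t.succ).sub (hS'.comp (measurable_pi_apply t.castSucc))).norm

lemma tube_sum {d : ℕ} (n : ℕ) (R σ : ℝ) {S' : E d → E d} (hS' : Measurable S') {Y' : E d → Bool}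
    (hY' : Measurable Y') :
    ∑ w, volume (tubeSet n R σ S' Y' w) ≤
      volume (closedBall (0 : E d) R) * volume (closedBall (0 : E d) σ) ^ n := by
  set Ω : Set (Fin (n + 1) → E d) :=
    {u | ‖u 0‖ ≤ R ∧ ∀ t : Fin n, ‖u t.succ - S' (u t.castSucc)‖ ≤ σ} with hΩ
  have hΩm : MeasurableSet Ω :=
    (measurableSet_le (measurable_pi_apply (0 : Fin (n + 1))).norm measurable_const).inter
      (tube_measurableSet_noise n σ hS')
  have h1 : volume Ω = volume (closedBall (0 : E d) R) * volume (closedBall (0 : E d) σ) ^ n := by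
    have hm : MeasurableSet ((closedBall (0 : E d) R) ×ˢ
        (Set.univ.pi fun _ : Fin n => closedBall (0 : E d) σ)) :=
      measurableSet_closedBall.prod (MeasurableSet.univ_pi fun _ => measurableSet_closedBall)
    have := (shear (fun _ => S') (fun _ => hS') n).measure_preimage hm.nullMeasurableSet
    rw [Measure.prod_prod, volume_pi_pi, Finset.prod_const, Finset.card_univ, Fintype.card_fin]
      at this
    rw [← this]
    congr 1
    ext u
    simp [hΩ]
  rw [← h1]
  have hm : ∀ w, MeasurableSet (tubeSet n R σ S' Y' w) := fun w => by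
    refine hΩm.inter ?_
    change MeasurableSet {u : Fin (n + 1) → E d | ∀ t : Fin n, Y' (u t.castSucc) = w t}
    rw [Set.ofPred_forall]
    exact MeasurableSet.iInter fun t =>
      (hY'.comp (measurable_pi_apply t.castSucc)) (measurableSet_singleton (w t))
  rw [← measure_biUnion_finset (fun w _ w' _ hne => ?_) (fun w _ => hm w)]
  · exact measure_mono (iUnion₂_subset fun w _ u hu => hu.1)
  · exact Set.disjoint_left.2 fun u h h' => hne (funext fun t => (h.2 t).symm.trans (h'.2 t))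

lemma tube_core {d L n K : ℕ} {ν : Measure (E d)} {S : E d → E d} {Y : E d → Bool}
    {A : E d → (E d →L[ℝ] E d)} (hF : Flat d L ν S Y A) (q : E d → Fin K) (c : Fin K → E d)
    (hq : Measurable q) {ρ η σ σ' G : ℝ} (hqc : ∀ u, ‖u‖ ≤ 3 * L + 1 → ‖u - c (q u)‖ ≤ η)
    (hρ0 : 0 < ρ) (hρ1 : ρ ≤ 1) (hη : η ≤ ρ / 2) (hσ' : 0 ≤ σ')
    (h1 : σ' + (2 * L + 1) * η + L * ρ * (ρ / 7) ≤ σ) (h2 : G * σ' ≤ ρ / 7 / 2)
    (hsmall : G * (L * ρ) * ((n + 1) * d + 6) ≤ 1 / 2) (w : Fin n → Bool) :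
    volume (closedBall (0 : E d) σ') ^ n *
      ν ({x | Green (fun t => A (S^[t] x)) n G ∧
          ∀ t ≤ n, S^[t] x ∈ Reg S Y A L ρ ∩ closedBall 0 L} ∩ {x | word Y S n x = w}) ≤
      L * (2 * ENNReal.ofReal (28 ^ d)) *
        volume (tubeSet n (L + 1) σ (fun y => c (q (S (c (q y))))) (fun y => Y (c (q y))) w) := by
  set Gw := {x | Green (fun t => A (S^[t] x)) n G ∧
    ∀ t ≤ n, S^[t] x ∈ Reg S Y A L ρ ∩ closedBall 0 L} ∩ {x | word Y S n x = w} with hGw
  set S' : E d → E d := fun y => c (q (S (c (q y)))) with hS'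
  have hS'm : Measurable S' := (measurable_from_top (f := fun i => c (q (S (c i))))).comp hq
  set r := ρ / 7 with hr
  have hr0 : 0 < r := by positivity
  have hL : (0 : ℝ) ≤ L := Nat.cast_nonneg L
  set o : E d → (Fin (n + 1) → E d) := fun x t => S^[t] x with ho
  obtain ⟨U, hU, hdisj, hcov⟩ := Vitali.exists_disjoint_subfamily_covering_enlargement_closedBall
    Gw o (fun _ => r) r (fun _ _ => le_rfl) 5 (by norm_num)
  have hUc : U.Countable := hdisj.countable_of_nonempty_interior fun b _ =>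
    (nonempty_ball.2 hr0).mono ball_subset_interior_closedBall
  set V : E d → Set (E d) := fun b => {x | ∀ t ≤ n, ‖S^[t] x - S^[t] b‖ ≤ 5 * r} with hV
  set T : E d → Set (Fin (n + 1) → E d) := fun b =>
    {u | (∀ t, ‖u t - S^[t] b‖ ≤ r) ∧ ∀ t : Fin n, ‖u t.succ - S' (u t.castSucc)‖ ≤ σ} with hT
  have hp : ∀ b, ∀ t < n, S (S^[t] b) = S^[t + 1] b := fun b t _ =>
    (Function.iterate_succ_apply' S t b).symm
  have happ : ∀ b ∈ Gw, ∀ t < n, ∀ y ∈ ball (S^[t] b) ρ, ∀ z ∈ ball (S^[t] b) ρ,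
      ‖S y - S z - A (S^[t] b) (y - z)‖ ≤ L * ρ * ‖y - z‖ := fun b hb t ht =>
    (hb.1.2 t ht.le).1.2
  -- quantised points stay in the regular ball
  have hquant : ∀ b ∈ Gw, ∀ t ≤ n, ∀ y, ‖y - S^[t] b‖ ≤ r →
      ‖y‖ ≤ L + 1 ∧ ‖y - c (q y)‖ ≤ η ∧ y ∈ ball (S^[t] b) ρ ∧ c (q y) ∈ ball (S^[t] b) ρ := by
    intro b hb t ht y hy
    have e1 : ‖S^[t] b‖ ≤ L := mem_closedBall_zero_iff.1 (hb.1.2 t ht).2
    have e2 : ‖y‖ ≤ L + 1 := by
      have := norm_le_norm_add_norm_sub' y (S^[t] b)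
      linarith
    have e3 := hqc y (by linarith)
    refine ⟨e2, e3, by rw [mem_ball_iff_norm]; linarith, ?_⟩
    rw [mem_ball_iff_norm]
    have := norm_sub_le_norm_sub_add_norm_sub (c (q y)) y (S^[t] b)
    rw [norm_sub_rev (c (q y)) y] at this
    linarith
  have hlip : ∀ b ∈ Gw, ∀ t < n, ∀ y ∈ ball (S^[t] b) ρ, ∀ z ∈ ball (S^[t] b) ρ,
      ‖S y - S z‖ ≤ 2 * L * ‖y - z‖ := by
    intro b hb t ht y hy z hz
    have e1 := happ b hb t ht y hy z hz
    have e2 : ‖A (S^[t] b) (y - z)‖ ≤ L * ‖y - z‖ := (A _).le_of_opNorm_le (hF.normA _) _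
    have e3 := norm_le_norm_add_norm_sub' (S y - S z) (A (S^[t] b) (y - z))
    have e4 : L * ρ * ‖y - z‖ ≤ L * ‖y - z‖ :=
      mul_le_mul_of_nonneg_right (mul_le_of_le_one_right hL hρ1) (norm_nonneg _)
    linarith
  have hclose : ∀ b ∈ Gw, ∀ t < n, ∀ y ∈ closedBall (S^[t] b) r, ‖S' y - S y‖ ≤ (2 * L + 1) * η := by
    intro b hb t ht y hy
    obtain ⟨-, e1, e2, e3⟩ := hquant b hb t ht.le y (mem_closedBall_iff_norm.1 hy)
    have e4 := hlip b hb t ht y e2 _ e3
    have e5 := hlip b hb t ht _ e3 _ (mem_ball_self hρ0)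
    have e6 : ‖S (S^[t] b)‖ ≤ L := by
      rw [hp b t ht]; exact mem_closedBall_zero_iff.1 (hb.1.2 (t + 1) ht).2
    have e7 : ‖c (q y) - S^[t] b‖ ≤ 1 := (mem_ball_iff_norm.1 e3).le.trans hρ1
    have e8 : ‖S (c (q y))‖ ≤ 3 * L + 1 := by
      have := norm_le_norm_add_norm_sub' (S (c (q y))) (S (S^[t] b))
      nlinarith
    have e9 := hqc _ e8
    have e10 := norm_sub_le_norm_sub_add_norm_sub (S' y) (S (c (q y))) (S y)
    rw [norm_sub_rev (S' y) (S (c (q y))), norm_sub_rev (S (c (q y))) (S y)] at e10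
    have e11 : 2 * L * ‖y - c (q y)‖ ≤ 2 * L * η := mul_le_mul_of_nonneg_left e1 (by linarith)
    simp only [hS'] at e10 ⊢
    linarith
  have hcover : Gw ⊆ ⋃ b ∈ U, V b := by
    intro x hx
    obtain ⟨b, hb, hsub⟩ := hcov x hx
    refine mem_iUnion₂.2 ⟨b, hb, fun t ht => ?_⟩
    have := hsub (mem_closedBall_self hr0.le)
    rw [mem_closedBall, dist_pi_le_iff (by positivity)] at this
    simpa [ho, dist_eq_norm] using this ⟨t, Nat.lt_succ_of_le ht⟩
  have hone : ∀ b ∈ Gw, volume (closedBall (0 : E d) σ') ^ n * ν (V b) ≤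
      L * (2 * ENNReal.ofReal (28 ^ d)) * volume (T b) := by
    intro b hb
    have e1 := vol_upper S hF.mp.measurable (fun t => S^[t] b) (fun t => A (S^[t] b)) L (L * ρ) ρ r G
      (hp b) (fun t => hF.normA _) (happ b hb) hb.1.1 hr0 (by rw [hr]; linarith) (by positivity)
      hsmall
    have e2 := vol_lower S S' (fun t => S^[t] b) (fun t => A (S^[t] b)) (L * ρ) ρ r G
      ((2 * L + 1) * η) σ σ' (hp b) (happ b hb) (hclose b hb) hb.1.1 hr0 (by rw [hr]; linarith)
      (by positivity) hσ' h1 h2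
    rw [show 14 * r = 28 * (r / 2) by ring, vol_Elin_smul _ _ _ (by norm_num)] at e1
    calc volume (closedBall (0 : E d) σ') ^ n * ν (V b)
        ≤ volume (closedBall (0 : E d) σ') ^ n * (L * (2 * (ENNReal.ofReal (28 ^ d) *
            volume (Elin (fun t => A (S^[t] b)) n (r / 2))))) := by
          gcongr
          exact (hF.dens _).trans (by gcongr)
      _ = L * (2 * ENNReal.ofReal (28 ^ d)) * (volume (closedBall (0 : E d) σ') ^ n *
            volume (Elin (fun t => A (S^[t] b)) n (r / 2))) := by ring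
      _ ≤ _ := by gcongr
  have hTm : ∀ b, MeasurableSet (T b) := fun b => by
    refine MeasurableSet.inter (s₁ := {u : Fin (n + 1) → E d | ∀ t, ‖u t - S^[t] b‖ ≤ r}) ?_
      (tube_measurableSet_noise n σ hS'm)
    rw [Set.ofPred_forall]
    exact MeasurableSet.iInter fun t =>
      measurableSet_le ((measurable_pi_apply t).sub measurable_const).norm measurable_const
  have hTd : U.PairwiseDisjoint T := hdisj.mono fun b u hu => by
    change u ∈ closedBall (o b) r
    rw [mem_closedBall, dist_pi_le_iff hr0.le]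
    intro t
    simpa [ho, dist_eq_norm] using hu.1 t
  have hTs : ∀ b ∈ U, T b ⊆ tubeSet n (L + 1) σ S' (fun y => Y (c (q y))) w := by
    intro b hb u hu
    refine ⟨⟨(hquant b (hU hb) 0 (Nat.zero_le _) _ (by simpa using hu.1 0)).1, hu.2⟩, fun t => ?_⟩
    have e1 := (hquant b (hU hb) t t.2.le (u t.castSucc) (by simpa using hu.1 t.castSucc)).2.2.2
    have e2 := ((hU hb).1.2 t t.2.le).1.1 _ e1
    have e3 : word Y S n b = w := (hU hb).2
    exact e2.trans (congrFun e3 t)
  calc volume (closedBall (0 : E d) σ') ^ n * ν Gw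
      ≤ volume (closedBall (0 : E d) σ') ^ n * ∑' b : U, ν (V b) := by
        gcongr
        exact (measure_mono hcover).trans (measure_biUnion_le ν hUc V)
    _ = ∑' b : U, volume (closedBall (0 : E d) σ') ^ n * ν (V b) := ENNReal.tsum_mul_left.symm
    _ ≤ ∑' b : U, L * (2 * ENNReal.ofReal (28 ^ d)) * volume (T b) :=
        ENNReal.tsum_le_tsum fun b => hone b (hU b.2)
    _ = L * (2 * ENNReal.ofReal (28 ^ d)) * volume (⋃ b ∈ U, T b) := by
        rw [ENNReal.tsum_mul_left, measure_biUnion hUc hTd fun b _ => hTm b]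
    _ ≤ _ := by
        gcongr
        exact iUnion₂_subset hTs

lemma tube_large (θ : ℝ) (hθ : 0 < θ) (M : ℝ) :
    ∃ n₀ : ℕ, ∀ n : ℕ, n₀ ≤ n → 1 ≤ n ∧ M * (n + 1) ≤ Real.exp (θ * n) := by
  obtain ⟨n₀, hn₀⟩ := exists_nat_ge (4 * |M| / θ ^ 2)
  refine ⟨n₀ + 1, fun n hn => ⟨by omega, ?_⟩⟩
  have h1 : (1 : ℝ) ≤ n := by exact_mod_cast (show 1 ≤ n by omega)
  have h2 : (n₀ : ℝ) ≤ n := by exact_mod_cast (show n₀ ≤ n by omega)
  have h3 := Real.quadratic_le_exp_of_nonneg (show 0 ≤ θ * n by positivity)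
  have h4 : 4 * |M| ≤ n * θ ^ 2 := (div_le_iff₀ (by positivity)).1 (hn₀.trans h2)
  have h5 := le_abs_self M
  have h6 := abs_nonneg M
  have h7 : 0 ≤ θ * n := by positivity
  nlinarith [mul_le_mul_of_nonneg_right h4 (show (0 : ℝ) ≤ n by linarith)]

/-- Domination of the itinerary law on orbits with a small Green operator.

Sketch. `ρ = exp (-3θn)`, `r = ρ/7`, `σ = exp (-5θn)`, `σ' = σ (1 - 1/n)`, `η = exp (-6θn)`,
`G = exp (θ n)`, `κ = L ρ`. Quantiser `(K, q, c)` of the ball of radius `R₀ = 3 L + 2` (say).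
For tables `g : Fin K → Fin K`, `lab : Fin K → Bool` let `ν' w` be the volume of
`{u | ‖u 0‖ ≤ L + 1, ‖u (t+1) - c (g (q (u t)))‖ ≤ σ, lab (q (u t)) = w t}` divided by
`vol (closedBall 0 (L+1)) * vol (closedBall 0 σ) ^ n` (total mass one by `shear`); `𝓕 n` is the
image of all tables, `# ≤ K^K 2^K ≤ exp (2 K^2) ≤ exp (exp (13 (d+1) θ n))` for large `n`.
Given a flat system take `g i = q (S (c i))`, `lab i = Y (c i)`; then `S' = c ∘ g ∘ q` is
`(L + L ρ + 1) η`-close to `S` near good orbits. Apply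
`Vitali.exists_disjoint_subfamily_covering_enlargement_closedBall` in `Fin (n+1) → E d` (sup
metric) to the balls of radius `r` about the orbit vectors of the good points with word `w`:
a countable disjoint subfamily; the good points are covered by the sets of `vol_upper`, so
`ν (good ∩ word = w) ≤ ∑ L * 2 * 28^d * vol (Elin (r/2))`, and by `vol_lower` and disjointness
`∑ vol (closedBall σ')^n vol (Elin (r/2)) ≤ vol {…, word = w}`; `(σ/σ')^(n d) ≤ 4^d`.
`D = 2 L 112^d vol (closedBall 0 (L+1))`. -/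
theorem tube_dom (d L : ℕ) : ∃ D : ℝ, 0 ≤ D ∧ ∀ θ : ℝ, 0 < θ →
    ∃ (n₀ : ℕ) (𝓕 : (n : ℕ) → Finset ((Fin n → Bool) → ℝ)),
      (∀ n, ∀ ν' ∈ 𝓕 n, IsSubProb ν') ∧
      (∀ n, n₀ ≤ n → ((𝓕 n).card : ℝ) ≤ Real.exp (Real.exp (13 * (d + 1) * θ * n))) ∧
      ∀ (ν : Measure (E d)) (S : E d → E d) (Y : E d → Bool) (A : E d → (E d →L[ℝ] E d)),
        Flat d L ν S Y A → ∀ n, n₀ ≤ n → ∃ ν' ∈ 𝓕 n, ∀ w,
          ν.real ({x | Green (fun t => A (S^[t] x)) n (Real.exp (θ * n)) ∧
              ∀ t ≤ n, S^[t] x ∈ Reg S Y A L (Real.exp (-3 * θ * n)) ∩ closedBall 0 L} ∩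
            {x | word Y S n x = w}) ≤ D * ν' w := by
  classical
  have hL : (0 : ℝ) ≤ L := Nat.cast_nonneg L
  have hd : (0 : ℝ) ≤ d := Nat.cast_nonneg d
  set V : ℝ := volume.real (closedBall (0 : E d) (L + 1)) with hV
  have hVpos : 0 < V := ENNReal.toReal_pos
    (measure_closedBall_pos volume _ (by positivity)).ne' measure_closedBall_lt_top.ne
  refine ⟨L * (2 * 28 ^ d) * (3 ^ d * V), by positivity, fun θ hθ => ?_⟩
  set C : ℝ := 2 * (3 * L + 1) * (d + 1) + 2 with hC
  have hC0 : 0 ≤ C := by positivity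
  obtain ⟨n₀, hn₀⟩ := tube_large θ hθ (2 * L * (d + 6) + (3 * L + 1) + 14 + 2 * (C ^ d) ^ 2)
  choose K q c hq hK hqc using fun n : ℕ =>
    exists_quant d (3 * L + 1) (Real.exp (-θ * n) ^ 6) (by positivity) (by positivity)
  set σ : ℕ → ℝ := fun n => Real.exp (-θ * n) ^ 5 * (1 + 1 / n) with hσ
  have hσ0 : ∀ n, 0 < σ n := fun n => by simp only [hσ]; positivity
  set law : (n : ℕ) → ((Fin (K n) → Fin (K n)) × (Fin (K n) → Bool)) → (Fin n → Bool) → ℝ :=
    fun n τ w => volume.real (tubeSet n (L + 1) (σ n) (fun y => c n (τ.1 (q n y)))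
      (fun y => τ.2 (q n y)) w) / (V * volume.real (closedBall (0 : E d) (σ n)) ^ n) with hlaw
  have hsum : ∀ n (τ : (Fin (K n) → Fin (K n)) × (Fin (K n) → Bool)),
      ∑ w, volume (tubeSet n (L + 1) (σ n) (fun y => c n (τ.1 (q n y))) (fun y => τ.2 (q n y)) w) ≤
        volume (closedBall (0 : E d) (L + 1)) * volume (closedBall (0 : E d) (σ n)) ^ n :=
    fun n τ => tube_sum n _ _ ((measurable_from_top (f := fun i => c n (τ.1 i))).comp (hq n))
      ((measurable_from_top (f := τ.2)).comp (hq n))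
  have hfin : ∀ n, volume (closedBall (0 : E d) (L + 1)) *
      volume (closedBall (0 : E d) (σ n)) ^ n ≠ ⊤ := fun n =>
    ENNReal.mul_ne_top measure_closedBall_lt_top.ne (ENNReal.pow_ne_top measure_closedBall_lt_top.ne)
  have hfin' : ∀ n (τ : (Fin (K n) → Fin (K n)) × (Fin (K n) → Bool)) w,
      volume (tubeSet n (L + 1) (σ n) (fun y => c n (τ.1 (q n y))) (fun y => τ.2 (q n y)) w) ≠ ⊤ :=
    fun n τ w => ne_top_of_le_ne_top (hfin n)
      ((Finset.single_le_sum (f := fun w => volume (tubeSet n (L + 1) (σ n)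
        (fun y => c n (τ.1 (q n y))) (fun y => τ.2 (q n y)) w)) (fun _ _ => zero_le)
        (Finset.mem_univ w)).trans (hsum n τ))
  refine ⟨n₀, fun n => Finset.univ.image (law n), ?_, ?_, ?_⟩
  · intro n ν' hν'
    obtain ⟨τ, -, rfl⟩ := Finset.mem_image.1 hν'
    refine ⟨fun w => by simp only [hlaw]; positivity, ?_⟩
    simp only [hlaw]
    rw [← Finset.sum_div]
    refine div_le_one_of_le₀ ?_ (by positivity)
    have := ENNReal.toReal_mono (hfin n) (hsum n τ)
    rw [ENNReal.toReal_sum (fun w _ => hfin' n τ w), ENNReal.toReal_mul, ENNReal.toReal_pow] at this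
    exact this
  · intro n hn
    obtain ⟨hn1, hx⟩ := hn₀ n hn
    have hn1' : (1 : ℝ) ≤ n := by exact_mod_cast hn1
    set x := Real.exp (θ * n) with hxdef
    have hx1 : 1 ≤ x := Real.one_le_exp (by positivity)
    have hK1 : (K n : ℝ) ≤ C ^ d * (x ^ 6) ^ d := by
      refine (hK n).trans ?_
      rw [← mul_pow]
      refine pow_le_pow_left₀ (by positivity) ?_ d
      rw [neg_mul, Real.exp_neg, inv_pow, div_inv_eq_mul, hC]
      have := one_le_pow₀ (n := 6) hx1
      nlinarith
    have hK2 : 2 * (K n : ℝ) ^ 2 ≤ Real.exp (13 * (d + 1) * θ * n) := by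
      have e1 : 2 * (C ^ d) ^ 2 ≤ x := by
        have : 0 ≤ 2 * L * (d + 6) + (3 * L + 1) + 14 + 2 * (C ^ d) ^ 2 := by positivity
        have : 0 ≤ 2 * (L : ℝ) * (d + 6) := by positivity
        nlinarith
      have e2 : Real.exp (13 * (d + 1) * θ * n) = x ^ (13 * (d + 1)) := by
        rw [hxdef, ← Real.exp_nat_mul]; congr 1; push_cast; ring
      have e3 : (K n : ℝ) ^ 2 ≤ (C ^ d * (x ^ 6) ^ d) ^ 2 := pow_le_pow_left₀ (by positivity) hK1 2
      calc 2 * (K n : ℝ) ^ 2 ≤ 2 * (C ^ d) ^ 2 * x ^ (12 * d) := by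
            rw [mul_pow, ← pow_mul, ← pow_mul, ← pow_mul, show 6 * (d * 2) = 12 * d by ring] at e3
            rw [← pow_mul]
            linarith
        _ ≤ x * x ^ (12 * d) := by gcongr
        _ = x ^ (12 * d + 1) := by ring
        _ ≤ x ^ (13 * (d + 1)) := pow_le_pow_right₀ hx1 (by omega)
        _ = _ := e2.symm
    calc ((Finset.univ.image (law n)).card : ℝ)
        ≤ (Fintype.card ((Fin (K n) → Fin (K n)) × (Fin (K n) → Bool)) : ℝ) := by
          exact_mod_cast Finset.card_image_le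
      _ = (2 * K n : ℝ) ^ K n := by
          simp only [Fintype.card_prod, Fintype.card_fun, Fintype.card_fin, Fintype.card_bool]
          push_cast
          ring
      _ ≤ Real.exp (2 * K n) ^ K n := by
          gcongr
          linarith [Real.add_one_le_exp (2 * (K n : ℝ))]
      _ = Real.exp (2 * (K n : ℝ) ^ 2) := by rw [← Real.exp_nat_mul]; congr 1; ring
      _ ≤ _ := Real.exp_le_exp.2 hK2
  · intro ν S Y A hF n hn
    obtain ⟨hn1, hx⟩ := hn₀ n hn
    have hn1' : (1 : ℝ) ≤ n := by exact_mod_cast hn1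
    refine ⟨law n (fun i => q n (S (c n i)), fun i => Y (c n i)),
      Finset.mem_image_of_mem _ (Finset.mem_univ _), fun w => ?_⟩
    set x := Real.exp (θ * n) with hxdef
    set y := Real.exp (-θ * n) with hydef
    have hxy : x * y = 1 := by rw [hxdef, hydef, ← Real.exp_add]; simp
    have hy0 : 0 < y := Real.exp_pos _
    have hx0 : 0 < x := Real.exp_pos _
    have hρ : Real.exp (-3 * θ * n) = y ^ 3 := by
      rw [hydef, ← Real.exp_nat_mul]; congr 1; push_cast; ring
    have hCd : 0 ≤ 2 * (C ^ d) ^ 2 := by positivity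
    have hLd : 0 ≤ 2 * (L : ℝ) * (d + 6) := by positivity
    have hM : ∀ m : ℝ, m ≤ 2 * L * (d + 6) + (3 * L + 1) + 14 + 2 * (C ^ d) ^ 2 →
        m * (n + 1) * y ≤ 1 := fun m hm => by
      refine le_trans (mul_le_mul_of_nonneg_right (le_trans ?_ hx) hy0.le) hxy.le
      exact mul_le_mul_of_nonneg_right hm (by positivity)
    have a1 := hM (2 * L * (d + 6)) (by linarith)
    have a2 := hM (3 * L + 1) (by linarith)
    have a3 := hM 14 (by linarith)
    have hy14 : 14 * y ≤ 1 := by nlinarith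
    have hy1 : y ≤ 1 := by linarith
    have hy3 : y ^ 3 ≤ y := by
      calc y ^ 3 ≤ y ^ 1 := pow_le_pow_of_le_one hy0.le hy1 (by norm_num)
        _ = y := pow_one y
    have core := tube_core (n := n) hF (q n) (c n) (hq n) (ρ := y ^ 3) (η := y ^ 6) (σ := σ n)
      (σ' := y ^ 5) (G := x) (hqc n) (by positivity) (by linarith)
      (by nlinarith [pow_pos hy0 3]) (by positivity)
      (by
        simp only [hσ]
        rw [← hydef]
        have b1 : (3 * L + 1) * y ≤ 1 / n := by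
          rw [le_div_iff₀ (by positivity)]
          nlinarith [mul_nonneg (show (0 : ℝ) ≤ 3 * L + 1 by positivity) hy0.le]
        have b2 := mul_le_mul_of_nonneg_left b1 (pow_pos hy0 5).le
        nlinarith [mul_nonneg hL (pow_pos hy0 6).le])
      (by
        have : x * y ^ 5 = y ^ 3 * y := by
          calc x * y ^ 5 = (x * y) * (y ^ 3 * y) := by ring
            _ = _ := by rw [hxy, one_mul]
        rw [this]
        nlinarith [pow_pos hy0 3])
      (by
        have : x * (L * y ^ 3) = L * y * y := by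
          calc x * (L * y ^ 3) = (x * y) * (L * y * y) := by ring
            _ = _ := by rw [hxy, one_mul]
        rw [this]
        have b1 : L * y * y * ((n + 1) * d + 6) ≤ L * y * 1 * ((n + 1) * (d + 6)) := by
          gcongr
          nlinarith
        nlinarith) w
    rw [hρ]
    have hT := hfin' n (fun i => q n (S (c n i)), fun i => Y (c n i)) w
    have core' := ENNReal.toReal_mono (ENNReal.mul_ne_top (ENNReal.mul_ne_top
      (ENNReal.natCast_ne_top L) (ENNReal.mul_ne_top ENNReal.ofNat_ne_top ENNReal.ofReal_ne_top))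
      hT) core
    simp only [ENNReal.toReal_mul, ENNReal.toReal_pow, ENNReal.toReal_natCast,
      ENNReal.toReal_ofNat, ENNReal.toReal_ofReal (show (0 : ℝ) ≤ 28 ^ d by positivity)] at core'
    simp only [hlaw]
    set a := volume.real (closedBall (0 : E d) (y ^ 5)) with ha
    set b := volume.real (closedBall (0 : E d) (σ n)) with hb
    have hapos : 0 < a := ENNReal.toReal_pos
      (measure_closedBall_pos volume _ (by positivity)).ne' measure_closedBall_lt_top.ne
    have hbpos : 0 < b := ENNReal.toReal_pos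
      (measure_closedBall_pos volume _ (hσ0 n)).ne' measure_closedBall_lt_top.ne
    have hab : b ^ n ≤ 3 ^ d * a ^ n := by
      have e1 : b = (1 + 1 / n) ^ d * a := by
        rw [ha, hb, Measure.addHaar_real_closedBall' _ _ (hσ0 n).le,
          Measure.addHaar_real_closedBall' _ _ (pow_pos hy0 5).le]
        simp only [hσ, finrank_euclideanSpace_fin]
        rw [← hydef, mul_pow]
        ring
      have e2 : (1 + 1 / n : ℝ) ^ n ≤ 3 := by
        calc (1 + 1 / n : ℝ) ^ n ≤ Real.exp (1 / n) ^ n := by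
              gcongr
              linarith [Real.add_one_le_exp (1 / (n : ℝ))]
          _ = Real.exp 1 := by
              rw [← Real.exp_nat_mul]; congr 1; field_simp
          _ ≤ 3 := by linarith [Real.exp_one_lt_d9]
      rw [e1, mul_pow, ← pow_mul, mul_comm d n, pow_mul]
      gcongr
    change a ^ n * ν.real _ ≤ L * (2 * 28 ^ d) * volume.real _ at core'
    set t := volume.real (tubeSet n (L + 1) (σ n) (fun y => c n (q n (S (c n (q n y)))))
      (fun y => Y (c n (q n y))) w) with ht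
    have ht0 : 0 ≤ t := measureReal_nonneg
    refine le_of_mul_le_mul_left (core'.trans ?_) (pow_pos hapos n)
    rw [show a ^ n * (L * (2 * 28 ^ d) * (3 ^ d * V) * (t / (V * b ^ n))) =
      L * (2 * 28 ^ d) * (t * (3 ^ d * a ^ n / b ^ n)) by field_simp]
    gcongr
    exact le_mul_of_one_le_right ht0 ((one_le_div (pow_pos hbpos n)).2 hab)

end Crest.Agent.R133
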