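import Crest.Agent.R133.Shear

set_option autoImplicit false

open MeasureTheory Metric Set Crest.AnalysisR
open scoped ENNReal Manifold ContDiff Topology

namespace Crest.Agent.R133

/-- A map that contracts distances by at most the factor `K` decreases volume by at most
`K ^ dim`. (Hausdorff measure `μH[finrank]` is an additive Haar measure,
`LipschitzOnWith.hausdorffMeasure_image_le` for the inverse map on the image.) -/
theorem addHaar_le_of_antilipschitz {F : Type*} [NormedAddCommGroup F] [NormedSpace ℝ F]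
    [FiniteDimensional ℝ F] [MeasurableSpace F] [BorelSpace F] (μ : Measure F)
    [μ.IsAddHaarMeasure] (s : Set F) (f : F → F) (K : ℝ) (hK : 0 ≤ K)
    (h : ∀ x ∈ s, ∀ y ∈ s, ‖x - y‖ ≤ K * ‖f x - f y‖) :
    μ s ≤ ENNReal.ofReal (K ^ Module.finrank ℝ F) * μ (f '' s) := by
  classical
  have hg : LipschitzOnWith K.toNNReal (Function.invFunOn f s) (f '' s) := by
    refine LipschitzOnWith.of_dist_le_mul fun y hy z hz => ?_
    have := h _ (Function.invFunOn_mem hy) _ (Function.invFunOn_mem hz)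
    rw [Function.invFunOn_eq hy, Function.invFunOn_eq hz] at this
    rwa [dist_eq_norm, dist_eq_norm, Real.coe_toNNReal _ hK]
  have hs : s ⊆ Function.invFunOn f s '' (f '' s) := by
    intro x hx
    have hy : ∃ a ∈ s, f a = f x := ⟨x, hx, rfl⟩
    refine ⟨f x, ⟨x, hx, rfl⟩, ?_⟩
    have := h _ (Function.invFunOn_mem hy) _ hx
    rw [Function.invFunOn_eq hy, sub_self, norm_zero, mul_zero] at this
    exact sub_eq_zero.1 (norm_le_zero_iff.1 this)
  have h1 := (measure_mono hs).trans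
    (hg.hausdorffMeasure_image_le (d := (Module.finrank ℝ F : ℝ)) (Nat.cast_nonneg _))
  have h2 : ((K.toNNReal : ℝ≥0∞)) ^ ((Module.finrank ℝ F : ℕ) : ℝ) =
      ENNReal.ofReal (K ^ Module.finrank ℝ F) := by
    rw [ENNReal.rpow_natCast, ENNReal.ofReal_pow hK]
    rfl
  rw [h2] at h1
  rw [Measure.isAddLeftInvariant_eq_smul μ μH[(Module.finrank ℝ F : ℝ)]]
  simp only [Measure.smul_apply, ENNReal.smul_def, smul_eq_mul]
  rw [mul_left_comm]
  gcongr

theorem Upper_closed {d n : ℕ} (a : ℕ → (E d →L[ℝ] E d)) (r : ℝ) : IsClosed (Elin a n r) := by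
  have : Elin a n r = ⋂ t, ⋂ _ : t ≤ n, {v | ‖cp a 0 t v‖ ≤ r} := by
    ext v
    simp [Elin]
  rw [this]
  exact isClosed_iInter fun t => isClosed_iInter fun _ =>
    isClosed_le (cp a 0 t).continuous.norm continuous_const

/-- Solutions of the homogeneous recursion. -/
theorem Upper_hom {d n : ℕ} (a : ℕ → (E d →L[ℝ] E d)) (w : Fin (n + 1) → E d)
    (hw : ∀ t : Fin n, w t.succ = a t (w t.castSucc)) (t : Fin (n + 1)) :
    cp a 0 t (w 0) = w t := by
  induction t using Fin.induction with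
  | zero => rfl
  | succ t ih =>
    rw [hw, ← ih, Fin.val_succ, Fin.val_castSucc, cp, zero_add]
    rfl

/-- The volume of the linear tube. -/
theorem Upper_lin {d n : ℕ} (a : ℕ → (E d →L[ℝ] E d))
    (𝒢 : (Fin n → E d) →L[ℝ] (Fin (n + 1) → E d))
    (h𝒢 : ∀ (ξ : Fin n → E d) (t : Fin n), 𝒢 ξ t.succ - a t (𝒢 ξ t.castSucc) = ξ t)
    (σ r : ℝ) (hσ : ‖𝒢‖ * σ ≤ r) :
    volume {w : Fin (n + 1) → E d | ‖w‖ ≤ r ∧
      (fun t : Fin n => w t.succ - a t (w t.castSucc)) ∈ closedBall (0 : Fin n → E d) σ} ≤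
      volume (Elin a n (2 * r)) * volume (closedBall (0 : Fin n → E d) σ) := by
  have hsh := shear (fun t => a t) (fun t => (a t).continuous.measurable) n
  let Z : Set (E d × (Fin n → E d)) := Prod.snd ⁻¹' closedBall (0 : Fin n → E d) σ ∩
    (fun q => q.1 - 𝒢 q.2 0) ⁻¹' Elin a n (2 * r)
  have hZ : MeasurableSet Z := by
    refine IsClosed.measurableSet ((isClosed_closedBall.preimage continuous_snd).inter
      ((Upper_closed a _).preimage ?_))
    exact continuous_fst.sub ((continuous_apply 0).comp (𝒢.continuous.comp continuous_snd))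
  have h1 : (volume : Measure (E d)).prod (volume : Measure (Fin n → E d)) Z =
      volume (Elin a n (2 * r)) * volume (closedBall (0 : Fin n → E d) σ) := by
    rw [Measure.prod_apply_symm hZ, ← setLIntegral_const,
      ← lintegral_indicator isClosed_closedBall.measurableSet]
    refine lintegral_congr fun ξ => ?_
    by_cases hξ : ξ ∈ closedBall (0 : Fin n → E d) σ
    · rw [indicator_of_mem hξ, ← measure_preimage_add_right volume (-𝒢 ξ 0) (Elin a n (2 * r))]
      congr 1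
      ext v
      rw [mem_preimage (f := fun h => h + -𝒢 ξ 0), ← sub_eq_add_neg]
      exact ⟨fun h => h.2, fun h => ⟨hξ, h⟩⟩
    · rw [indicator_of_notMem hξ]
      convert measure_empty (μ := (volume : Measure (E d)))
      ext v
      exact ⟨fun h => hξ h.1, fun h => h.elim⟩
  rw [← h1, ← hsh.measure_preimage hZ.nullMeasurableSet]
  refine measure_mono fun w hw => ⟨hw.2, fun t ht => ?_⟩
  obtain ⟨hw1, hw2⟩ := hw
  set ξ : Fin n → E d := fun t => w t.succ - a t (w t.castSucc) with hξ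
  have h2 := Upper_hom a (w - 𝒢 ξ) (fun t => by
    have := h𝒢 ξ t
    have h' : ξ t = w t.succ - a t (w t.castSucc) := rfl
    rw [Pi.sub_apply, Pi.sub_apply, map_sub, eq_add_of_sub_eq this, h']
    abel) ⟨t, Nat.lt_succ_of_le ht⟩
  change ‖cp a 0 t ((w - 𝒢 ξ) 0)‖ ≤ 2 * r
  rw [h2]
  refine (norm_le_pi_norm _ _).trans ((norm_sub_le _ _).trans ?_)
  have h3 : ‖𝒢 ξ‖ ≤ ‖𝒢‖ * σ :=
    (𝒢.le_opNorm ξ).trans (mul_le_mul_of_nonneg_left (mem_closedBall_zero_iff.1 hw2) (norm_nonneg _))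
  linarith

/-- Noisy orbits stay in the tube. -/
theorem Upper_tube {d n : ℕ} (S : E d → E d) (p : ℕ → E d)
    (a : ℕ → (E d →L[ℝ] E d)) (L κ ρ r σ : ℝ) (ha : ∀ t, ‖a t‖ ≤ L)
    (happ : ∀ t < n, ∀ y ∈ ball (p t) ρ, ∀ z ∈ ball (p t) ρ,
      ‖S y - S z - a t (y - z)‖ ≤ κ * ‖y - z‖)
    (hr : 0 < r) (hρ : 7 * r ≤ ρ) (hκ : 0 ≤ κ) (hσ0 : 0 ≤ σ) (hσ : σ * (L + κ + 1) ^ n ≤ r)
    (u : Fin (n + 1) → E d) (hu : ∀ t ≤ n, ‖S^[t] (u 0) - p t‖ ≤ 5 * r)
    (hu' : ∀ t : Fin n, ‖u t.succ - S (u t.castSucc)‖ ≤ σ) (t : Fin (n + 1)) :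
    ‖u t - p t‖ ≤ 6 * r := by
  have hL : 0 ≤ L := (norm_nonneg _).trans (ha 0)
  have hM : 1 ≤ L + κ + 1 := by linarith
  have hle : ∀ t : Fin (n + 1), σ * (L + κ + 1) ^ (t : ℕ) ≤ r := fun t =>
    le_trans (mul_le_mul_of_nonneg_left (pow_le_pow_right₀ hM (Nat.le_of_lt_succ t.2)) hσ0) hσ
  have hfin : ∀ t : Fin (n + 1), ‖u t - S^[t] (u 0)‖ ≤ σ * (L + κ + 1) ^ (t : ℕ) →
      ‖u t - p t‖ ≤ 6 * r := fun t ht => by
    have h1 := hu t (Nat.le_of_lt_succ t.2)
    have h2 := norm_sub_le_norm_sub_add_norm_sub (u t) (S^[t] (u 0)) (p t)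
    have h3 := hle t
    linarith
  refine hfin t ?_
  induction t using Fin.induction with
  | zero => simpa using hσ0
  | succ t ih =>
    have h1 := hfin _ ih
    rw [Fin.val_castSucc] at ih h1
    have h2 := hu t t.2.le
    have h3 := happ t t.2 (u t.castSucc) (by rw [mem_ball, dist_eq_norm]; linarith)
      (S^[t] (u 0)) (by rw [mem_ball, dist_eq_norm]; linarith)
    have h4 : ‖a t (u t.castSucc - S^[t] (u 0))‖ ≤ L * ‖u t.castSucc - S^[t] (u 0)‖ :=
      ((a t).le_opNorm _).trans (mul_le_mul_of_nonneg_right (ha t) (norm_nonneg _))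
    have h5 := hu' t
    have h6 : u t.succ - S^[(t.succ : Fin (n + 1))] (u 0) = (u t.succ - S (u t.castSucc)) +
        (S (u t.castSucc) - S (S^[t] (u 0)) - a t (u t.castSucc - S^[t] (u 0))) +
        a t (u t.castSucc - S^[t] (u 0)) := by
      rw [Fin.val_succ, Function.iterate_succ_apply']
      abel
    rw [h6, Fin.val_succ, pow_succ]
    refine norm_add₃_le.trans ?_
    have h7 : 1 ≤ (L + κ + 1) ^ (t : ℕ) := one_le_pow₀ hM
    have h8 : (L + κ) * ‖u t.castSucc - S^[t] (u 0)‖ ≤ (L + κ) * (σ * (L + κ + 1) ^ (t : ℕ)) :=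
      mul_le_mul_of_nonneg_left ih (by linarith)
    have h9 : σ ≤ σ * (L + κ + 1) ^ (t : ℕ) := le_mul_of_one_le_right hσ0 h7
    nlinarith

/-- Upper bound for the volume of a true Bowen ball by a linear Bowen ball.

Sketch. `V` = the set on the left (measurable). For a tiny `σ₀ > 0` let
`𝒯 = {u | u 0 ∈ V, ‖u (t+1) - S (u t)‖ ≤ σ₀}`; by `shear`, `vol 𝒯 = vol V * vol(ball σ₀)^n`, and
`‖u t - p t‖ ≤ 6 r` on `𝒯` (errors are multiplied by at most `L + κ` per step). The map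
`Ξ u = (u - p) - 𝒢 (t ↦ S (u t) - p (t+1) - a t (u t - p t))` satisfies
`‖Ξ u - Ξ u'‖ ≥ (1 - G κ) ‖u - u'‖` on the tube, `‖Ξ u‖ ≤ 7 r` and
`Ξ u (t+1) - a t (Ξ u t) = u (t+1) - S (u t)`. So `Ξ 𝒯 ⊆ W = {w | ‖w‖ ≤ 7r, ‖w (t+1) - a t (w t)‖ ≤ σ₀}`
(compact); by `shear` with `g = a` and Fubini (`Measure.prod_apply_symm`), each slice lies in a
translate of `Elin a n (14 r)`, so `vol W ≤ vol(ball σ₀)^n * vol (Elin a n (14 r))`; and
`(1 - G κ)^(-(n+1) d) ≤ 2`. -/
theorem vol_upper {d n : ℕ} (S : E d → E d) (hS : Measurable S) (p : ℕ → E d)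
    (a : ℕ → (E d →L[ℝ] E d)) (L κ ρ r G : ℝ) (hp : ∀ t < n, S (p t) = p (t + 1))
    (ha : ∀ t, ‖a t‖ ≤ L)
    (happ : ∀ t < n, ∀ y ∈ ball (p t) ρ, ∀ z ∈ ball (p t) ρ,
      ‖S y - S z - a t (y - z)‖ ≤ κ * ‖y - z‖)
    (hG : Green a n G) (hr : 0 < r) (hρ : 7 * r ≤ ρ) (hκ : 0 ≤ κ)
    (hsmall : G * κ * ((n + 1) * d + 6) ≤ 1 / 2) :
    volume {x : E d | ∀ t ≤ n, ‖S^[t] x - p t‖ ≤ 5 * r} ≤ 2 * volume (Elin a n (14 * r)) := by
  obtain ⟨𝒢, hG1, hG2⟩ := hG
  have hL : 0 ≤ L := (norm_nonneg _).trans (ha 0)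
  have hG0 : 0 ≤ G := (norm_nonneg _).trans hG1
  have hGκ : 0 ≤ G * κ := mul_nonneg hG0 hκ
  have hD : (0 : ℝ) ≤ (n + 1) * d := by positivity
  have hs1 : G * κ * 6 ≤ 1 / 2 := by nlinarith
  have hs2 : G * κ * ((n + 1) * d) ≤ 1 / 2 := by nlinarith
  have hM : 1 ≤ (L + κ + 1) ^ n := one_le_pow₀ (by linarith)
  set σ : ℝ := r / ((L + κ + 1) ^ n * (G + 1)) with hσ
  have hσ0 : 0 < σ := by positivity
  have hσ1 : σ * ((L + κ + 1) ^ n * (G + 1)) = r := div_mul_cancel₀ _ (by positivity)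
  have hσ2 : σ * (L + κ + 1) ^ n ≤ r := by
    have : 0 ≤ σ * (L + κ + 1) ^ n * G := by positivity
    nlinarith
  have hσ3 : ‖𝒢‖ * σ ≤ 7 * r := by
    have h1 : ‖𝒢‖ * σ ≤ G * σ := mul_le_mul_of_nonneg_right hG1 hσ0.le
    have h2 : σ * (G + 1) ≤ σ * (G + 1) * (L + κ + 1) ^ n :=
      le_mul_of_one_le_right (by positivity) hM
    nlinarith
  set V : Set (E d) := {x : E d | ∀ t ≤ n, ‖S^[t] x - p t‖ ≤ 5 * r} with hV
  have hVm : MeasurableSet V := by
    have : V = ⋂ t, ⋂ _ : t ≤ n, {x | ‖S^[t] x - p t‖ ≤ 5 * r} := by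
      ext x
      simp [hV]
    rw [this]
    exact MeasurableSet.iInter fun t => MeasurableSet.iInter fun _ =>
      measurableSet_le ((hS.iterate t).sub_const _).norm measurable_const
  set B : Set (Fin n → E d) := closedBall 0 σ with hB
  have hB0 : volume B ≠ 0 := (measure_closedBall_pos _ _ hσ0).ne'
  have hB1 : volume B ≠ ⊤ := measure_closedBall_lt_top.ne
  have hsh := shear (fun _ => S) (fun _ => hS) n
  set 𝒯 : Set (Fin (n + 1) → E d) :=
    (fun u : Fin (n + 1) → E d => (u 0, fun t : Fin n => u t.succ - S (u t.castSucc))) ⁻¹'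
      (V ×ˢ B) with h𝒯
  have h1 : volume 𝒯 = volume V * volume B := by
    rw [h𝒯, hsh.measure_preimage (hVm.prod isClosed_closedBall.measurableSet).nullMeasurableSet,
      Measure.prod_prod]
  have htube : ∀ u ∈ 𝒯, ∀ t : Fin (n + 1), ‖u t - p t‖ ≤ 6 * r := fun u hu =>
    Upper_tube S p a L κ ρ r σ ha happ hr hρ hκ hσ0.le hσ2 u hu.1 fun t =>
      (norm_le_pi_norm (fun t : Fin n => u t.succ - S (u t.castSucc)) t).trans
        (mem_closedBall_zero_iff.1 hu.2)
  let P : Fin (n + 1) → E d := fun t => p t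
  let R : (Fin (n + 1) → E d) → Fin n → E d := fun u t =>
    S (u t.castSucc) - p (t + 1) - a t (u t.castSucc - p t)
  let Ξ : (Fin (n + 1) → E d) → Fin (n + 1) → E d := fun u => (u - P) - 𝒢 (R u)
  have hR : ∀ u u' : Fin (n + 1) → E d, (∀ t : Fin (n + 1), ‖u t - p t‖ ≤ 6 * r) →
      (∀ t : Fin (n + 1), ‖u' t - p t‖ ≤ 6 * r) → ‖𝒢 (R u) - 𝒢 (R u')‖ ≤ G * κ * ‖u - u'‖ := by
    intro u u' hu hu'
    have h2 : ‖R u - R u'‖ ≤ κ * ‖u - u'‖ := by
      refine (pi_norm_le_iff_of_nonneg (by positivity)).2 fun t => ?_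
      have h3 := hu t.castSucc
      have h4 := hu' t.castSucc
      rw [Fin.val_castSucc] at h3 h4
      have h5 := happ t t.2 (u t.castSucc) (by rw [mem_ball, dist_eq_norm]; linarith)
        (u' t.castSucc) (by rw [mem_ball, dist_eq_norm]; linarith)
      have h6 : (R u - R u') t =
          S (u t.castSucc) - S (u' t.castSucc) - a t (u t.castSucc - u' t.castSucc) := by
        simp only [R, Pi.sub_apply, map_sub]
        abel
      rw [h6]
      exact h5.trans (mul_le_mul_of_nonneg_left (norm_le_pi_norm (u - u') t.castSucc) hκ)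
    rw [← map_sub, mul_assoc]
    exact (𝒢.le_opNorm _).trans (mul_le_mul hG1 h2 (norm_nonneg _) hG0)
  have hRP : R P = 0 := by
    funext t
    simp only [R, P, Fin.val_castSucc, sub_self, map_zero, hp t t.2, Pi.zero_apply]
  have hK : 0 < 1 - G * κ := by linarith
  have h2 := addHaar_le_of_antilipschitz volume 𝒯 Ξ (1 - G * κ)⁻¹ (by positivity)
    fun u hu u' hu' => by
      rw [← div_eq_inv_mul, le_div_iff₀ hK]
      have h3 := hR u u' (htube u hu) (htube u' hu')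
      have h4 : u - u' = (Ξ u - Ξ u') + (𝒢 (R u) - 𝒢 (R u')) := by
        simp only [Ξ]
        abel
      have h5 := norm_add_le (Ξ u - Ξ u') (𝒢 (R u) - 𝒢 (R u'))
      rw [← h4] at h5
      linarith
  have hfr : Module.finrank ℝ (Fin (n + 1) → E d) = (n + 1) * d := by
    rw [Module.finrank_pi_fintype]
    simp
  have h3 : ENNReal.ofReal ((1 - G * κ)⁻¹ ^ Module.finrank ℝ (Fin (n + 1) → E d)) ≤ 2 := by
    rw [hfr, ← ENNReal.ofReal_ofNat]
    refine ENNReal.ofReal_le_ofReal ?_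
    have h4 := one_add_mul_le_pow (a := -(G * κ)) (by linarith) ((n + 1) * d)
    rw [← sub_eq_add_neg] at h4
    push_cast at h4
    rw [inv_pow, inv_le_comm₀ (by positivity) (by norm_num)]
    linarith
  have h4 : Ξ '' 𝒯 ⊆ {w : Fin (n + 1) → E d | ‖w‖ ≤ 7 * r ∧
      (fun t : Fin n => w t.succ - a t (w t.castSucc)) ∈ closedBall (0 : Fin n → E d) σ} := by
    rintro _ ⟨u, hu, rfl⟩
    constructor
    · have h5 := hR u P (htube u hu) fun t => by
        simp only [P, sub_self, norm_zero]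
        positivity
      rw [hRP, map_zero, sub_zero] at h5
      have h6 : ‖u - P‖ ≤ 6 * r :=
        (pi_norm_le_iff_of_nonneg (by positivity)).2 fun t => htube u hu t
      have h7 : G * κ * ‖u - P‖ ≤ G * κ * (6 * r) := mul_le_mul_of_nonneg_left h6 hGκ
      have h8 := norm_sub_le (u - P) (𝒢 (R u))
      change ‖(u - P) - 𝒢 (R u)‖ ≤ 7 * r
      nlinarith
    · have h5 : (fun t : Fin n => Ξ u t.succ - a t (Ξ u t.castSucc)) =
          fun t : Fin n => u t.succ - S (u t.castSucc) := by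
        funext t
        have h6 := eq_add_of_sub_eq (hG2 (R u) t)
        simp only [Ξ, Pi.sub_apply]
        rw [h6]
        simp only [R, P, map_sub, Fin.val_succ, Fin.val_castSucc]
        abel
      rw [h5]
      exact hu.2
  have h5 := (measure_mono h4).trans (Upper_lin a 𝒢 hG2 σ (7 * r) hσ3)
  rw [show 2 * (7 * r) = 14 * r by ring] at h5
  rw [← ENNReal.mul_le_mul_iff_left hB0 hB1, ← h1, mul_assoc]
  exact h2.trans (mul_le_mul' h3 h5)

end Crest.Agent.R133
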